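import Mathlib

/-!
# P097: compactness along an ultrafilter (Montel), strip valued families modulo one

`montel_full` (same text as in P274) and `ult_strip`: functions with values in the strip
`|Im x| < H`, normalised modulo integers at one point, converge locally uniformly to a function
with values in the open strip.
-/

set_option linter.all false

noncomputable section

open Filter Metric Set Topology

namespace Vale.Agent.P097.H190.Ult

variable {ι : Type*} {E F : Type*} [NormedAddCommGroup E] [NormedSpace ℂ E]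
  [NormedAddCommGroup F] [NormedSpace ℂ F]

/-- A family of maps which is, eventually along `l`, holomorphic and bounded near every
point of `U`. -/
def LocBdd (l : Filter ι) (f : ι → E → F) (U : Set E) : Prop :=
  ∀ x ∈ U, ∃ r > 0, ∃ C : ℝ, ∀ᶠ j in l,
    DifferentiableOn ℂ (f j) (ball x r) ∧ ∀ y ∈ ball x r, ‖f j y‖ ≤ C

theorem lip_of_bdd {f : E → F} {x : E} {r C : ℝ} (hr : 0 < r)
    (hd : DifferentiableOn ℂ f (ball x r)) (hC : ∀ y ∈ ball x r, ‖f y‖ ≤ C)
    {y z : E} (hy : y ∈ ball x (r / 4)) (hz : z ∈ ball x (r / 4)) :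
    dist (f z) (f y) ≤ 4 * C / r * dist z y := by
  have hyb : ball y (r / 2) ⊆ ball x r := by
    intro w hw
    rw [mem_ball] at *
    have := dist_triangle w y x
    linarith
  have h1 : MapsTo f (ball y (r / 2)) (closedBall (f y) (2 * C)) := by
    intro w hw
    have h1 := hC w (hyb hw)
    have h2 := hC y (hyb (mem_ball_self (by positivity)))
    rw [mem_closedBall, dist_eq_norm]
    have := norm_sub_le (f w) (f y)
    linarith
  have hzy : z ∈ ball y (r / 2) := by
    rw [mem_ball] at *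
    have := dist_triangle z x y
    rw [dist_comm x y] at this
    linarith only [this, hz, hy]
  have h2 := Complex.dist_le_div_mul_dist_of_mapsTo_ball (hd.mono hyb) h1 hzy
  have h3 : 2 * C / (r / 2) = 4 * C / r := by field_simp; ring
  rwa [h3] at h2

/-- Montel's theorem, with the extraction of a subsequence replaced by an ultrafilter limit. -/
theorem montel_full [ProperSpace E] [ProperSpace F] (𝒰 : Ultrafilter ι) {f : ι → E → F} {U : Set E}
    (hU : IsOpen U) (hf : LocBdd (𝒰 : Filter ι) f U) :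
    ∃ g : E → F, DifferentiableOn ℂ g U ∧
      TendstoLocallyUniformlyOn f g (𝒰 : Filter ι) U ∧
      ∀ x ∈ U, ∀ u : ι → E, Tendsto u 𝒰 (𝓝 x) → Tendsto (fun j => f j (u j)) 𝒰 (𝓝 (g x)) := by
  have hlim : ∀ x : E, ∃ y : F, x ∈ U → Tendsto (fun j => f j x) 𝒰 (𝓝 y) := by
    intro x
    by_cases hx : x ∈ U
    · obtain ⟨r, hr, C, hC⟩ := hf x hx
      have h1 : ∀ᶠ j in (𝒰 : Filter ι), f j x ∈ closedBall (0 : F) C := by
        filter_upwards [hC] with j hj
        simpa using hj.2 x (mem_ball_self hr)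
      obtain ⟨y, -, hy⟩ := (isCompact_closedBall (0 : F) C).ultrafilter_le_nhds
        (𝒰.map (fun j => f j x)) (by
          rw [le_principal_iff]
          exact h1)
      exact ⟨y, fun _ => hy⟩
    · exact ⟨0, fun h => absurd h hx⟩
  choose g hg using hlim
  -- continuous convergence
  have hcont : ∀ x ∈ U, ∀ u : ι → E, Tendsto u 𝒰 (𝓝 x) →
      Tendsto (fun j => f j (u j)) 𝒰 (𝓝 (g x)) := by
    intro x hx u hu
    obtain ⟨r, hr, C, hC⟩ := hf x hx
    have h1 : Tendsto (fun j => 4 * C / r * dist (u j) x) 𝒰 (𝓝 0) := by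
      have : Tendsto (fun j => dist (u j) x) 𝒰 (𝓝 0) := tendsto_iff_dist_tendsto_zero.1 hu
      simpa using this.const_mul (4 * C / r)
    have h2 : Tendsto (fun j => dist (f j (u j)) (f j x)) 𝒰 (𝓝 0) := by
      refine squeeze_zero' (Eventually.of_forall fun j => dist_nonneg) ?_ h1
      filter_upwards [hC, hu (ball_mem_nhds x (show 0 < r / 4 by positivity))] with j hj hj2
      exact lip_of_bdd hr hj.1 hj.2 (mem_ball_self (by positivity)) hj2
    exact (tendsto_iff_of_dist h2).2 (hg x hx)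
  have hpt : ∀ x ∈ U, Tendsto (fun j => f j x) 𝒰 (𝓝 (g x)) := fun x hx => hg x hx
  suffices hmain : ∀ x ∈ U, DifferentiableAt ℂ g x ∧ ∃ ρ > 0, ∀ ε > 0,
      ∀ᶠ j in (𝒰 : Filter ι), ∀ y ∈ closedBall x ρ, dist (f j y) (g y) ≤ ε by
    refine ⟨g, fun x hx => (hmain x hx).1.differentiableWithinAt, ?_, hcont⟩
    rw [Metric.tendstoLocallyUniformlyOn_iff]
    intro ε hε x hx
    obtain ⟨-, ρ, hρ, h⟩ := hmain x hx
    refine ⟨closedBall x ρ, mem_nhdsWithin_of_mem_nhds (closedBall_mem_nhds x hρ), ?_⟩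
    filter_upwards [h (ε / 2) (by positivity)] with j hj y hy
    rw [dist_comm]
    linarith [hj y hy]
  intro x hx
  obtain ⟨r, hr, C, hC⟩ := hf x hx
  obtain ⟨ρ0, hρ0, hρU⟩ := Metric.isOpen_iff.1 hU x hx
  obtain ⟨ρ, hρ, hρ1, hρ2⟩ : ∃ ρ > 0, ρ < ρ0 ∧ ρ < r / 4 :=
    ⟨min ρ0 (r / 4) / 2, by positivity, by
      have := min_le_left ρ0 (r / 4)
      have h2 : 0 < min ρ0 (r / 4) := by positivity
      linarith, by
      have := min_le_right ρ0 (r / 4)
      have h2 : 0 < min ρ0 (r / 4) := by positivity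
      linarith⟩
  have hballU : closedBall x ρ ⊆ U := (closedBall_subset_ball hρ1).trans hρU
  have hballr : closedBall x ρ ⊆ ball x r := closedBall_subset_ball (by linarith)
  -- uniform convergence on the closed ball
  have huc : ∀ ε > 0, ∀ᶠ j in (𝒰 : Filter ι), ∀ y ∈ closedBall x ρ, dist (f j y) (g y) ≤ ε := by
    intro ε hε
    by_contra hcon
    rw [← Ultrafilter.eventually_not] at hcon
    have h2 : ∀ᶠ j in (𝒰 : Filter ι), ∃ y, y ∈ closedBall x ρ ∧ ε < dist (f j y) (g y) := by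
      filter_upwards [hcon] with j hj
      push Not at hj
      exact hj
    have h3 : ∃ u : ι → E, ∀ᶠ j in (𝒰 : Filter ι), u j ∈ closedBall x ρ ∧
        ε < dist (f j (u j)) (g (u j)) := by
      classical
      refine ⟨fun j => if h : ∃ y, y ∈ closedBall x ρ ∧ ε < dist (f j y) (g y)
        then h.choose else x, ?_⟩
      filter_upwards [h2] with j hj
      simp only [hj, dite_true]
      exact hj.choose_spec
    obtain ⟨u, hu⟩ := h3
    obtain ⟨y, hy, hy2⟩ := (isCompact_closedBall x ρ).ultrafilter_le_nhds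
        (𝒰.map u) (by
          rw [le_principal_iff]
          exact hu.mono fun j hj => hj.1)
    have hyU := hballU hy
    have hu2 : Tendsto u 𝒰 (𝓝 y) := hy2
    have h4 := hcont y hyU u hu2
    have h5 : Tendsto (fun j => g (u j)) 𝒰 (𝓝 (g y)) := by
      -- `g` is Lipschitz on the ball
      have h6 : ∀ᶠ j in (𝒰 : Filter ι), dist (g (u j)) (g y) ≤ 4 * C / r * dist (u j) y := by
        filter_upwards [hu] with j hj
        have h7 : Tendsto (fun i => dist (f i (u j)) (f i y)) 𝒰 (𝓝 (dist (g (u j)) (g y))) :=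
          (hpt _ (hballU hj.1)).dist (hpt _ hyU)
        refine le_of_tendsto h7 ?_
        filter_upwards [hC] with i hi
        exact lip_of_bdd hr hi.1 hi.2 (closedBall_subset_ball hρ2 hy)
          (closedBall_subset_ball hρ2 hj.1)
      have h7 : Tendsto (fun j => 4 * C / r * dist (u j) y) 𝒰 (𝓝 0) := by
        have : Tendsto (fun j => dist (u j) y) 𝒰 (𝓝 0) := tendsto_iff_dist_tendsto_zero.1 hu2
        simpa using this.const_mul (4 * C / r)
      exact tendsto_iff_dist_tendsto_zero.2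
        (squeeze_zero' (Eventually.of_forall fun j => dist_nonneg) h6 h7)
    have h8 : Tendsto (fun j => dist (f j (u j)) (g (u j))) 𝒰 (𝓝 0) := by
      simpa using h4.dist h5
    have h9 := h8.eventually (gt_mem_nhds hε)
    obtain ⟨j, hj1, hj2⟩ := (h9.and hu).exists
    linarith [hj2.2]
  -- Cauchy estimate for derivatives
  have hkey : ∀ η > 0, ∀ j k, DifferentiableOn ℂ (f j) (ball x r) →
      DifferentiableOn ℂ (f k) (ball x r) → (∀ y ∈ closedBall x ρ, dist (f j y) (g y) ≤ η) →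
      (∀ y ∈ closedBall x ρ, dist (f k y) (g y) ≤ η) →
      ∀ y ∈ ball x (ρ / 2), dist (fderiv ℂ (f j) y) (fderiv ℂ (f k) y) ≤ 8 * η / ρ := by
    intro η hη j k hj hk hj2 hk2 y hy
    have hyb : ball y (ρ / 2) ⊆ ball x ρ := by
      intro w hw
      rw [mem_ball] at *
      have := dist_triangle w y x
      linarith only [this, hw, hy]
    have hyr : ball y (ρ / 2) ⊆ ball x r := (hyb.trans ball_subset_closedBall).trans hballr
    have hyy : y ∈ ball x r := hyr (mem_ball_self (by positivity))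
    have hdj : DifferentiableAt ℂ (f j) y := hj.differentiableAt (isOpen_ball.mem_nhds hyy)
    have hdk : DifferentiableAt ℂ (f k) y := hk.differentiableAt (isOpen_ball.mem_nhds hyy)
    have hb : ∀ w ∈ ball y (ρ / 2), ‖(f j - f k) w‖ ≤ 2 * η := by
      intro w hw
      have h1 := hj2 w (ball_subset_closedBall (hyb hw))
      have h2 := hk2 w (ball_subset_closedBall (hyb hw))
      have h3 := dist_triangle_right (f j w) (f k w) (g w)
      rw [Pi.sub_apply, ← dist_eq_norm]
      linarith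
    have hm : MapsTo (f j - f k) (ball y (ρ / 2)) (closedBall ((f j - f k) y) (4 * η)) := by
      intro w hw
      have h1 := hb w hw
      have h2 := hb y (mem_ball_self (by positivity))
      rw [mem_closedBall, dist_eq_norm]
      have := norm_sub_le ((f j - f k) w) ((f j - f k) y)
      linarith
    have h1 := Complex.norm_fderiv_le_div_of_mapsTo_ball
      ((hj.mono hyr).sub (hk.mono hyr)) hm (by positivity)
    have h2 : fderiv ℂ (f j - f k) y = fderiv ℂ (f j) y - fderiv ℂ (f k) y :=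
      fderiv_sub hdj hdk
    rw [h2, ← dist_eq_norm] at h1
    have h3 : 4 * η / (ρ / 2) = 8 * η / ρ := by field_simp; ring
    rwa [h3] at h1
  have hgood : ∀ η > 0, ∀ᶠ j in (𝒰 : Filter ι), DifferentiableOn ℂ (f j) (ball x r) ∧
      ∀ y ∈ closedBall x ρ, dist (f j y) (g y) ≤ η := fun η hη =>
    (hC.mono fun j hj => hj.1).and (huc η hη)
  -- limits of the derivatives
  have hdlim : ∀ y : E, ∃ T : E →L[ℂ] F, y ∈ ball x (ρ / 2) →
      Tendsto (fun j => fderiv ℂ (f j) y) 𝒰 (𝓝 T) := by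
    intro y
    by_cases hy : y ∈ ball x (ρ / 2)
    · have hcau : Cauchy (map (fun j => fderiv ℂ (f j) y) (𝒰 : Filter ι)) := by
        rw [Metric.cauchy_iff]
        refine ⟨inferInstance, fun ε hε => ?_⟩
        have hη : 0 < ε * ρ / 16 := by positivity
        refine ⟨_, image_mem_map (hgood _ hη), ?_⟩
        rintro _ ⟨j, hj, rfl⟩ _ ⟨k, hk, rfl⟩
        have h := hkey _ hη j k hj.1 hk.1 hj.2 hk.2 y hy
        have h2 : 8 * (ε * ρ / 16) / ρ = ε / 2 := by field_simp; ring
        rw [h2] at h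
        linarith only [h, hε]
      obtain ⟨T, hT⟩ := CompleteSpace.complete hcau
      exact ⟨T, fun _ => hT⟩
    · exact ⟨0, fun h => absurd h hy⟩
  choose g' hg' using hdlim
  have hρ2 : 0 < ρ / 2 := by positivity
  have hunif : TendstoUniformlyOnFilter (fun j => fderiv ℂ (f j)) g' (𝒰 : Filter ι) (𝓝 x) := by
    rw [Metric.tendstoUniformlyOnFilter_iff]
    intro ε hε
    have hη : 0 < ε * ρ / 16 := by positivity
    have h1 := Filter.Eventually.prod_mk (hgood _ hη) (show ∀ᶠ y in 𝓝 x, y ∈ ball x (ρ / 2) from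
      ball_mem_nhds x hρ2)
    filter_upwards [h1] with n hn
    obtain ⟨hn1, hn2⟩ := hn
    have h2 : Tendsto (fun i => dist (fderiv ℂ (f i) n.2) (fderiv ℂ (f n.1) n.2)) 𝒰
        (𝓝 (dist (g' n.2) (fderiv ℂ (f n.1) n.2))) := (hg' _ hn2).dist tendsto_const_nhds
    have h3 : dist (g' n.2) (fderiv ℂ (f n.1) n.2) ≤ 8 * (ε * ρ / 16) / ρ := by
      refine le_of_tendsto h2 ?_
      filter_upwards [hgood _ hη] with i hi
      exact hkey _ hη i n.1 hi.1 hn1.1 hi.2 hn1.2 _ hn2
    have h4 : 8 * (ε * ρ / 16) / ρ = ε / 2 := by field_simp; ring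
    rw [h4] at h3
    linarith only [h3, hε]
  have hd : ∀ᶠ n : ι × E in (𝒰 : Filter ι) ×ˢ 𝓝 x,
      HasFDerivAt (f n.1) (fderiv ℂ (f n.1) n.2) n.2 := by
    have h1 := Filter.Eventually.prod_mk hC (show ∀ᶠ y in 𝓝 x, y ∈ ball x r from
      ball_mem_nhds x hr)
    filter_upwards [h1] with n hn
    exact (hn.1.1.differentiableAt (isOpen_ball.mem_nhds hn.2)).hasFDerivAt
  refine ⟨(hasFDerivAt_of_tendstoUniformlyOnFilter (f := f) hunif hd ?_).differentiableAt,
    ρ, hρ, huc⟩
  filter_upwards [ball_mem_nhds x hρ] with y hy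
  exact hpt y (hballU (ball_subset_closedBall hy))

theorem montel [ProperSpace E] [ProperSpace F] (𝒰 : Ultrafilter ι) {f : ι → E → F} {U : Set E}
    (hU : IsOpen U) (hf : LocBdd (𝒰 : Filter ι) f U) :
    ∃ g : E → F, DifferentiableOn ℂ g U ∧
      ∀ x ∈ U, ∀ u : ι → E, Tendsto u 𝒰 (𝓝 x) → Tendsto (fun j => f j (u j)) 𝒰 (𝓝 (g x)) := by
  obtain ⟨g, h1, -, h2⟩ := montel_full 𝒰 hU hf
  exact ⟨g, h1, h2⟩


/-- oscillation of a strip valued function (Borel-Caratheodory) -/
theorem bc_osc {f : E → ℂ} {x : E} {R H : ℝ} (hH : 0 < H)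
    (hd : DifferentiableOn ℂ f (ball x R)) (hs : ∀ y ∈ ball x R, |(f y).im| ≤ H) {z : E}
    (hz : z ∈ ball x R) : ‖f z - f x‖ ≤ 4 * H * ‖z - x‖ / (R - ‖z - x‖) := by
  rw [mem_ball, dist_eq_norm] at hz
  have hR : 0 < R := lt_of_le_of_lt (norm_nonneg _) hz
  rcases eq_or_ne z x with rfl | hne
  · simp
  have hn : 0 < ‖z - x‖ := norm_pos_iff.mpr (sub_ne_zero.mpr hne)
  set v : E := ((‖z - x‖⁻¹ : ℝ) : ℂ) • (z - x) with hv
  have hvn : ‖v‖ = 1 := by
    rw [hv, norm_smul, Complex.norm_real, Real.norm_eq_abs, abs_of_pos (inv_pos.mpr hn)]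
    exact inv_mul_cancel₀ hn.ne'
  set g : ℂ → ℂ := fun t => -Complex.I * (f (x + t • v) - f x) with hg
  have hmap : ∀ t ∈ ball (0 : ℂ) R, x + t • v ∈ ball x R := by
    intro t ht
    rw [mem_ball_zero_iff] at ht
    rw [mem_ball, dist_eq_norm]
    have : x + t • v - x = t • v := by abel
    rw [this, norm_smul, hvn, mul_one]
    exact ht
  have hgd : DifferentiableOn ℂ g (ball 0 R) := by
    have h1 : DifferentiableOn ℂ (fun t : ℂ => f (x + t • v)) (ball 0 R) :=
      hd.comp (by fun_prop) hmap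
    exact (h1.sub_const _).const_mul _
  have hg0 : g 0 = 0 := by simp [hg]
  have hre : MapsTo g (ball 0 R) {w | w.re ≤ 2 * H} := by
    intro t ht
    have h1 := abs_le.mp (hs _ (hmap t ht))
    have h2 := abs_le.mp (hs x (mem_ball_self hR))
    show (g t).re ≤ 2 * H
    have h3 : (g t).re = (f (x + t • v)).im - (f x).im := by
      simp [hg, Complex.mul_re]
    rw [h3]; linarith [h1.2, h2.1]
  have hmem : ((‖z - x‖ : ℝ) : ℂ) ∈ ball (0 : ℂ) R := by
    rw [mem_ball_zero_iff, Complex.norm_real, norm_norm]; exact hz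
  have hkey := Complex.borelCaratheodory_zero (by positivity : 0 < 2 * H) hgd hre hR hmem hg0
  have hpt : x + ((‖z - x‖ : ℝ) : ℂ) • v = z := by
    rw [hv, smul_smul, ← Complex.ofReal_mul, mul_inv_cancel₀ hn.ne', Complex.ofReal_one, one_smul]
    abel
  rw [Complex.norm_real, norm_norm] at hkey
  have h5 : ‖g ((‖z - x‖ : ℝ) : ℂ)‖ = ‖f z - f x‖ := by
    simp only [hg]
    rw [hpt, norm_mul, norm_neg, Complex.norm_I, one_mul]
  rw [h5] at hkey
  calc ‖f z - f x‖ ≤ 2 * (2 * H) * ‖z - x‖ / (R - ‖z - x‖) := hkey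
    _ = 4 * H * ‖z - x‖ / (R - ‖z - x‖) := by ring

/-- near every point eventually holomorphic with values in the closed strip -/
def LocStrip (l : Filter ι) (f : ι → E → ℂ) (H : ℝ) (U : Set E) : Prop :=
  ∀ x ∈ U, ∃ r > 0, ∀ᶠ j in l, DifferentiableOn ℂ (f j) (ball x r) ∧
    ∀ y ∈ ball x r, |(f j y).im| ≤ H

/-- **Strong maximum principle** for the imaginary part. -/
theorem im_lt {g : E → ℂ} {U : Set E} (hU : IsOpen U) (hc : IsPreconnected U) {H : ℝ}
    (hd : DifferentiableOn ℂ g U) (hs : ∀ x ∈ U, |(g x).im| ≤ H) {z₀ : E} (hz₀ : z₀ ∈ U)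
    (h0 : |(g z₀).im| < H) : ∀ x ∈ U, |(g x).im| < H := by
  -- one side
  have key : ∀ s : ℂ, (s = Complex.I ∨ s = -Complex.I) → ∀ x ∈ U, (s * g x).re < H := by
    intro s hs1 x hx
    have hre : ∀ y ∈ U, (s * g y).re ≤ H := by
      intro y hy
      have := abs_le.mp (hs y hy)
      rcases hs1 with rfl | rfl
      · simp [Complex.mul_re]; linarith [this.1]
      · simp [Complex.mul_re]; linarith [this.2]
    by_contra hcon
    push Not at hcon
    have heq : (s * g x).re = H := le_antisymm (hre x hx) hcon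
    have hF : DifferentiableOn ℂ (fun y => Complex.exp (s * g y)) U :=
      (hd.const_mul s).cexp
    have hmax : IsMaxOn (norm ∘ fun y => Complex.exp (s * g y)) U x := by
      intro y hy
      show ‖Complex.exp (s * g y)‖ ≤ ‖Complex.exp (s * g x)‖
      rw [Complex.norm_exp, Complex.norm_exp, heq]
      exact Real.exp_le_exp.mpr (hre y hy)
    have h1 := Complex.norm_eqOn_of_isPreconnected_of_isMaxOn hc hU hF hx hmax hz₀
    simp only [Function.comp_apply, Function.const_apply, Complex.norm_exp, Real.exp_eq_exp,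
      heq] at h1
    have h2 := abs_lt.mp h0
    rcases hs1 with rfl | rfl
    · simp [Complex.mul_re] at h1; linarith [h2.1]
    · simp [Complex.mul_re] at h1; linarith [h2.2]
  intro x hx
  have h1 := key Complex.I (Or.inl rfl) x hx
  have h2 := key (-Complex.I) (Or.inr rfl) x hx
  simp [Complex.mul_re] at h1 h2
  rw [abs_lt]
  constructor <;> linarith

/-- **Strip valued families modulo one converge along an ultrafilter.** -/
theorem ult_strip [ProperSpace E] (𝒰 : Ultrafilter ι) {f : ι → E → ℂ} {U : Set E} {H η : ℝ}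
    (hU : IsOpen U) (hc : IsPreconnected U) (hH : 0 < H) (hη : 0 < η)
    (hf : LocStrip (𝒰 : Filter ι) f H U) {z₀ : E} (hz₀ : z₀ ∈ U)
    (h0 : ∀ᶠ j in (𝒰 : Filter ι), |(f j z₀).im| ≤ H - η) :
    ∃ (N : ι → ℤ) (g : E → ℂ), (∀ j, N j = ⌊(f j z₀).re⌋) ∧ DifferentiableOn ℂ g U ∧
      TendstoLocallyUniformlyOn (fun j z => f j z - (N j : ℂ)) g (𝒰 : Filter ι) U ∧
      (∀ x ∈ U, |(g x).im| < H) ∧ |(g z₀).im| ≤ H - η := by
  set N : ι → ℤ := fun j => ⌊(f j z₀).re⌋ with hN
  set S : Set E := {x | x ∈ U ∧ ∃ C : ℝ, ∀ᶠ j in (𝒰 : Filter ι), ‖f j x - (N j : ℂ)‖ ≤ C} with hS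
  -- oscillation
  have hosc : ∀ x ∈ U, ∃ r > 0, ball x r ⊆ U ∧ ∀ᶠ j in (𝒰 : Filter ι),
      DifferentiableOn ℂ (f j) (ball x r) ∧ (∀ y ∈ ball x r, |(f j y).im| ≤ H) ∧
      ∀ y ∈ ball x r, ‖f j y - f j x‖ ≤ 4 * H := by
    intro x hx
    obtain ⟨r, hr, hev⟩ := hf x hx
    obtain ⟨r', hr', hrU⟩ := Metric.isOpen_iff.mp hU x hx
    set ρ := min r r' with hρ
    have hρ0 : 0 < ρ := by positivity
    refine ⟨ρ / 2, by positivity, (ball_subset_ball ?_).trans hrU, ?_⟩
    · have : ρ ≤ r' := min_le_right _ _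
      linarith
    filter_upwards [hev] with j hj
    have hsub : ball x ρ ⊆ ball x r := ball_subset_ball (min_le_left _ _)
    have hsub2 : ball x (ρ / 2) ⊆ ball x ρ := ball_subset_ball (by linarith)
    refine ⟨hj.1.mono (hsub2.trans hsub), fun y hy => hj.2 y (hsub (hsub2 hy)), fun y hy => ?_⟩
    have h1 := bc_osc hH (hj.1.mono hsub) (fun y hy => hj.2 y (hsub hy)) (hsub2 hy)
    rw [mem_ball, dist_eq_norm] at hy
    refine h1.trans ?_
    rw [div_le_iff₀ (by linarith)]
    have := norm_nonneg (y - x)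
    nlinarith
  have hSU : U ⊆ S := by
    have hSo : IsOpen S := by
      rw [isOpen_iff_mem_nhds]
      rintro x ⟨hx, C, hC⟩
      obtain ⟨r, hr, hrU, hev⟩ := hosc x hx
      filter_upwards [ball_mem_nhds x hr] with y hy
      refine ⟨hrU hy, C + 4 * H, ?_⟩
      filter_upwards [hC, hev] with j hj1 hj2
      have h1 := hj2.2.2 y hy
      calc ‖f j y - (N j : ℂ)‖ = ‖(f j x - (N j : ℂ)) + (f j y - f j x)‖ := by congr 1; ring
        _ ≤ ‖f j x - (N j : ℂ)‖ + ‖f j y - f j x‖ := norm_add_le _ _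
        _ ≤ C + 4 * H := by linarith
    have hWo : IsOpen (U \ S) := by
      rw [isOpen_iff_mem_nhds]
      rintro x ⟨hx, hxS⟩
      obtain ⟨r, hr, hrU, hev⟩ := hosc x hx
      filter_upwards [ball_mem_nhds x hr] with y hy
      refine ⟨hrU hy, fun hyS => hxS ⟨hx, ?_⟩⟩
      obtain ⟨-, C, hC⟩ := hyS
      refine ⟨C + 4 * H, ?_⟩
      filter_upwards [hC, hev] with j hj1 hj2
      have h1 := hj2.2.2 y hy
      calc ‖f j x - (N j : ℂ)‖ = ‖(f j y - (N j : ℂ)) - (f j y - f j x)‖ := by congr 1; ring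
        _ ≤ ‖f j y - (N j : ℂ)‖ + ‖f j y - f j x‖ := norm_sub_le _ _
        _ ≤ C + 4 * H := by linarith
    refine hc.subset_left_of_subset_union hSo hWo disjoint_sdiff_self_right ?_ ?_
    · intro x hx
      by_cases h : x ∈ S
      · exact Or.inl h
      · exact Or.inr ⟨hx, h⟩
    · refine ⟨z₀, hz₀, hz₀, 1 + H, ?_⟩
      filter_upwards [h0] with j hj
      have h1 : |(f j z₀ - (N j : ℂ)).re| ≤ 1 := by
        simp only [Complex.sub_re, Complex.intCast_re, hN]
        rw [abs_le]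
        constructor
        · linarith [Int.floor_le (f j z₀).re]
        · linarith [Int.lt_floor_add_one (f j z₀).re]
      have h2 : |(f j z₀ - (N j : ℂ)).im| ≤ H := by
        simp only [Complex.sub_im, Complex.intCast_im, sub_zero]
        linarith
      exact (Complex.norm_le_abs_re_add_abs_im _).trans (by linarith)
  have hlb : LocBdd (𝒰 : Filter ι) (fun j z => f j z - (N j : ℂ)) U := by
    intro x hx
    obtain ⟨-, C, hC⟩ := hSU hx
    obtain ⟨r, hr, hrU, hev⟩ := hosc x hx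
    refine ⟨r, hr, C + 4 * H, ?_⟩
    filter_upwards [hC, hev] with j hj1 hj2
    refine ⟨hj2.1.sub_const _, fun y hy => ?_⟩
    have h1 := hj2.2.2 y hy
    calc ‖f j y - (N j : ℂ)‖ = ‖(f j x - (N j : ℂ)) + (f j y - f j x)‖ := by congr 1; ring
      _ ≤ ‖f j x - (N j : ℂ)‖ + ‖f j y - f j x‖ := norm_add_le _ _
      _ ≤ C + 4 * H := by linarith
  obtain ⟨g, hgd, hgu, hgc⟩ := montel_full 𝒰 hU hlb
  have hpt : ∀ x ∈ U, Tendsto (fun j => f j x - (N j : ℂ)) 𝒰 (𝓝 (g x)) := fun x hx =>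
    hgc x hx (fun _ => x) tendsto_const_nhds
  have himt : ∀ x ∈ U, Tendsto (fun j => |(f j x).im|) 𝒰 (𝓝 |(g x).im|) := by
    intro x hx
    have h1 : Tendsto (fun j => |(f j x - (N j : ℂ)).im|) 𝒰 (𝓝 |(g x).im|) :=
      ((Complex.continuous_im.tendsto _).comp (hpt x hx)).abs
    refine h1.congr fun j => ?_
    simp
  have hle : ∀ x ∈ U, |(g x).im| ≤ H := by
    intro x hx
    obtain ⟨r, hr, hrU, hev⟩ := hosc x hx
    exact le_of_tendsto (himt x hx) (hev.mono fun j hj => hj.2.1 x (mem_ball_self hr))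
  have hz : |(g z₀).im| ≤ H - η := le_of_tendsto (himt z₀ hz₀) h0
  exact ⟨N, g, fun j => rfl, hgd, hgu, im_lt hU hc hgd hle hz₀ (by linarith), hz⟩

end Vale.Agent.P097.H190.Ult
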