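import Vale.Agent.P097.H190.Seq1

/-!
# P097 / case [c] / row W-SEQ, part 2 (helper190): bounds on compacts of the wide domain
-/

set_option linter.all false

noncomputable section

open Complex Metric Filter Topology Set

namespace Vale.Agent.P097.H190.SQ

open Vale.Agent.P097.H929 Vale.Agent.P097.H190.Ult Vale.Agent.P097.H190.WO
open Vale.Agent.P097.TC Vale.Agent.P097.H226.W
open Vale.Agent.P097.A5 (Hon Iso)

/-- block (W) -/
abbrev PWK : Prop := H226.W.PW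

/-! ### the alternative decided at moving points -/

section

variable {F q : ℂ → ℂ} {d : ℝ} {al p : ℂ × ℂ → ℂ} {φ : ℕ → ℂ × ℂ → ℂ × ℂ} (𝒰 : Ultrafilter ℕ)
variable {z₀ : ℂ × ℂ} {zn : ℕ → ℂ × ℂ}

/-- **sign `+`**: isotropic if `Im α → +∞` at moving points -/
theorem iso_outm (hz₀ : z₀ ∈ WO.Wd d) (hzn : Tendsto zn (𝒰 : Filter ℕ) (𝓝 z₀))
    (hal : LocD (𝒰 : Filter ℕ) (fun n z => al (φ n z)) (WO.Wd d))
    (hp : LocD (𝒰 : Filter ℕ) (fun n z => p (φ n z)) (WO.Wd d))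
    (h1 : LocBdd (𝒰 : Filter ℕ) (fun n z => exp (I * al (φ n z))) (WO.Wd d))
    (h2 : LocBdd (𝒰 : Filter ℕ) (fun n z => 2 * p (φ n z) * exp (I * al (φ n z))) (WO.Wd d))
    (ht : Tendsto (fun n => (al (φ n (zn n))).im) (𝒰 : Filter ℕ) atTop) :
    Iso F q d al p φ 𝒰 1 := by
  rcases line_dich 𝒰 (al := fun n z => al (φ n z)) (p := fun n z => p (φ n z))
    (isOpen_Wd d) (convex_Wd d).isPreconnected hz₀ hal hp h1 h2 with ⟨N, h3, h4⟩ | ⟨-, h3⟩
  · exfalso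
    obtain ⟨r, hr, C, hC⟩ := h3 z₀ hz₀
    obtain ⟨n, ⟨hn1, hn2⟩, hn3⟩ := ((hC.and (ht.eventually_gt_atTop C)).and
      (hzn (ball_mem_nhds z₀ hr))).exists
    have h5 := (abs_im_le_norm _).trans (hn1.2 (zn n) hn3)
    have e : (al (φ n (zn n)) - 2 * Real.pi * N n).im = (al (φ n (zn n))).im := by simp [mul_im]
    rw [e] at h5
    exact absurd ((le_abs_self _).trans h5) (not_le.mpr hn2)
  · exact iso_of 𝒰 h3 h2

/-- **sign `-`** -/
theorem iso_outm' (hz₀ : z₀ ∈ WO.Wd d) (hzn : Tendsto zn (𝒰 : Filter ℕ) (𝓝 z₀))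
    (hal : LocD (𝒰 : Filter ℕ) (fun n z => al (φ n z)) (WO.Wd d))
    (hp : LocD (𝒰 : Filter ℕ) (fun n z => p (φ n z)) (WO.Wd d))
    (h1 : LocBdd (𝒰 : Filter ℕ) (fun n z => exp (-I * al (φ n z))) (WO.Wd d))
    (h2 : LocBdd (𝒰 : Filter ℕ) (fun n z => 2 * p (φ n z) * exp (-I * al (φ n z))) (WO.Wd d))
    (ht : Tendsto (fun n => (al (φ n (zn n))).im) (𝒰 : Filter ℕ) atBot) :
    Iso F q d al p φ 𝒰 (-1) := by
  rcases line_dich' 𝒰 (al := fun n z => al (φ n z)) (p := fun n z => p (φ n z))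
    (isOpen_Wd d) (convex_Wd d).isPreconnected hz₀ hal hp h1 h2 with ⟨N, h3, h4⟩ | ⟨-, h3⟩
  · exfalso
    obtain ⟨r, hr, C, hC⟩ := h3 z₀ hz₀
    obtain ⟨n, ⟨hn1, hn2⟩, hn3⟩ := ((hC.and (ht.eventually_lt_atBot (-C))).and
      (hzn (ball_mem_nhds z₀ hr))).exists
    have h5 := (abs_im_le_norm _).trans (hn1.2 (zn n) hn3)
    have e : (al (φ n (zn n)) - 2 * Real.pi * N n).im = (al (φ n (zn n))).im := by simp [mul_im]
    rw [e] at h5
    have := (abs_le.mp h5).1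
    linarith
  · exact iso_of' 𝒰 h3 h2

/-- honest from both signs -/
theorem hon_both (hz₀ : z₀ ∈ WO.Wd d)
    (hal : LocD (𝒰 : Filter ℕ) (fun n z => al (φ n z)) (WO.Wd d))
    (hp : LocD (𝒰 : Filter ℕ) (fun n z => p (φ n z)) (WO.Wd d))
    (h1 : LocBdd (𝒰 : Filter ℕ) (fun n z => exp (I * al (φ n z))) (WO.Wd d))
    (h2 : LocBdd (𝒰 : Filter ℕ) (fun n z => 2 * p (φ n z) * exp (I * al (φ n z))) (WO.Wd d))
    (h1' : LocBdd (𝒰 : Filter ℕ) (fun n z => exp (-I * al (φ n z))) (WO.Wd d)) :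
    Hon F q d al p φ 𝒰 := by
  obtain ⟨r, hr, C, hC⟩ := h1' z₀ hz₀
  refine (line_out 𝒰 hz₀ hal hp h1 h2).1 (Real.log (max C 1)) ?_
  filter_upwards [hC] with n hn
  have h3 := hn.2 z₀ (mem_ball_self hr)
  rw [norm_exp_neg_I_mul] at h3
  rw [Real.le_log_iff_exp_le (by positivity)]
  exact h3.trans (le_max_left _ _)

end

/-! ### the four functions and their maximum -/

/-- the maximum of the four functions -/
def mx (al p : ℂ × ℂ → ℂ) (z : ℂ × ℂ) : ℝ :=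
  max (max ‖exp (I * al z)‖ ‖exp (-I * al z)‖)
    (max ‖2 * p z * exp (I * al z)‖ ‖2 * p z * exp (-I * al z)‖)

theorem mx_le {al p : ℂ × ℂ → ℂ} {z : ℂ × ℂ} {A : ℝ} (h : mx al p z ≤ A) {sg : ℝ}
    (hs : sg = 1 ∨ sg = -1) :
    ‖exp (sg * I * al z)‖ ≤ A ∧ ‖2 * p z * exp (sg * I * al z)‖ ≤ A := by
  have h1 := (max_le_iff.mp h).1
  have h2 := (max_le_iff.mp h).2
  rcases hs with rfl | rfl
  · have e : ((1 : ℝ) : ℂ) * I * al z = I * al z := by push_cast; ring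
    rw [e]
    exact ⟨(max_le_iff.mp h1).1, (max_le_iff.mp h2).1⟩
  · have e : ((-1 : ℝ) : ℂ) * I * al z = -I * al z := by push_cast; ring
    rw [e]
    exact ⟨(max_le_iff.mp h1).2, (max_le_iff.mp h2).2⟩

theorem mx_cont {al p : ℂ × ℂ → ℂ} {D : Set (ℂ × ℂ)} (hal : ContinuousOn al D)
    (hp : ContinuousOn p D) : ContinuousOn (mx al p) D := by
  have e1 : ContinuousOn (fun z => exp (I * al z)) D :=
    Complex.continuous_exp.comp_continuousOn (continuousOn_const.mul hal)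
  have e2 : ContinuousOn (fun z => exp (-I * al z)) D :=
    Complex.continuous_exp.comp_continuousOn (continuousOn_const.mul hal)
  have e3 : ContinuousOn (fun z => 2 * p z * exp (I * al z)) D :=
    (continuousOn_const.mul hp).mul e1
  have e4 : ContinuousOn (fun z => 2 * p z * exp (-I * al z)) D :=
    (continuousOn_const.mul hp).mul e2
  exact (e1.norm.sup e2.norm).sup (e3.norm.sup e4.norm)

/-- the `j`-th compact of the straight tube of slope `δ` -/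
def Ej (δ : ℝ) (j : ℕ) : Set (ℂ × ℂ) :=
  {z | |z.1.re| ≤ 1 - 1 / (j + 2) ∧ |z.1.im| ≤ 1 - 1 / (j + 2) ∧ |z.2.re| ≤ 1 - 1 / (j + 2) ∧
    |z.2.im| ≤ 1 - 1 / (j + 2) ∧ 1 / (j + 2 : ℝ) ≤ z.2.im ∧
    z.1.im ≤ (δ - 1 / (j + 2)) * z.2.im}

theorem isCompact_Ej (δ : ℝ) (j : ℕ) : IsCompact (Ej δ j) := by
  refine Metric.isCompact_of_isClosed_isBounded ?_ ?_
  · simp only [Ej, setOf_and]
    refine IsClosed.inter ?_ (IsClosed.inter ?_ (IsClosed.inter ?_ (IsClosed.inter ?_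
      (IsClosed.inter ?_ ?_))))
    all_goals exact isClosed_le (by fun_prop) (by fun_prop)
  · refine (Metric.isBounded_iff_subset_closedBall (0 : ℂ × ℂ)).mpr ⟨2, ?_⟩
    rintro z ⟨h1, h2, h3, h4, -, -⟩
    have h0 : (0 : ℝ) < 1 / (j + 2) := by positivity
    rw [mem_closedBall_zero_iff, Prod.norm_def]
    refine max_le ?_ ?_
    · exact (norm_le_abs_re_add_abs_im _).trans (by linarith)
    · exact (norm_le_abs_re_add_abs_im _).trans (by linarith)

theorem Ej_sub (δ : ℝ) (j : ℕ) {δ' : ℝ} (h : δ - 1 / (j + 2) < δ') :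
    Ej δ j ⊆ Bx 1 ∩ H226.W.Wd δ' := by
  rintro z ⟨h1, h2, h3, h4, h5, h6⟩
  have h0 : (0 : ℝ) < 1 / (j + 2) := by positivity
  refine ⟨⟨by linarith, by linarith, by linarith, by linarith⟩, by linarith, ?_⟩
  have : (δ - 1 / (j + 2)) * z.2.im < δ' * z.2.im :=
    mul_lt_mul_of_pos_right h (by linarith)
  linarith

/-- a compact subset of the straight tube lies in some `Ej`, uniformly in the slope -/
theorem exists_Ej {δ₀ γ : ℝ} (hγ : 0 < γ) {Z : Set (ℂ × ℂ)} (hZ : IsCompact Z)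
    (h : Z ⊆ Bx 1 ∩ H226.W.Wd δ₀) :
    ∃ j₀ : ℕ, ∀ j : ℕ, j₀ ≤ j → ∀ δ : ℝ, δ₀ + γ ≤ δ → Z ⊆ Ej δ j := by
  rcases Z.eq_empty_or_nonempty with hZ0 | hZ0
  · exact ⟨0, fun j _ δ _ => by simp [hZ0]⟩
  -- one positive lower bound for all the gaps
  set f : ℂ × ℂ → ℝ := fun z => min (min (1 - |z.1.re|) (1 - |z.1.im|))
    (min (min (1 - |z.2.re|) (1 - |z.2.im|)) z.2.im) with hf
  have hfc : Continuous f := by
    rw [hf]; fun_prop
  obtain ⟨z₁, hz₁, hmin⟩ := hZ.exists_isMinOn hZ0 hfc.continuousOn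
  have hpos : 0 < f z₁ := by
    obtain ⟨⟨a1, a2, a3, a4⟩, a5, -⟩ := h hz₁
    simp only [hf]
    refine lt_min (lt_min (by linarith) (by linarith)) (lt_min (lt_min (by linarith) (by linarith)) a5)
  obtain ⟨j₀, hj₀⟩ := exists_nat_one_div_lt (lt_min hpos hγ)
  refine ⟨j₀, fun j hj δ hδ z hz => ?_⟩
  have hj1 : (1 : ℝ) / (j + 2) ≤ min (f z₁) γ := by
    refine le_trans ?_ hj₀.le
    have : (j₀ : ℝ) ≤ j := by exact_mod_cast hj
    exact one_div_le_one_div_of_le (by positivity) (by linarith)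
  have hj2 := hj1.trans (min_le_left _ _)
  have hj3 := hj1.trans (min_le_right _ _)
  have hz1 : f z₁ ≤ f z := hmin hz
  have b1 : f z ≤ 1 - |z.1.re| := (min_le_left _ _).trans (min_le_left _ _)
  have b2 : f z ≤ 1 - |z.1.im| := (min_le_left _ _).trans (min_le_right _ _)
  have b3 : f z ≤ 1 - |z.2.re| := ((min_le_right _ _).trans (min_le_left _ _)).trans (min_le_left _ _)
  have b4 : f z ≤ 1 - |z.2.im| :=
    ((min_le_right _ _).trans (min_le_left _ _)).trans (min_le_right _ _)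
  have b5 : f z ≤ z.2.im := (min_le_right _ _).trans (min_le_right _ _)
  obtain ⟨-, a5, a6⟩ := h hz
  refine ⟨by linarith, by linarith, by linarith, by linarith, by linarith, ?_⟩
  have : δ₀ * z.2.im ≤ (δ - 1 / (j + 2)) * z.2.im :=
    mul_le_mul_of_nonneg_right (by linarith) a5.le
  linarith

end Vale.Agent.P097.H190.SQ
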