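import Mathlib

/-!
# P097: (A5), a simple root persists uniformly along a convergent sequence

`persist`: if `Mn n → M` uniformly near `(z₀, x₀)`, the `Mn n` are analytic there and `x₀` is a
simple root of `M (z₀, ·)`, then for large `n` all `Mn n (z, ·)`, `z` in a fixed ball, have exactly
one root `g z` in a fixed ball about `x₀`; it is simple and depends analytically on `z`.
-/

noncomputable section

open Set Filter Metric
open scoped Topology

namespace Vale.Agent.P097.H190.EN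

variable {E : Type*} [NormedAddCommGroup E] [NormedSpace ℂ E]
variable {ι : Type*} {l : Filter ι} [l.NeBot]

/-- partial derivative in the last variable -/
def dx (F : E × ℂ → ℂ) (p : E × ℂ) : ℂ := deriv (fun y => F (p.1, y)) p.2

theorem dx_eq {F : E × ℂ → ℂ} {p : E × ℂ} (h : AnalyticAt ℂ F p) :
    dx F p = fderiv ℂ F p (0, 1) := by
  have h1 : HasFDerivAt F (fderiv ℂ F p) (p.1, p.2) := h.differentiableAt.hasFDerivAt
  have h2 : HasDerivAt (fun y : ℂ => (p.1, y)) ((0 : E), (1 : ℂ)) p.2 :=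
    (hasDerivAt_const p.2 p.1).prodMk (hasDerivAt_id p.2)
  exact (h1.comp_hasDerivAt p.2 h2).deriv

theorem slice_diff {F : E × ℂ → ℂ} {z₀ : E} {x₀ : ℂ} {r : ℝ}
    (h : AnalyticOnNhd ℂ F (ball z₀ r ×ˢ ball x₀ r)) {z : E} (hz : z ∈ ball z₀ r) :
    DifferentiableOn ℂ (fun y => F (z, y)) (ball x₀ r) := by
  intro x hx
  have h1 : DifferentiableAt ℂ F (z, x) := (h (z, x) ⟨hz, hx⟩).differentiableAt
  have h2 : DifferentiableAt ℂ (fun y : ℂ => (z, y)) x := by fun_prop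
  exact (DifferentiableAt.comp x h1 h2).differentiableWithinAt

omit [NormedAddCommGroup E] [NormedSpace ℂ E] in
/-- Cauchy estimate for the derivative in the last variable -/
theorem dx_le {F : E × ℂ → ℂ} {z : E} {x₀ x : ℂ} {r C : ℝ} (hr : 0 < r)
    (hd : DifferentiableOn ℂ (fun y => F (z, y)) (ball x₀ r))
    (hC : ∀ y ∈ ball x₀ r, ‖F (z, y)‖ ≤ C) (hx : x ∈ ball x₀ (r / 2)) :
    ‖dx F (z, x)‖ ≤ C / (r / 4) := by
  have hsub : closedBall x (r / 4) ⊆ ball x₀ r := by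
    intro y hy
    rw [mem_closedBall] at hy
    rw [mem_ball] at hx ⊢
    calc dist y x₀ ≤ dist y x + dist x x₀ := dist_triangle _ _ _
      _ < r := by linarith
  refine Complex.norm_deriv_le_of_forall_mem_sphere_norm_le (by positivity) ?_ ?_
  · refine DifferentiableOn.diffContOnCl ?_
    rw [closure_ball x (by positivity : r / 4 ≠ 0)]
    exact hd.mono hsub
  · intro y hy
    exact hC y (hsub (sphere_subset_closedBall hy))

omit [NormedAddCommGroup E] [NormedSpace ℂ E] in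
theorem dx_sub {F G : E × ℂ → ℂ} {z : E} {x₀ x : ℂ} {r : ℝ}
    (hF : DifferentiableOn ℂ (fun y => F (z, y)) (ball x₀ r))
    (hG : DifferentiableOn ℂ (fun y => G (z, y)) (ball x₀ r)) (hx : x ∈ ball x₀ r) :
    dx (fun p => F p - G p) (z, x) = dx F (z, x) - dx G (z, x) := by
  have h1 : DifferentiableAt ℂ (fun y => F (z, y)) x :=
    (hF x hx).differentiableAt (isOpen_ball.mem_nhds hx)
  have h2 : DifferentiableAt ℂ (fun y => G (z, y)) x :=
    (hG x hx).differentiableAt (isOpen_ball.mem_nhds hx)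
  exact deriv_sub h1 h2

/-- Local data of the limit: continuity and derivative bounds. -/
theorem limit_data {Mn : ι → E × ℂ → ℂ} {M : E × ℂ → ℂ} {z₀ : E} {x₀ : ℂ} {r : ℝ} (hr : 0 < r)
    (hA : ∀ᶠ n in l, AnalyticOnNhd ℂ (Mn n) (ball z₀ r ×ˢ ball x₀ r))
    (hU : TendstoUniformlyOn Mn M l (ball z₀ r ×ˢ ball x₀ r)) :
    ContinuousOn M (ball z₀ r ×ˢ ball x₀ r) ∧
      (∀ z ∈ ball z₀ r, DifferentiableOn ℂ (fun y => M (z, y)) (ball x₀ r)) ∧
      TendstoUniformlyOn (fun n => dx (Mn n)) (dx M) l (ball z₀ r ×ˢ ball x₀ (r / 2)) ∧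
      ContinuousOn (dx M) (ball z₀ r ×ˢ ball x₀ (r / 2)) := by
  have hc : ContinuousOn M (ball z₀ r ×ˢ ball x₀ r) :=
    hU.continuousOn (hA.mono fun n hn => hn.continuousOn).frequently
  have hd : ∀ z ∈ ball z₀ r, DifferentiableOn ℂ (fun y => M (z, y)) (ball x₀ r) := by
    intro z hz
    have h1 : TendstoUniformlyOn (fun n y => Mn n (z, y)) (fun y => M (z, y)) l
        (ball x₀ r) := by
      rw [Metric.tendstoUniformlyOn_iff] at hU ⊢
      intro ε hε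
      filter_upwards [hU ε hε] with n hn y hy
      exact hn (z, y) ⟨hz, hy⟩
    exact h1.tendstoLocallyUniformlyOn.differentiableOn
      (hA.mono fun n hn => slice_diff hn hz) isOpen_ball
  have hu : TendstoUniformlyOn (fun n => dx (Mn n)) (dx M) l
      (ball z₀ r ×ˢ ball x₀ (r / 2)) := by
    rw [Metric.tendstoUniformlyOn_iff] at hU ⊢
    intro ε hε
    have hε' : 0 < ε * (r / 8) := by positivity
    filter_upwards [hU _ hε', hA] with n hn hAn p hp
    obtain ⟨z, x⟩ := p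
    have hz : z ∈ ball z₀ r := hp.1
    have hx : x ∈ ball x₀ (r / 2) := hp.2
    have hx' : x ∈ ball x₀ r := ball_subset_ball (by linarith) hx
    have h1 := dx_sub (hd z hz) (slice_diff hAn hz) hx'
    have h2 : ‖dx (fun p => M p - Mn n p) (z, x)‖ ≤ ε * (r / 8) / (r / 4) := by
      refine dx_le hr ?_ ?_ hx
      · exact (hd z hz).sub (slice_diff hAn hz)
      · intro y hy
        have := hn (z, y) ⟨hz, hy⟩
        rw [dist_eq_norm] at this
        exact this.le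
    rw [dist_eq_norm, ← h1]
    refine lt_of_le_of_lt h2 ?_
    have : ε * (r / 8) / (r / 4) = ε / 2 := by field_simp; ring
    rw [this]; linarith
  refine ⟨hc, hd, hu, hu.continuousOn (hA.mono fun n hn => ?_).frequently⟩
  intro p hp
  have hp' : p ∈ ball z₀ r ×ˢ ball x₀ r := ⟨hp.1, ball_subset_ball (by linarith) hp.2⟩
  have h1 : ContinuousAt (fun q => fderiv ℂ (Mn n) q (0, 1)) p :=
    ((hn p hp').fderiv.continuousAt).clm_apply continuousAt_const
  have h2 : (fun q => fderiv ℂ (Mn n) q (0, 1)) =ᶠ[𝓝 p] dx (Mn n) := by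
    filter_upwards [(isOpen_ball.prod isOpen_ball).mem_nhds hp'] with q hq
    exact (dx_eq (hn q hq)).symm
  exact (h1.congr h2).continuousWithinAt

/-- analytic implicit function, scalar -/
theorem exists_implicit [CompleteSpace E] {f : E × ℂ → ℂ} {e₀ : E} {d₀ : ℂ}
    (hf : AnalyticAt ℂ f (e₀, d₀)) (h0 : f (e₀, d₀) = 0)
    (h1 : fderiv ℂ f (e₀, d₀) (0, 1) ≠ 0) :
    ∃ η : E → ℂ, AnalyticAt ℂ η e₀ ∧ η e₀ = d₀ ∧ (∀ᶠ e in 𝓝 e₀, f (e, η e) = 0) := by
  have cd : ContDiffAt ℂ (⊤ : WithTop ℕ∞) f (e₀, d₀) := hf.contDiffAt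
  have hinv : (fderiv ℂ f (e₀, d₀) ∘L .inr ℂ E ℂ).IsInvertible := by
    have h2 : fderiv ℂ f (e₀, d₀) ∘L .inr ℂ E ℂ =
        ContinuousLinearMap.toSpanSingleton ℂ (fderiv ℂ f (e₀, d₀) (0, 1)) := by
      ext
      simp
    rw [h2]
    refine ⟨ContinuousLinearEquiv.unitsEquivAut ℂ (Units.mk0 _ h1), ?_⟩
    ext
    simp
  refine ⟨cd.implicitFunction (by simp) hinv,
    (cd.contDiffAt_implicitFunction _ _).analyticAt, cd.implicitFunction_apply_self _ _, ?_⟩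
  have := cd.eventually_apply_implicitFunction (by simp) hinv
  rwa [h0] at this

/-- one function: a root of size control -/
theorem one_root [CompleteSpace E] {F : E × ℂ → ℂ} {z₀ : E} {x₀ a : ℂ} {δ ρ : ℝ} (hρ : 0 < ρ)
    (ha : a ≠ 0) (hF : AnalyticOnNhd ℂ F (ball z₀ δ ×ˢ ball x₀ (2 * ρ)))
    (h1 : ∀ z ∈ ball z₀ δ, ∀ x ∈ ball x₀ (2 * ρ), ‖dx F (z, x) - a‖ ≤ ‖a‖ / 2)
    (h2 : ∀ z ∈ ball z₀ δ, ‖F (z, x₀)‖ ≤ ‖a‖ * ρ / 8) :
    ∃ g : E → ℂ, AnalyticOnNhd ℂ g (ball z₀ δ) ∧ ∀ z ∈ ball z₀ δ,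
      g z ∈ ball x₀ ρ ∧ F (z, g z) = 0 ∧ dx F (z, g z) ≠ 0 ∧
        ∀ x ∈ ball x₀ ρ, F (z, x) = 0 → x = g z := by
  have hap : 0 < ‖a‖ := norm_pos_iff.mpr ha
  -- contraction
  have hLip : ∀ z ∈ ball z₀ δ, ∀ x ∈ closedBall x₀ ρ, ∀ y ∈ closedBall x₀ ρ,
      ‖(x - F (z, x) / a) - (y - F (z, y) / a)‖ ≤ 1 / 2 * ‖x - y‖ := by
    intro z hz x hx y hy
    have hsub : closedBall x₀ ρ ⊆ ball x₀ (2 * ρ) := closedBall_subset_ball (by linarith)
    have hd : ∀ w ∈ closedBall x₀ ρ, HasDerivWithinAt (fun w => w - F (z, w) / a)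
        (1 - dx F (z, w) / a) (closedBall x₀ ρ) w := by
      intro w hw
      have h3 : DifferentiableAt ℂ (fun w => F (z, w)) w := by
        have h1 : DifferentiableAt ℂ F (z, w) := (hF (z, w) ⟨hz, hsub hw⟩).differentiableAt
        have h2 : DifferentiableAt ℂ (fun y : ℂ => (z, y)) w := by fun_prop
        exact DifferentiableAt.comp w h1 h2
      exact ((hasDerivAt_id w).sub (h3.hasDerivAt.div_const a)).hasDerivWithinAt
    have hb : ∀ w ∈ closedBall x₀ ρ, ‖1 - dx F (z, w) / a‖ ≤ 1 / 2 := by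
      intro w hw
      have h4 : 1 - dx F (z, w) / a = -((dx F (z, w) - a) / a) := by
        field_simp; ring
      rw [h4, norm_neg, norm_div, div_le_iff₀ hap]
      calc ‖dx F (z, w) - a‖ ≤ ‖a‖ / 2 := h1 z hz w (hsub hw)
        _ = 1 / 2 * ‖a‖ := by ring
    exact (convex_closedBall x₀ ρ).norm_image_sub_le_of_norm_hasDerivWithin_le hd hb hy hx
  have huniq : ∀ z ∈ ball z₀ δ, ∀ x ∈ closedBall x₀ ρ, ∀ y ∈ closedBall x₀ ρ,
      F (z, x) = 0 → F (z, y) = 0 → x = y := by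
    intro z hz x hx y hy hx0 hy0
    have h3 := hLip z hz x hx y hy
    rw [hx0, hy0] at h3
    simp only [zero_div, sub_zero] at h3
    have h4 : ‖x - y‖ = 0 := by
      have := norm_nonneg (x - y); linarith
    exact sub_eq_zero.mp (norm_eq_zero.mp h4)
  have hex : ∀ z ∈ ball z₀ δ, ∃ x ∈ ball x₀ ρ, F (z, x) = 0 := by
    intro z hz
    have hmaps : MapsTo (fun x => x - F (z, x) / a) (closedBall x₀ ρ) (closedBall x₀ ρ) := by
      intro x hx
      rw [mem_closedBall, dist_eq_norm]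
      have h3 := hLip z hz x hx x₀ (mem_closedBall_self hρ.le)
      have h4 : ‖F (z, x₀) / a‖ ≤ ρ / 8 := by
        rw [norm_div, div_le_iff₀ hap]
        calc ‖F (z, x₀)‖ ≤ ‖a‖ * ρ / 8 := h2 z hz
          _ = ρ / 8 * ‖a‖ := by ring
      have h5 : ‖x - x₀‖ ≤ ρ := by rwa [mem_closedBall, dist_eq_norm] at hx
      calc ‖x - F (z, x) / a - x₀‖
          = ‖(x - F (z, x) / a - (x₀ - F (z, x₀) / a)) + (- (F (z, x₀) / a))‖ := by
            congr 1; ring
        _ ≤ ‖x - F (z, x) / a - (x₀ - F (z, x₀) / a)‖ + ‖-(F (z, x₀) / a)‖ := norm_add_le _ _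
        _ ≤ 1 / 2 * ‖x - x₀‖ + ρ / 8 := by rw [norm_neg]; linarith
        _ ≤ ρ := by linarith
    have hcon : ContractingWith (1 / 2 : NNReal) (hmaps.restrict (fun x => x - F (z, x) / a)
        (closedBall x₀ ρ) (closedBall x₀ ρ)) := by
      refine ⟨by norm_num, ?_⟩
      refine LipschitzWith.of_dist_le_mul fun x y => ?_
      have := hLip z hz x.1 x.2 y.1 y.2
      rw [Subtype.dist_eq, Subtype.dist_eq, dist_eq_norm, dist_eq_norm]
      simpa using this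
    obtain ⟨x, hx, hfix, -⟩ := hcon.exists_fixedPoint' (isClosed_closedBall.isComplete)
      hmaps (mem_closedBall_self hρ.le) (edist_ne_top _ _)
    have h0 : F (z, x) = 0 := by
      have h3 : x - F (z, x) / a = x := hfix
      have h4 : F (z, x) / a = 0 := by linear_combination -h3
      simpa [ha] using h4
    refine ⟨x, ?_, h0⟩
    have h3 := hLip z hz x hx x₀ (mem_closedBall_self hρ.le)
    have h4 : ‖F (z, x₀) / a‖ ≤ ρ / 8 := by
      rw [norm_div, div_le_iff₀ hap]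
      calc ‖F (z, x₀)‖ ≤ ‖a‖ * ρ / 8 := h2 z hz
        _ = ρ / 8 * ‖a‖ := by ring
    rw [h0] at h3
    simp only [zero_div, sub_zero] at h3
    have h5 : ‖x - x₀‖ ≤ ‖x - (x₀ - F (z, x₀) / a)‖ + ‖F (z, x₀) / a‖ := by
      calc ‖x - x₀‖ = ‖(x - (x₀ - F (z, x₀) / a)) + (- (F (z, x₀) / a))‖ := by congr 1; ring
        _ ≤ ‖x - (x₀ - F (z, x₀) / a)‖ + ‖-(F (z, x₀) / a)‖ := norm_add_le _ _
        _ = _ := by rw [norm_neg]
    rw [mem_ball, dist_eq_norm]
    linarith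
  choose! g hg hg0 using hex
  have hne : ∀ z ∈ ball z₀ δ, ∀ x ∈ ball x₀ (2 * ρ), dx F (z, x) ≠ 0 := by
    intro z hz x hx h0
    have := h1 z hz x hx
    rw [h0, zero_sub, norm_neg] at this
    linarith
  have hsub : ball x₀ ρ ⊆ ball x₀ (2 * ρ) := ball_subset_ball (by linarith)
  refine ⟨g, ?_, fun z hz => ⟨hg z hz, hg0 z hz, hne z hz _ (hsub (hg z hz)), fun x hx h0 =>
    huniq z hz x (ball_subset_closedBall hx) (g z) (ball_subset_closedBall (hg z hz)) h0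
      (hg0 z hz)⟩⟩
  intro z hz
  have hFz : AnalyticAt ℂ F (z, g z) := hF (z, g z) ⟨hz, hsub (hg z hz)⟩
  obtain ⟨η, hη, hηz, hη0⟩ := exists_implicit hFz (hg0 z hz)
    (by rw [← dx_eq hFz]; exact hne z hz _ (hsub (hg z hz)))
  refine hη.congr ?_
  have hcont : ∀ᶠ e in 𝓝 z, η e ∈ ball x₀ ρ :=
    hη.continuousAt.eventually_mem (by rw [hηz]; exact isOpen_ball.mem_nhds (hg z hz))
  filter_upwards [hη0, hcont, isOpen_ball.mem_nhds hz] with e he he' hez
  exact huniq e hez _ (ball_subset_closedBall he') _ (ball_subset_closedBall (hg e hez)) he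
    (hg0 e hez)

/-- **A simple root persists.** -/
theorem persist [CompleteSpace E] {Mn : ι → E × ℂ → ℂ} {M : E × ℂ → ℂ} {z₀ : E} {x₀ : ℂ}
    {N : Set (E × ℂ)} (hN : N ∈ 𝓝 (z₀, x₀)) (hA : ∀ᶠ n in l, AnalyticOnNhd ℂ (Mn n) N)
    (hU : TendstoUniformlyOn Mn M l N) (h0 : M (z₀, x₀) = 0) (h1 : dx M (z₀, x₀) ≠ 0)
    {ρ₀ : ℝ} (hρ₀ : 0 < ρ₀) :
    ∃ ρ > 0, ρ ≤ ρ₀ ∧ ∃ δ > 0, ∀ᶠ n in l, ∃ g : E → ℂ, AnalyticOnNhd ℂ g (ball z₀ δ) ∧
      ∀ z ∈ ball z₀ δ, g z ∈ ball x₀ ρ ∧ Mn n (z, g z) = 0 ∧ dx (Mn n) (z, g z) ≠ 0 ∧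
        ∀ x ∈ ball x₀ ρ, Mn n (z, x) = 0 → x = g z := by
  obtain ⟨r, hr, hrN⟩ := Metric.mem_nhds_iff.mp hN
  rw [← ball_prod_same] at hrN
  have hA' : ∀ᶠ n in l, AnalyticOnNhd ℂ (Mn n) (ball z₀ r ×ˢ ball x₀ r) :=
    hA.mono fun n hn => hn.mono hrN
  have hU' := hU.mono hrN
  obtain ⟨hc, hd, hu, hdc⟩ := limit_data hr hA' hU'
  set a := dx M (z₀, x₀) with ha
  have hap : 0 < ‖a‖ := norm_pos_iff.mpr h1
  -- the derivative is close to `a` near the point
  have hz₀ : z₀ ∈ ball z₀ r := mem_ball_self hr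
  have hp₀ : (z₀, x₀) ∈ ball z₀ r ×ˢ ball x₀ (r / 2) :=
    ⟨hz₀, mem_ball_self (by positivity)⟩
  have hdc' : ContinuousAt (dx M) (z₀, x₀) :=
    hdc.continuousAt ((isOpen_ball.prod isOpen_ball).mem_nhds hp₀)
  have hev : ∀ᶠ p in 𝓝 (z₀, x₀), ‖dx M p - a‖ < ‖a‖ / 4 := by
    have := Metric.continuousAt_iff'.mp hdc' (‖a‖ / 4) (by positivity)
    simpa [dist_eq_norm] using this
  obtain ⟨s, hs, hsb⟩ := Metric.mem_nhds_iff.mp hev
  rw [← ball_prod_same] at hsb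
  set ρ : ℝ := min ρ₀ (min (s / 4) (r / 8)) with hρ
  have hρ0 : 0 < ρ := by positivity
  have hρ1 : ρ ≤ ρ₀ := min_le_left _ _
  have hρ2 : 2 * ρ ≤ s := by
    have : ρ ≤ s / 4 := le_trans (min_le_right _ _) (min_le_left _ _)
    linarith
  have hρ3 : 2 * ρ ≤ r / 2 := by
    have : ρ ≤ r / 8 := le_trans (min_le_right _ _) (min_le_right _ _)
    linarith
  -- the value at `x₀` is small near `z₀`
  have hc' : ContinuousAt M (z₀, x₀) :=
    hc.continuousAt ((isOpen_ball.prod isOpen_ball).mem_nhds ⟨hz₀, mem_ball_self hr⟩)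
  have hev2 : ∀ᶠ z in 𝓝 z₀, ‖M (z, x₀)‖ < ‖a‖ * ρ / 16 := by
    have h2 : ContinuousAt (fun z => ‖M (z, x₀)‖) z₀ := by
      have h3 : ContinuousAt (fun z : E => (z, x₀)) z₀ := by fun_prop
      exact (ContinuousAt.comp (f := fun z : E => (z, x₀)) (g := M) hc' h3).norm
    have h3 : ‖M (z₀, x₀)‖ < ‖a‖ * ρ / 16 := by
      rw [h0, norm_zero]; positivity
    exact h2.eventually_lt_const h3
  obtain ⟨t, ht, htb⟩ := Metric.mem_nhds_iff.mp hev2
  set δ : ℝ := min t (min s r) with hδ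
  have hδ0 : 0 < δ := by positivity
  refine ⟨ρ, hρ0, hρ1, δ, hδ0, ?_⟩
  rw [Metric.tendstoUniformlyOn_iff] at hu hU'
  filter_upwards [hA', hu (‖a‖ / 4) (by positivity), hU' (‖a‖ * ρ / 16) (by positivity)] with n
    hAn hun hUn
  have hδt : ball z₀ δ ⊆ ball z₀ t := ball_subset_ball (min_le_left _ _)
  have hδs : ball z₀ δ ⊆ ball z₀ s := ball_subset_ball (le_trans (min_le_right _ _) (min_le_left _ _))
  have hδr : ball z₀ δ ⊆ ball z₀ r :=
    ball_subset_ball (le_trans (min_le_right _ _) (min_le_right _ _))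
  refine one_root hρ0 h1 (hAn.mono ?_) ?_ ?_
  · exact prod_mono hδr (ball_subset_ball (by linarith))
  · intro z hz x hx
    have h3 := hun (z, x) ⟨hδr hz, ball_subset_ball hρ3 hx⟩
    have h4 : ‖dx M (z, x) - a‖ < ‖a‖ / 4 := hsb ⟨hδs hz, ball_subset_ball hρ2 hx⟩
    rw [dist_eq_norm, norm_sub_rev] at h3
    calc ‖dx (Mn n) (z, x) - a‖
        = ‖(dx (Mn n) (z, x) - dx M (z, x)) + (dx M (z, x) - a)‖ := by congr 1; ring
      _ ≤ ‖dx (Mn n) (z, x) - dx M (z, x)‖ + ‖dx M (z, x) - a‖ := norm_add_le _ _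
      _ ≤ ‖a‖ / 2 := by linarith
  · intro z hz
    have h3 := hUn (z, x₀) ⟨hδr hz, mem_ball_self hr⟩
    have h4 : ‖M (z, x₀)‖ < ‖a‖ * ρ / 16 := htb (hδt hz)
    rw [dist_eq_norm, norm_sub_rev] at h3
    calc ‖Mn n (z, x₀)‖ = ‖(Mn n (z, x₀) - M (z, x₀)) + M (z, x₀)‖ := by congr 1; ring
      _ ≤ ‖Mn n (z, x₀) - M (z, x₀)‖ + ‖M (z, x₀)‖ := norm_add_le _ _
      _ ≤ ‖a‖ * ρ / 8 := by linarith

/-- agreement propagates on preconnected sets -/
theorem eqOn_of_conn {X : Type*} [TopologicalSpace X] {S : Set X} (hS : IsPreconnected S)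
    {f g : X → ℂ} (hf : ContinuousOn f S) (hg : ContinuousOn g S) {z₁ : X} (hz₁ : z₁ ∈ S)
    (h1 : f z₁ = g z₁) (hloc : ∀ z ∈ S, f z = g z → ∀ᶠ z' in 𝓝[S] z, f z' = g z') :
    EqOn f g S := by
  have hp : PreconnectedSpace S := isPreconnected_iff_preconnectedSpace.mp hS
  have hcl : IsClosed {z : S | f z = g z} :=
    isClosed_eq (continuousOn_iff_continuous_domRestrict.mp hf)
      (continuousOn_iff_continuous_domRestrict.mp hg)
  have hop : IsOpen {z : S | f z = g z} := by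
    rw [isOpen_iff_mem_nhds]
    rintro ⟨z, hz⟩ hzz
    have := hloc z hz hzz
    rw [nhdsWithin_eq_map_subtype_coe hz, eventually_map] at this
    exact this
  have huniv : {z : S | f z = g z} = univ :=
    IsClopen.eq_univ ⟨hcl, hop⟩ ⟨⟨z₁, hz₁⟩, h1⟩
  intro z hz
  have : (⟨z, hz⟩ : S) ∈ {z : S | f z = g z} := by rw [huniv]; trivial
  exact this

end Vale.Agent.P097.H190.EN
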