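import Mathlib

/-!
# P097: (A5), one type on the boundary of the limit world

`dich`: a continuous map of the lower half plane into a strip, read modulo `1`, either converges
at a real point to an interior value or its imaginary part converges to the boundary, as soon as
the interior cluster values are isolated.
`half_plane_bound`: if `|Im φ| → H` at all real points of `(-R, R)` then
`H - |Im φ (-i y)| ≤ 4 H y / R`.
-/

noncomputable section

open Set Filter Metric Complex
open scoped Topology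

namespace Vale.Agent.P097.H190.EN

/-- the lower half plane -/
def Low : Set ℂ := {κ | κ.im < 0}

theorem isOpen_low : IsOpen Low := isOpen_lt Complex.continuous_im continuous_const

theorem convex_low : Convex ℝ Low := convex_halfSpace_im_lt 0

/-- the exponential modulo one -/
def ee (x : ℂ) : ℂ := Complex.exp (2 * Real.pi * I * x)

theorem ee_cont : Continuous ee := by unfold ee; fun_prop

theorem ee_eq_iff {x y : ℂ} : ee x = ee y ↔ ∃ k : ℤ, x = y + k := by
  unfold ee
  rw [Complex.exp_eq_exp_iff_exists_int]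
  have h2 : (2 * Real.pi * I : ℂ) ≠ 0 := Complex.two_pi_I_ne_zero
  constructor
  · rintro ⟨k, hk⟩
    refine ⟨k, ?_⟩
    apply mul_left_cancel₀ h2
    rw [hk]; ring
  · rintro ⟨k, hk⟩
    exact ⟨k, by rw [hk]; ring⟩

theorem ee_map (x : ℂ) : map ee (𝓝 x) = 𝓝 (ee x) := by
  have h1 : HasStrictDerivAt ee (Complex.exp (2 * Real.pi * I * x) * (2 * Real.pi * I)) x := by
    unfold ee
    have h2 : HasStrictDerivAt (fun x : ℂ => 2 * Real.pi * I * x) (2 * Real.pi * I) x := by
      simpa using (hasStrictDerivAt_id x).const_mul (2 * Real.pi * I : ℂ)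
    exact h2.cexp
  exact h1.map_nhds_eq (mul_ne_zero (Complex.exp_ne_zero _) Complex.two_pi_I_ne_zero)

/-- half balls are preconnected -/
theorem halfball_preconn (c : ℂ) (t : ℝ) : IsPreconnected (ball c t ∩ Low) :=
  ((convex_ball c t).inter convex_low).isPreconnected

theorem mem_low_iff {s : Set ℂ} {c : ℂ} : s ∈ 𝓝[Low] c ↔ ∃ t > 0, ball c t ∩ Low ⊆ s :=
  Metric.mem_nhdsWithin_iff

/-- **Dichotomy for cluster values.** -/
theorem dich {φ : ℂ → ℂ} {c : ℝ} {H : ℝ} (hφ : ContinuousOn φ Low)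
    (hb : ∀ κ ∈ Low, |(φ κ).im| < H)
    (hiso : ∀ x : ℂ, |x.im| < H → MapClusterPt (ee x) (𝓝[Low] (c : ℂ)) (fun κ => ee (φ κ)) →
      ∃ s > 0, ∀ y : ℂ, 0 < dist y (ee x) → dist y (ee x) ≤ s →
        ¬ MapClusterPt y (𝓝[Low] (c : ℂ)) (fun κ => ee (φ κ))) :
    (∃ x : ℂ, |x.im| < H ∧ Tendsto (fun κ => ee (φ κ)) (𝓝[Low] (c : ℂ)) (𝓝 (ee x))) ∨
      Tendsto (fun κ => |(φ κ).im|) (𝓝[Low] (c : ℂ)) (𝓝 H) := by
  have hψ : ContinuousOn (fun κ => ee (φ κ)) Low := ee_cont.comp_continuousOn hφ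
  by_cases hcase : ∃ x : ℂ, |x.im| < H ∧
      MapClusterPt (ee x) (𝓝[Low] (c : ℂ)) (fun κ => ee (φ κ))
  · left
    obtain ⟨x, hx, hcl⟩ := hcase
    obtain ⟨s, hs, hs'⟩ := hiso x hx hcl
    refine ⟨x, hx, ?_⟩
    rw [Metric.tendsto_nhds]
    intro ε hε
    set s' := min s (ε / 2) with hs'def
    have hs'0 : 0 < s' := by positivity
    -- no value on the sphere
    have hsph : ∀ᶠ κ in 𝓝[Low] (c : ℂ), ee (φ κ) ∉ sphere (ee x) s' := by
      by_contra hcon
      rw [Filter.not_eventually] at hcon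
      have hcon' : ∃ᶠ κ in 𝓝[Low] (c : ℂ), ee (φ κ) ∈ sphere (ee x) s' := by
        simpa using hcon
      obtain ⟨y, hy, hycl⟩ :=
        (isCompact_sphere (ee x) s').exists_mapClusterPt_of_frequently hcon'
      rw [mem_sphere] at hy
      exact hs' y (by rw [hy]; exact hs'0) (by rw [hy]; exact min_le_left _ _) hycl
    obtain ⟨t, ht, htsub⟩ := mem_low_iff.mp hsph
    -- one value in the ball
    have hfr : ∃ᶠ κ in 𝓝[Low] (c : ℂ), ee (φ κ) ∈ ball (ee x) s' :=
      mapClusterPt_iff_frequently.mp hcl _ (ball_mem_nhds _ hs'0)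
    have hin : ∀ᶠ κ in 𝓝[Low] (c : ℂ), κ ∈ ball (c : ℂ) t ∩ Low :=
      mem_low_iff.mpr ⟨t, ht, subset_rfl⟩
    obtain ⟨κ₁, hκ₁b, hκ₁⟩ := (hfr.and_eventually hin).exists
    filter_upwards [hin] with κ hκ
    by_contra hcon
    push Not at hcon
    have hd : ContinuousOn (fun κ => dist (ee (φ κ)) (ee x)) (ball (c : ℂ) t ∩ Low) :=
      continuous_dist.comp_continuousOn ((hψ.mono inter_subset_right).prodMk continuousOn_const)
    have hiv := (halfball_preconn (c : ℂ) t).intermediate_value hκ₁ hκ hd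
    have hmem : s' ∈ Icc (dist (ee (φ κ₁)) (ee x)) (dist (ee (φ κ)) (ee x)) := by
      refine ⟨(mem_ball.mp hκ₁b).le, ?_⟩
      have : s' ≤ ε / 2 := min_le_right _ _
      linarith
    obtain ⟨κ₃, hκ₃, hκ₃d⟩ := hiv hmem
    exact htsub hκ₃ (mem_sphere.mpr hκ₃d)
  · right
    push Not at hcase
    rw [Metric.tendsto_nhds]
    intro ε hε
    by_contra hcon
    rw [Filter.not_eventually] at hcon
    set K : Set ℂ := ee '' (Icc (0 : ℝ) 1 ×ℂ Icc (-(H - ε)) (H - ε)) with hK
    have hKc : IsCompact K := (isCompact_Icc.reProdIm isCompact_Icc).image ee_cont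
    have hfr : ∃ᶠ κ in 𝓝[Low] (c : ℂ), ee (φ κ) ∈ K := by
      refine (hcon.and_eventually self_mem_nhdsWithin).mono ?_
      rintro κ ⟨h1, h2⟩
      have h3 := hb κ h2
      have h4 : |(φ κ).im| ≤ H - ε := by
        rw [Real.dist_eq] at h1
        push Not at h1
        rw [abs_of_nonpos (by linarith : |(φ κ).im| - H ≤ 0)] at h1
        linarith
      refine ⟨φ κ - (⌊(φ κ).re⌋ : ℂ), ?_, ?_⟩
      · rw [Complex.mem_reProdIm]
        simp only [sub_re, intCast_re, sub_im, intCast_im, sub_zero]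
        refine ⟨⟨?_, ?_⟩, abs_le.mp h4⟩
        · linarith [Int.floor_le (φ κ).re]
        · linarith [Int.lt_floor_add_one (φ κ).re]
      · rw [ee_eq_iff]
        exact ⟨-⌊(φ κ).re⌋, by push_cast; ring⟩
    obtain ⟨y, ⟨x, hx, rfl⟩, hycl⟩ := hKc.exists_mapClusterPt_of_frequently hfr
    rw [Complex.mem_reProdIm] at hx
    refine hcase x ?_ hycl
    have := abs_le.mpr hx.2
    linarith

/-- uniform closeness to the boundary near a compact interval -/
theorem near_uniform {φ : ℂ → ℂ} {H R R' ε : ℝ} (hε : 0 < ε) (hR : R' < R)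
    (hlim : ∀ c : ℝ, |c| < R → Tendsto (fun κ => |(φ κ).im|) (𝓝[Low] (c : ℂ)) (𝓝 H)) :
    ∃ η > 0, ∀ κ : ℂ, |κ.re| ≤ R' → -η < κ.im → κ.im < 0 → H - ε < |(φ κ).im| := by
  set K : Set ℂ := (fun x : ℝ => (x : ℂ)) '' Icc (-R') R' with hK
  have hKc : IsCompact K := isCompact_Icc.image Complex.continuous_ofReal
  set T : Set ℂ := {κ | κ ∈ Low → H - ε < |(φ κ).im|} with hT
  have hKT : K ⊆ interior T := by
    rintro _ ⟨c, hc, rfl⟩
    rw [mem_interior_iff_mem_nhds]
    have hc' : |c| < R := lt_of_le_of_lt (abs_le.mpr hc) hR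
    have h1 := (hlim c hc').eventually (lt_mem_nhds (show H - ε < H by linarith))
    rw [eventually_nhdsWithin_iff] at h1
    exact h1
  obtain ⟨η, hη, hsub⟩ := hKc.exists_thickening_subset_open isOpen_interior hKT
  refine ⟨η, hη, fun κ h1 h2 h3 => ?_⟩
  have hmem : κ ∈ thickening η K := by
    rw [mem_thickening_iff]
    refine ⟨(κ.re : ℂ), ⟨κ.re, abs_le.mp h1, rfl⟩, ?_⟩
    have h4 : κ - (κ.re : ℂ) = (κ.im : ℂ) * I := by
      apply Complex.ext <;> simp
    rw [dist_eq_norm, h4, norm_mul, norm_I, mul_one, Complex.norm_real, Real.norm_eq_abs,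
      abs_of_neg h3]
    linarith
  exact interior_subset (hsub hmem) h3

/-- the majorant, positive sign -/
theorem bound_pos {φ : ℂ → ℂ} {H R' ε η y : ℝ} (hH : 0 < H) (hε : 0 < ε)
    (hφ : DifferentiableOn ℂ φ Low) (hb : ∀ κ ∈ Low, |(φ κ).im| ≤ H) (hη : 0 < η)
    (hpos : ∀ κ : ℂ, |κ.re| ≤ R' → -η < κ.im → κ.im < 0 → H - ε < (φ κ).im)
    (hy : 0 < y) (hyR : y < R') :
    H - (φ (-(y : ℂ) * I)).im ≤ 4 * H * y / R' + ε := by
  have hR' : 0 < R' := hy.trans hyR
  set ε' : ℝ := min (η / 2) (y / 2) with hε'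
  have hε'0 : 0 < ε' := by positivity
  have hε'η : ε' < η := lt_of_le_of_lt (min_le_left _ _) (by linarith)
  have hε'y : ε' < y := lt_of_le_of_lt (min_le_right _ _) (by linarith)
  set G : ℂ → ℂ := fun κ => (H : ℂ) + I * φ κ -
    ((2 * H : ℝ) : ℂ) * (((2 / R' : ℝ) : ℂ) * (I * κ) + ((1 / R' ^ 2 : ℝ) : ℂ) * κ ^ 2) with hG
  have hGre : ∀ κ : ℂ, (G κ).re = H - (φ κ).im -
      2 * H * (2 * (-κ.im) / R' + (κ.re ^ 2 - κ.im ^ 2) / R' ^ 2) := by
    intro κ
    simp only [hG]
    rw [Complex.sub_re, Complex.add_re, Complex.ofReal_re, Complex.I_mul_re,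
      Complex.re_ofReal_mul, Complex.add_re, Complex.re_ofReal_mul, Complex.re_ofReal_mul,
      Complex.I_mul_re, pow_two κ, Complex.mul_re]
    ring
  set U : Set ℂ := {κ | κ.im < -ε'} ∩ ball 0 R' with hU
  have hUcl : closure U ⊆ {κ | κ.im ≤ -ε'} ∩ closedBall 0 R' := by
    refine closure_minimal ?_ ?_
    · rintro κ ⟨h1, h2⟩
      have h1' : κ.im < -ε' := h1
      exact ⟨show κ.im ≤ -ε' from h1'.le, ball_subset_closedBall h2⟩
    · exact (isClosed_le Complex.continuous_im continuous_const).inter isClosed_closedBall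
  have hUlow : closure U ⊆ Low := fun κ hκ => by
    have : κ.im ≤ -ε' := (hUcl hκ).1
    show κ.im < 0
    linarith
  have hUo : IsOpen U := (isOpen_lt Complex.continuous_im continuous_const).inter isOpen_ball
  have hGd : DifferentiableOn ℂ (fun κ => Complex.exp (G κ)) Low := by
    have h1 : DifferentiableOn ℂ G Low := by
      simp only [hG]
      exact ((differentiableOn_const _).add ((differentiableOn_const _).mul hφ)).sub
        (by fun_prop)
    exact h1.cexp
  have hdc : DiffContOnCl ℂ (fun κ => Complex.exp (G κ)) U :=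
    (hGd.mono hUlow).diffContOnCl
  have hfr : ∀ z ∈ frontier U, ‖Complex.exp (G z)‖ ≤ Real.exp ε := by
    intro z hz
    have hzc : z ∈ closure U := frontier_subset_closure hz
    have hz1 := hUcl hzc
    have hzU : z ∉ U := by
      rw [hUo.frontier_eq] at hz
      exact hz.2
    have hzlow : z ∈ Low := hUlow hzc
    rw [Complex.norm_exp, hGre, Real.exp_le_exp]
    have hzn : ‖z‖ ≤ R' := by simpa using hz1.2
    have hsq : z.re ^ 2 + z.im ^ 2 = ‖z‖ ^ 2 := by
      rw [← Complex.normSq_eq_norm_sq, Complex.normSq_apply]; ring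
    have hzim : z.im ≤ -ε' := hz1.1
    by_cases hcase : z.im < -ε'
    · -- on the arc
      have hn : ‖z‖ = R' := by
        by_contra hne
        exact hzU ⟨hcase, by simpa using lt_of_le_of_ne hzn hne⟩
      have hm : 1 ≤ 2 * (-z.im) / R' + (z.re ^ 2 - z.im ^ 2) / R' ^ 2 := by
        rw [div_add_div _ _ hR'.ne' (by positivity), le_div_iff₀ (by positivity)]
        have h3 : z.re ^ 2 = R' ^ 2 - z.im ^ 2 := by rw [← hn]; linarith
        have h4 : -z.im ≤ R' := by
          have := Complex.abs_im_le_norm z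
          rw [hn] at this
          exact (neg_le_abs _).trans this
        have h5 : 0 ≤ -z.im := by linarith
        rw [h3]
        nlinarith [mul_nonneg h5 (sub_nonneg.mpr h4), mul_pos hR' hR']
      have hV : H - (φ z).im ≤ 2 * H := by
        have := (abs_le.mp (hb z hzlow)).1
        linarith
      nlinarith
    · -- on the segment
      have hzeq : z.im = -ε' := le_antisymm hzim (not_lt.mp hcase)
      have hre : |z.re| ≤ R' := (Complex.abs_re_le_norm z).trans hzn
      have hV : H - ε < (φ z).im := hpos z hre (by rw [hzeq]; linarith) (by rw [hzeq]; linarith)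
      have hm : 0 ≤ 2 * (-z.im) / R' + (z.re ^ 2 - z.im ^ 2) / R' ^ 2 := by
        rw [div_add_div _ _ hR'.ne' (by positivity)]
        refine div_nonneg ?_ (by positivity)
        rw [hzeq]
        have h4 : ε' ≤ R' := by linarith
        nlinarith [sq_nonneg z.re, mul_nonneg hε'0.le (sub_nonneg.mpr h4), mul_pos hR' hε'0,
          mul_nonneg hR'.le (sq_nonneg z.re)]
      nlinarith
  have hyU : -(y : ℂ) * I ∈ closure U := by
    apply subset_closure
    refine ⟨?_, ?_⟩
    · show (-(y : ℂ) * I).im < -ε'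
      have : (-(y : ℂ) * I).im = -y := by simp
      rw [this]; linarith
    · rw [mem_ball, dist_zero_right, norm_mul, norm_neg, norm_I, mul_one, Complex.norm_real,
        Real.norm_eq_abs, abs_of_pos hy]
      exact hyR
  have hbd : Bornology.IsBounded U := isBounded_ball.subset inter_subset_right
  have hkey := Complex.norm_le_of_forall_mem_frontier_norm_le hbd hdc hfr hyU
  rw [Complex.norm_exp, hGre, Real.exp_le_exp] at hkey
  have h1 : (-(y : ℂ) * I).im = -y := by simp
  have h2 : (-(y : ℂ) * I).re = 0 := by simp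
  rw [h1, h2] at hkey
  have h3 : 2 * H * (2 * (- -y) / R' + (0 ^ 2 - (-y) ^ 2) / R' ^ 2) ≤ 4 * H * y / R' := by
    have h4 : 2 * H * (2 * (- -y) / R' + (0 ^ 2 - (-y) ^ 2) / R' ^ 2) =
        4 * H * y / R' - 2 * H * y ^ 2 / R' ^ 2 := by ring
    rw [h4]
    have : 0 ≤ 2 * H * y ^ 2 / R' ^ 2 := by positivity
    linarith
  linarith

/-- **Bounded on a half plane, boundary values on an interval.** -/
theorem half_plane_bound {φ : ℂ → ℂ} {H R : ℝ} (hH : 0 < H)
    (hφ : DifferentiableOn ℂ φ Low) (hb : ∀ κ ∈ Low, |(φ κ).im| ≤ H)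
    (hlim : ∀ c : ℝ, |c| < R → Tendsto (fun κ => |(φ κ).im|) (𝓝[Low] (c : ℂ)) (𝓝 H))
    {y : ℝ} (hy : 0 < y) (hyR : y < R) :
    H - |(φ (-(y : ℂ) * I)).im| ≤ 4 * H * y / R := by
  have hR : 0 < R := hy.trans hyR
  -- for every smaller radius and every positive error
  have key : ∀ R', y < R' → R' < R → ∀ ε, 0 < ε → ε < H →
      H - |(φ (-(y : ℂ) * I)).im| ≤ 4 * H * y / R' + ε := by
    intro R' hyR' hR'R ε hε hεH
    obtain ⟨η, hη, hη'⟩ := near_uniform hε hR'R hlim
    set Q : Set ℂ := {κ | |κ.re| ≤ R' ∧ -η < κ.im ∧ κ.im < 0} with hQ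
    have hQconv : Convex ℝ Q := by
      have h1 : Q = Complex.reCLM.toLinearMap ⁻¹' Icc (-R') R' ∩
          Complex.imCLM.toLinearMap ⁻¹' Ioo (-η) 0 := by
        ext κ
        show (|κ.re| ≤ R' ∧ -η < κ.im ∧ κ.im < 0) ↔
          ((-R' ≤ κ.re ∧ κ.re ≤ R') ∧ (-η < κ.im ∧ κ.im < 0))
        rw [abs_le]
      rw [h1]
      exact ((convex_Icc (-R') R').linear_preimage _).inter
        ((convex_Ioo (-η) 0).linear_preimage _)
    have hQp : IsPreconnected Q := hQconv.isPreconnected
    have hQc : ContinuousOn (fun κ => (φ κ).im) Q :=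
      Complex.continuous_im.comp_continuousOn (hφ.continuousOn.mono fun κ hκ => hκ.2.2)
    have hmem : (⟨0, -η / 2⟩ : ℂ) ∈ Q := by
      refine ⟨by simpa using (hy.trans hyR').le, ?_, ?_⟩ <;> simp only <;> linarith
    have hQne : ∀ κ ∈ Q, (φ κ).im ≠ 0 := by
      intro κ hκ h0
      have := hη' κ hκ.1 hκ.2.1 hκ.2.2
      rw [h0, abs_zero] at this
      linarith
    rcases lt_or_gt_of_ne (hQne _ hmem) with hneg | hposi
    · -- negative sign: use `-φ`
      have hall : ∀ κ ∈ Q, (φ κ).im < 0 := by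
        intro κ hκ
        by_contra hcon
        push Not at hcon
        obtain ⟨κ₃, hκ₃, h0⟩ := hQp.intermediate_value hmem hκ hQc ⟨hneg.le, hcon⟩
        exact hQne κ₃ hκ₃ h0
      have h1 := bound_pos (φ := fun κ => -φ κ) hH hε hφ.neg
        (fun κ hκ => by simpa using hb κ hκ) hη
        (fun κ h1 h2 h3 => by
          have h4 := hη' κ h1 h2 h3
          have h5 := hall κ ⟨h1, h2, h3⟩
          rw [abs_of_neg h5] at h4
          simpa using h4) hy hyR'
      have h2 : -(φ (-(y : ℂ) * I)).im ≤ |(φ (-(y : ℂ) * I)).im| := neg_le_abs _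
      simp only [Complex.neg_im] at h1
      linarith
    · have hall : ∀ κ ∈ Q, 0 < (φ κ).im := by
        intro κ hκ
        by_contra hcon
        push Not at hcon
        obtain ⟨κ₃, hκ₃, h0⟩ := hQp.intermediate_value hκ hmem hQc ⟨hcon, hposi.le⟩
        exact hQne κ₃ hκ₃ h0
      have h1 := bound_pos hH hε hφ hb hη
        (fun κ h1 h2 h3 => by
          have h4 := hη' κ h1 h2 h3
          have h5 := hall κ ⟨h1, h2, h3⟩
          rwa [abs_of_pos h5] at h4) hy hyR'
      have h2 : (φ (-(y : ℂ) * I)).im ≤ |(φ (-(y : ℂ) * I)).im| := le_abs_self _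
      linarith
  set A := H - |(φ (-(y : ℂ) * I)).im| with hA
  have key2 : ∀ R', y < R' → R' < R → A ≤ 4 * H * y / R' := by
    intro R' h1 h2
    refine le_of_forall_pos_le_add fun ε hε => ?_
    have h3 := key R' h1 h2 (min ε (H / 2)) (by positivity)
      (lt_of_le_of_lt (min_le_right _ _) (by linarith))
    have h4 : min ε (H / 2) ≤ ε := min_le_left _ _
    linarith
  by_contra hcon
  push Not at hcon
  have hA0 : 0 < A := lt_of_le_of_lt (by positivity) hcon
  rw [div_lt_iff₀ hR] at hcon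
  set R' := max ((y + R) / 2) ((4 * H * y / A + R) / 2) with hR'
  have hq : 4 * H * y / A < R := by rw [div_lt_iff₀ hA0]; linarith
  have h1 : y < R' := lt_of_lt_of_le (by linarith) (le_max_left _ _)
  have h2 : R' < R := max_lt (by linarith) (by linarith)
  have h3 := key2 R' h1 h2
  have h0 : 0 < R' := hy.trans h1
  rw [le_div_iff₀ h0] at h3
  have h4 : (4 * H * y / A + R) / 2 ≤ R' := le_max_right _ _
  have h5 : A * ((4 * H * y / A + R) / 2) ≤ A * R' := mul_le_mul_of_nonneg_left h4 hA0.le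
  have h6 : A * ((4 * H * y / A + R) / 2) = (4 * H * y + A * R) / 2 := by
    field_simp
  rw [h6] at h5
  linarith

end Vale.Agent.P097.H190.EN
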