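import Vale.Agent.P097.H190.EnG

/-!
# P097: (A5), the limit world is contradictory (sequences)

`World` = `WorldL atTop` of `EnG.lean`.
-/

noncomputable section

open Set Filter Metric Complex MeasureTheory
open scoped Topology

namespace Vale.Agent.P097.H190.EN

/-- **The data of the limit world** on one slice. -/
structure World (H R : ℝ) (w₀ : ℂ) (ρw : ℝ) (Mn : ℕ → (ℂ × ℂ) × ℂ → ℂ)
    (M : (ℂ × ℂ) × ℂ → ℂ) (th : ℕ → ℂ × ℂ → ℂ) (θ : ℂ × ℂ → ℂ) : Prop where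
  H_pos : 0 < H
  ρ_pos : 0 < ρw
  conv : ∀ κ : ℂ, (κ.im < 0 ∨ (κ.im = 0 ∧ |κ.re| < R)) → ∀ x : ℂ, |x.im| < H →
    ∃ N ∈ 𝓝 ((κ, w₀), x), (∀ᶠ n in atTop, AnalyticOnNhd ℂ (Mn n) N) ∧
      TendstoUniformlyOn Mn M atTop N
  per : ∀ n z x, |x.im| < H → Mn n (z, x + 1) = Mn n (z, x)
  iso : ∀ c : ℝ, |c| < R → ∀ x : ℂ, |x.im| < H →
    ∀ᶠ y in 𝓝[≠] x, M (((c : ℂ), w₀), y) ≠ 0
  lim : TendstoLocallyUniformlyOn th θ atTop (Dom w₀ ρw)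
  reg : ∀ z ∈ Dom w₀ ρw, ∃ V ∈ 𝓝 z, ∀ᶠ n in atTop, DifferentiableOn ℂ (th n) V ∧
    ∀ z' ∈ V, |(th n z').im| < H ∧ Mn n (z', th n z') = 0
  str : ∀ z ∈ Dom w₀ ρw, |(θ z).im| < H
  touch : ∀ c : ℝ, |c| < R → ∀ δ > 0, ∃ ε > 0, ∃ᶠ n in atTop, ¬ Ext H Mn th w₀ c δ ε n
  nt : ∃ κ ∈ Low, dx M ((κ, w₀), θ (κ, w₀)) ≠ 0

namespace World

variable {H R : ℝ} {w₀ : ℂ} {ρw : ℝ} {Mn : ℕ → (ℂ × ℂ) × ℂ → ℂ} {M : (ℂ × ℂ) × ℂ → ℂ}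
  {th : ℕ → ℂ × ℂ → ℂ} {θ : ℂ × ℂ → ℂ}

theorem toL (W : World H R w₀ ρw Mn M th θ) : WorldL atTop H R w₀ ρw Mn M th θ :=
  ⟨W.H_pos, W.ρ_pos, W.conv, W.per, W.iso, W.lim, W.reg, W.str, W.touch, W.nt⟩

/-- **Step 2**: no interior limit. -/
theorem tendsto_wall (W : World H R w₀ ρw Mn M th θ) {c : ℝ} (hc : |c| < R) :
    Tendsto (fun κ => |(θ (κ, w₀)).im|) (𝓝[Low] (c : ℂ)) (𝓝 H) := W.toL.tendsto_wall hc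

/-- **The limit world is almost at the wall.** -/
theorem bound (W : World H R w₀ ρw Mn M th θ) {y : ℝ} (hy : 0 < y) (hyR : y < R) :
    H - |(θ (-(y : ℂ) * I, w₀)).im| ≤ 4 * H * y / R := W.toL.bound hy hyR

end World

/-- **The limit world is contradictory** if it exists for all `R`. -/
theorem no_world {H : ℝ} {w₀ : ℂ} {ρw : ℝ} {Mn : ℕ → (ℂ × ℂ) × ℂ → ℂ}
    {M : (ℂ × ℂ) × ℂ → ℂ} {th : ℕ → ℂ × ℂ → ℂ} {θ : ℂ × ℂ → ℂ}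
    (W : ∀ R : ℝ, World H R w₀ ρw Mn M th θ) : False :=
  no_worldL fun R => (W R).toL

end Vale.Agent.P097.H190.EN
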