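import Vale.Agent.P097.H190.EnA
import Vale.Agent.P097.H190.EnB
import Vale.Agent.P097.H877.Bd.Priv

/-!
# P097: (A5), the limit world is contradictory, any filter

`WorldL l` collects the data of a blow-up limit (along a filter `l`, e.g. an ultrafilter) at a
transition window: incidence functions `Mn n → M` near every point of one slice `w = w₀` over the
closed lower half plane, roots `th n → θ` below the edge, TOUCH at every real point, not (tan).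
`WorldL.tendsto_wall`: `|Im θ (κ, w₀)| → H` at every real point;
`WorldL.bound`: `H - |Im θ (-i y, w₀)| ≤ 4 H y / R`.
-/

noncomputable section

open Set Filter Metric Complex MeasureTheory
open scoped Topology

set_option linter.unusedSectionVars false

namespace Vale.Agent.P097.H190.EN

variable {ι : Type*} {l : Filter ι}

/-- boundary value zero on an interval -/
theorem zero_of_boundary {p : ℂ → ℂ} (hp : DifferentiableOn ℂ p Low) {c t : ℝ} (ht : 0 < t)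
    (h0 : ∀ c' : ℝ, |c' - c| < t → Tendsto p (𝓝[Low] (c' : ℂ)) (𝓝 0)) : ∀ κ ∈ Low, p κ = 0 := by
  set D : Set ℂ := {ζ | 0 < ζ.im} with hD
  set f : ℂ → ℂ := fun ζ => p (-ζ) with hf
  have hneg : MapsTo (fun ζ : ℂ => -ζ) D Low := by
    intro ζ hζ
    have h1 : 0 < ζ.im := hζ
    show (-ζ).im < 0
    rw [Complex.neg_im]; linarith
  have hfd : DifferentiableOn ℂ f D := hp.comp (by fun_prop) hneg
  have hE : ∀ x ∈ Ioo (-c - t) (-c + t), ∃ k > 0, ∃ h > 0, H877.Bd.cone k h x ⊆ D ∧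
      Tendsto f (𝓝[H877.Bd.cone k h x] (x : ℂ)) (𝓝 0) := by
    intro x hx
    have hsub : H877.Bd.cone 1 1 x ⊆ D := fun z hz => H877.Bd.cone_im_pos one_pos hz
    refine ⟨1, one_pos, 1, one_pos, hsub, ?_⟩
    have h1 : Tendsto p (𝓝[Low] (((-x : ℝ)) : ℂ)) (𝓝 0) := by
      refine h0 (-x) ?_
      rw [abs_lt]
      constructor <;> linarith [hx.1, hx.2]
    have h2 : Tendsto (fun ζ : ℂ => -ζ) (𝓝[H877.Bd.cone 1 1 x] (x : ℂ)) (𝓝[Low] (((-x : ℝ)) : ℂ)) := by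
      refine tendsto_nhdsWithin_iff.mpr ⟨?_, ?_⟩
      · have h3 : Tendsto (fun ζ : ℂ => -ζ) (𝓝 (x : ℂ)) (𝓝 (-(x : ℂ))) := continuous_neg.tendsto _
        push_cast
        exact h3.mono_left nhdsWithin_le_nhds
      · filter_upwards [self_mem_nhdsWithin] with ζ hζ
        exact hneg (hsub hζ)
    exact h1.comp h2
  have hpr := H877.Bd.privalov hfd hE
  have hex : ∃ x ∈ Ioo (-c - t) (-c + t), ∃ k > 0, ∃ h > 0, H877.Bd.cone k h x ⊆ D ∧
      ∀ z ∈ H877.Bd.cone k h x, f z = 0 := by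
    by_contra hcon
    push Not at hcon
    have h1 : volume (Ioo (-c - t) (-c + t)) = 0 := by
      refine measure_mono_null ?_ (ae_iff.mp hpr)
      intro x hx hx2
      obtain ⟨k, hk, h, hh, hs, hz⟩ := hx2 hx
      obtain ⟨z, hz1, hz2⟩ := hcon x hx k hk h hh hs
      exact hz2 (hz z hz1)
    rw [Real.volume_Ioo, ENNReal.ofReal_eq_zero] at h1
    linarith
  obtain ⟨x, -, k, hk, h, hh, hs, hz⟩ := hex
  have hmem : (⟨x, h / 2⟩ : ℂ) ∈ H877.Bd.cone k h x := by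
    refine ⟨?_, ?_⟩
    · simp only [sub_self, abs_zero]; positivity
    · simp only; linarith
  have hlow : -(⟨x, h / 2⟩ : ℂ) ∈ Low := hneg (hs hmem)
  have hev : p =ᶠ[𝓝 (-(⟨x, h / 2⟩ : ℂ))] 0 := by
    have h1 : ∀ᶠ ζ in 𝓝 (⟨x, h / 2⟩ : ℂ), ζ ∈ H877.Bd.cone k h x :=
      (H877.Bd.isOpen_cone k h x).mem_nhds hmem
    have h2 : Tendsto (fun ζ : ℂ => -ζ) (𝓝 (-(⟨x, h / 2⟩ : ℂ))) (𝓝 (⟨x, h / 2⟩ : ℂ)) := by
      have := (continuous_neg (G := ℂ)).tendsto (-(⟨x, h / 2⟩ : ℂ))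
      simpa using this
    filter_upwards [h2.eventually h1] with ζ hζ
    have := hz (-ζ) hζ
    simpa [hf] using this
  have hpa : AnalyticOnNhd ℂ p Low := hp.analyticOnNhd isOpen_low
  intro κ hκ
  exact hpa.eqOn_zero_of_preconnected_of_eventuallyEq_zero convex_low.isPreconnected hlow hev hκ

/-- continuous convergence from uniform convergence near a point -/
theorem cc_of_unif {X : Type*} [TopologicalSpace X] {F : ι → X → ℂ} {f : X → ℂ} {N : Set X}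
    {x : X} (hN : N ∈ 𝓝 x) (hU : TendstoUniformlyOn F f l N) (hf : ContinuousAt f x) :
    Tendsto (fun y : ι × X => F y.1 y.2) (l ×ˢ 𝓝 x) (𝓝 (f x)) := by
  rw [Metric.tendsto_nhds]
  intro ε hε
  rw [Metric.tendstoUniformlyOn_iff] at hU
  have h1 := hU (ε / 2) (by positivity)
  have h2 : ∀ᶠ y in 𝓝 x, dist (f y) (f x) < ε / 2 := hf.eventually (ball_mem_nhds _ (by positivity))
  filter_upwards [h1.prod_mk (h2.and hN)] with y hy
  obtain ⟨hy1, hy2, hy3⟩ := hy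
  have h3 := hy1 y.2 hy3
  rw [dist_comm] at h3
  calc dist (F y.1 y.2) (f x) ≤ dist (F y.1 y.2) (f y.2) + dist (f y.2) (f x) :=
        dist_triangle _ _ _
    _ < ε := by linarith

/-- locally uniform convergence from continuous convergence -/
theorem tlu_of_cc {F : ι → ℂ → ℂ} {f : ℂ → ℂ} {s : Set ℂ} (hs : IsOpen s)
    (hf : ContinuousOn f s)
    (h : ∀ x ∈ s, Tendsto (fun y : ι × ℂ => F y.1 y.2) (l ×ˢ 𝓝 x) (𝓝 (f x))) :
    TendstoLocallyUniformlyOn F f l s := by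
  rw [Metric.tendstoLocallyUniformlyOn_iff]
  intro ε hε x hx
  have h1 := (Metric.tendsto_nhds.mp (h x hx)) (ε / 2) (by positivity)
  have h2 : ∀ᶠ y in 𝓝 x, dist (f y) (f x) < ε / 2 :=
    (hf.continuousAt (hs.mem_nhds hx)).eventually (ball_mem_nhds _ (by positivity))
  obtain ⟨pa, hpa, pb, hpb, hab⟩ := Filter.eventually_prod_iff.mp h1
  refine ⟨{y | pb y ∧ dist (f y) (f x) < ε / 2}, mem_nhdsWithin_of_mem_nhds (hpb.and h2), ?_⟩
  filter_upwards [hpa] with n hn y hy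
  have h3 := hab hn hy.1
  have h4 : dist (f y) (f x) < ε / 2 := hy.2
  calc dist (f y) (F n y) ≤ dist (f y) (f x) + dist (f x) (F n y) := dist_triangle _ _ _
    _ < ε := by rw [dist_comm (f x)]; simp only at h3; linarith

theorem ev_compact {X : Type*} [TopologicalSpace X] {K : Set X} (hK : IsCompact K)
    {Q : ι → X → Prop} (h : ∀ z ∈ K, ∃ V ∈ 𝓝 z, ∀ᶠ n in l, ∀ z' ∈ V, Q n z') :
    ∀ᶠ n in l, ∀ z ∈ K, Q n z := by
  refine hK.induction_on (p := fun s => ∀ᶠ n in l, ∀ z ∈ s, Q n z) ?_ ?_ ?_ ?_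
  · exact Eventually.of_forall fun n z hz => hz.elim
  · intro s t hst ht
    exact ht.mono fun n hn z hz => hn z (hst hz)
  · intro s t hs ht
    filter_upwards [hs, ht] with n h1 h2 z hz
    exact hz.elim (h1 z) (h2 z)
  · intro z hz
    obtain ⟨V, hV, hVn⟩ := h z hz
    exact ⟨V, mem_nhdsWithin_of_mem_nhds hV, hVn⟩

/-- the domain below the edge, over a ball of `w` -/
def Dom (w₀ : ℂ) (ρw : ℝ) : Set (ℂ × ℂ) := {p | p.1.im < 0 ∧ p.2 ∈ ball w₀ ρw}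

theorem isOpen_dom (w₀ : ℂ) (ρw : ℝ) : IsOpen (Dom w₀ ρw) :=
  (isOpen_lt (Complex.continuous_im.comp continuous_fst) continuous_const).inter
    (isOpen_ball.preimage continuous_snd)

/-- a good extension of the root `th n` to a ball about a real point -/
def Ext (H : ℝ) (Mn : ι → (ℂ × ℂ) × ℂ → ℂ) (th : ι → ℂ × ℂ → ℂ) (w₀ : ℂ) (c : ℝ) (δ ε : ℝ)
    (n : ι) : Prop :=
  ∃ g : ℂ × ℂ → ℂ, AnalyticOnNhd ℂ g (ball ((c : ℂ), w₀) δ) ∧
    ∀ z ∈ ball ((c : ℂ), w₀) δ, |(g z).im| < H ∧ Mn n (z, g z) = 0 ∧ dx (Mn n) (z, g z) ≠ 0 ∧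
      (z.1.im ≤ -ε → g z = th n z)

/-- **The data of the limit world** on one slice. -/
structure WorldL (l : Filter ι) (H R : ℝ) (w₀ : ℂ) (ρw : ℝ) (Mn : ι → (ℂ × ℂ) × ℂ → ℂ)
    (M : (ℂ × ℂ) × ℂ → ℂ) (th : ι → ℂ × ℂ → ℂ) (θ : ℂ × ℂ → ℂ) : Prop where
  H_pos : 0 < H
  ρ_pos : 0 < ρw
  conv : ∀ κ : ℂ, (κ.im < 0 ∨ (κ.im = 0 ∧ |κ.re| < R)) → ∀ x : ℂ, |x.im| < H →
    ∃ N ∈ 𝓝 ((κ, w₀), x), (∀ᶠ n in l, AnalyticOnNhd ℂ (Mn n) N) ∧
      TendstoUniformlyOn Mn M l N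
  per : ∀ n z x, |x.im| < H → Mn n (z, x + 1) = Mn n (z, x)
  iso : ∀ c : ℝ, |c| < R → ∀ x : ℂ, |x.im| < H →
    ∀ᶠ y in 𝓝[≠] x, M (((c : ℂ), w₀), y) ≠ 0
  lim : TendstoLocallyUniformlyOn th θ l (Dom w₀ ρw)
  reg : ∀ z ∈ Dom w₀ ρw, ∃ V ∈ 𝓝 z, ∀ᶠ n in l, DifferentiableOn ℂ (th n) V ∧
    ∀ z' ∈ V, |(th n z').im| < H ∧ Mn n (z', th n z') = 0
  str : ∀ z ∈ Dom w₀ ρw, |(θ z).im| < H
  touch : ∀ c : ℝ, |c| < R → ∀ δ > 0, ∃ ε > 0, ∃ᶠ n in l, ¬ Ext H Mn th w₀ c δ ε n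
  nt : ∃ κ ∈ Low, dx M ((κ, w₀), θ (κ, w₀)) ≠ 0

namespace WorldL

variable [l.NeBot] {H R : ℝ} {w₀ : ℂ} {ρw : ℝ} {Mn : ι → (ℂ × ℂ) × ℂ → ℂ} {M : (ℂ × ℂ) × ℂ → ℂ}
  {th : ι → ℂ × ℂ → ℂ} {θ : ℂ × ℂ → ℂ}

theorem mem_dom (W : WorldL l H R w₀ ρw Mn M th θ) {κ : ℂ} (hκ : κ ∈ Low) :
    (κ, w₀) ∈ Dom w₀ ρw := ⟨hκ, mem_ball_self W.ρ_pos⟩

/-- everything near a point of the slice -/
theorem loc (W : WorldL l H R w₀ ρw Mn M th θ) {κ : ℂ}
    (hκ : κ.im < 0 ∨ (κ.im = 0 ∧ |κ.re| < R)) {x : ℂ} (hx : |x.im| < H) :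
    ∃ r > 0, (∀ᶠ n in l, AnalyticOnNhd ℂ (Mn n) (ball (κ, w₀) r ×ˢ ball x r)) ∧
      TendstoUniformlyOn Mn M l (ball (κ, w₀) r ×ˢ ball x r) ∧
      TendstoUniformlyOn (fun n => dx (Mn n)) (dx M) l (ball (κ, w₀) r ×ˢ ball x (r / 2)) ∧
      ContinuousOn M (ball (κ, w₀) r ×ˢ ball x r) ∧
      ContinuousOn (dx M) (ball (κ, w₀) r ×ˢ ball x (r / 2)) := by
  obtain ⟨N, hN, hA, hU⟩ := W.conv κ hκ x hx
  obtain ⟨r, hr, hrN⟩ := Metric.mem_nhds_iff.mp hN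
  rw [← ball_prod_same] at hrN
  have hA' : ∀ᶠ n in l, AnalyticOnNhd ℂ (Mn n) (ball (κ, w₀) r ×ˢ ball x r) :=
    hA.mono fun n hn => hn.mono hrN
  obtain ⟨h1, -, h3, h4⟩ := limit_data hr hA' (hU.mono hrN)
  exact ⟨r, hr, hA', hU.mono hrN, h3, h1, h4⟩

theorem contAt (W : WorldL l H R w₀ ρw Mn M th θ) {κ : ℂ}
    (hκ : κ.im < 0 ∨ (κ.im = 0 ∧ |κ.re| < R)) {x : ℂ} (hx : |x.im| < H) :
    ContinuousAt M ((κ, w₀), x) ∧ ContinuousAt (dx M) ((κ, w₀), x) := by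
  obtain ⟨r, hr, -, -, -, h1, h2⟩ := W.loc hκ hx
  exact ⟨h1.continuousAt (prod_mem_nhds (ball_mem_nhds _ hr) (ball_mem_nhds _ hr)),
    h2.continuousAt (prod_mem_nhds (ball_mem_nhds _ hr) (ball_mem_nhds _ (by positivity)))⟩

theorem per_int (W : WorldL l H R w₀ ρw Mn M th θ) (n : ι) (z : ℂ × ℂ) {x : ℂ} (hx : |x.im| < H)
    (k : ℤ) : Mn n (z, x + k) = Mn n (z, x) := by
  induction k using Int.induction_on with
  | zero => simp
  | succ i ih =>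
    have h1 := W.per n z (x + ((i : ℤ) : ℂ)) (by simpa using hx)
    rw [← ih, ← h1]
    congr 2
    push_cast; ring
  | pred i ih =>
    have h1 := W.per n z (x + ((-(i : ℤ) - 1 : ℤ) : ℂ)) (by simpa using hx)
    rw [← ih, ← h1]
    congr 2
    push_cast; ring

theorem tendsto_M (W : WorldL l H R w₀ ρw Mn M th θ) {κ : ℂ}
    (hκ : κ.im < 0 ∨ (κ.im = 0 ∧ |κ.re| < R)) {x : ℂ} (hx : |x.im| < H) :
    Tendsto (fun n => Mn n ((κ, w₀), x)) l (𝓝 (M ((κ, w₀), x))) := by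
  obtain ⟨N, hN, -, hU⟩ := W.conv κ hκ x hx
  exact hU.tendsto_at (mem_of_mem_nhds hN)

theorem per_lim (W : WorldL l H R w₀ ρw Mn M th θ) {κ : ℂ}
    (hκ : κ.im < 0 ∨ (κ.im = 0 ∧ |κ.re| < R)) {x : ℂ} (hx : |x.im| < H) (k : ℤ) :
    M ((κ, w₀), x + k) = M ((κ, w₀), x) := by
  have h1 := W.tendsto_M hκ (x := x + k) (by simpa using hx)
  have h2 := W.tendsto_M hκ hx
  have h3 : (fun n => Mn n ((κ, w₀), x + k)) = fun n => Mn n ((κ, w₀), x) := by
    funext n; exact W.per_int n _ hx k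
  rw [h3] at h1
  exact tendsto_nhds_unique h1 h2

theorem ev_strip {x : ℂ} (hx : |x.im| < H) : ∀ᶠ y in 𝓝 x, |y.im| < H := by
  have : ContinuousAt (fun y : ℂ => |y.im|) x := by fun_prop
  exact this.eventually_lt_const hx

theorem dx_per_lim (W : WorldL l H R w₀ ρw Mn M th θ) {κ : ℂ}
    (hκ : κ.im < 0 ∨ (κ.im = 0 ∧ |κ.re| < R)) {x : ℂ} (hx : |x.im| < H) (k : ℤ) :
    dx M ((κ, w₀), x + k) = dx M ((κ, w₀), x) := by
  unfold dx
  simp only
  rw [← deriv_comp_add_const]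
  refine Filter.EventuallyEq.deriv_eq ?_
  filter_upwards [ev_strip hx] with y hy
  exact W.per_lim hκ hy k

theorem dx_per_n (W : WorldL l H R w₀ ρw Mn M th θ) (n : ι) (z : ℂ × ℂ) {x : ℂ} (hx : |x.im| < H)
    (k : ℤ) : dx (Mn n) (z, x + k) = dx (Mn n) (z, x) := by
  unfold dx
  simp only
  rw [← deriv_comp_add_const]
  refine Filter.EventuallyEq.deriv_eq ?_
  filter_upwards [ev_strip hx] with y hy
  exact W.per_int n z hy k

/-- the slice of `θ` -/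
theorem slice_tlu (W : WorldL l H R w₀ ρw Mn M th θ) :
    TendstoLocallyUniformlyOn (fun n κ => th n (κ, w₀)) (fun κ => θ (κ, w₀)) l Low :=
  W.lim.comp (fun κ => (κ, w₀)) (fun κ hκ => W.mem_dom hκ) (by fun_prop)

theorem reg' (W : WorldL l H R w₀ ρw Mn M th θ) {z : ℂ × ℂ} (hz : z ∈ Dom w₀ ρw) :
    ∃ V ∈ 𝓝 z, ∀ᶠ n in l, ∀ z' ∈ V, DifferentiableAt ℂ (th n) z' ∧ |(th n z').im| < H ∧
      Mn n (z', th n z') = 0 := by
  obtain ⟨V, hV, hVn⟩ := W.reg z hz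
  refine ⟨interior V, interior_mem_nhds.mpr hV, ?_⟩
  filter_upwards [hVn] with n hn z' hz'
  exact ⟨(hn.1 z' (interior_subset hz')).differentiableAt (mem_interior_iff_mem_nhds.mp hz'),
    hn.2 z' (interior_subset hz')⟩

theorem slice_diff (W : WorldL l H R w₀ ρw Mn M th θ) :
    DifferentiableOn ℂ (fun κ => θ (κ, w₀)) Low := by
  intro κ hκ
  obtain ⟨V, hV, hVn⟩ := W.reg' (W.mem_dom hκ)
  have h1 : ∀ᶠ κ' in 𝓝 κ, (κ', w₀) ∈ V := by
    have : ContinuousAt (fun κ' : ℂ => (κ', w₀)) κ := by fun_prop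
    exact this hV
  obtain ⟨s, hs, hsub⟩ := Metric.mem_nhds_iff.mp (h1.and (isOpen_low.mem_nhds hκ))
  have h2 : DifferentiableOn ℂ (fun κ => θ (κ, w₀)) (ball κ s) := by
    refine (W.slice_tlu.mono fun κ' hκ' => (hsub hκ').2).differentiableOn ?_ isOpen_ball
    filter_upwards [hVn] with n hn κ' hκ'
    have h3 := (hn _ (hsub hκ').1).1
    have h4 : DifferentiableAt ℂ (fun κ' : ℂ => (κ', w₀)) κ' := by fun_prop
    exact (DifferentiableAt.comp κ' h3 h4).differentiableWithinAt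
  exact ((h2 κ (mem_ball_self hs)).differentiableAt (ball_mem_nhds _ hs)).differentiableWithinAt

/-- continuous convergence of the slices -/
theorem slice_cc (W : WorldL l H R w₀ ρw Mn M th θ) {κ : ℂ} (hκ : κ ∈ Low) :
    Tendsto (fun y : ι × ℂ => th y.1 (y.2, w₀)) (l ×ˢ 𝓝 κ) (𝓝 (θ (κ, w₀))) := by
  have h1 := W.slice_tlu
  rw [Metric.tendstoLocallyUniformlyOn_iff] at h1
  rw [Metric.tendsto_nhds]
  intro ε hε
  obtain ⟨t, ht, hn⟩ := h1 (ε / 2) (by positivity) κ hκ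
  rw [isOpen_low.nhdsWithin_eq hκ] at ht
  have hc : ContinuousAt (fun κ => θ (κ, w₀)) κ :=
    (W.slice_diff.continuousOn).continuousAt (isOpen_low.mem_nhds hκ)
  have h2 : ∀ᶠ y in 𝓝 κ, dist (θ (y, w₀)) (θ (κ, w₀)) < ε / 2 :=
    hc.eventually (ball_mem_nhds _ (by positivity))
  filter_upwards [hn.prod_mk (h2.and ht)] with y hy
  obtain ⟨hy1, hy2, hy3⟩ := hy
  have h3 := hy1 y.2 hy3
  rw [dist_comm] at h3
  calc dist (th y.1 (y.2, w₀)) (θ (κ, w₀)) ≤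
      dist (th y.1 (y.2, w₀)) (θ (y.2, w₀)) + dist (θ (y.2, w₀)) (θ (κ, w₀)) :=
        dist_triangle _ _ _
    _ < ε := by linarith

/-- the map to the incidence variables -/
theorem slice_cc' (W : WorldL l H R w₀ ρw Mn M th θ) {κ : ℂ} (hκ : κ ∈ Low) :
    Tendsto (fun y : ι × ℂ => (y.1, ((y.2, w₀), th y.1 (y.2, w₀)))) (l ×ˢ 𝓝 κ)
      (l ×ˢ 𝓝 ((κ, w₀), θ (κ, w₀))) := by
  refine Tendsto.prodMk tendsto_fst ?_
  rw [nhds_prod_eq]
  refine Tendsto.prodMk ?_ (W.slice_cc hκ)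
  have h1 : Tendsto (fun y : ℂ => (y, w₀)) (𝓝 κ) (𝓝 (κ, w₀)) := by
    have : ContinuousAt (fun y : ℂ => (y, w₀)) κ := by fun_prop
    exact this
  exact h1.comp tendsto_snd

theorem inc_lim (W : WorldL l H R w₀ ρw Mn M th θ) {κ : ℂ} (hκ : κ ∈ Low) :
    M ((κ, w₀), θ (κ, w₀)) = 0 := by
  have hx := W.str _ (W.mem_dom hκ)
  obtain ⟨N, hN, -, hU⟩ := W.conv κ (Or.inl hκ) _ hx
  have h1 := (cc_of_unif hN hU (W.contAt (Or.inl hκ) hx).1).comp (W.slice_cc' hκ)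
  have h2 : Tendsto (fun n : ι => (n, κ)) l (l ×ˢ 𝓝 κ) :=
    Tendsto.prodMk tendsto_id tendsto_const_nhds
  have h3 := h1.comp h2
  obtain ⟨V, hV, hVn⟩ := W.reg' (W.mem_dom hκ)
  have h4 : (fun n => Mn n ((κ, w₀), th n (κ, w₀))) =ᶠ[l] fun _ => (0 : ℂ) := by
    filter_upwards [hVn] with n hn
    exact (hn _ (mem_of_mem_nhds hV)).2.2
  exact tendsto_nhds_unique h3 (tendsto_const_nhds.congr' h4.symm)

/-- the derivative of the incidence function along the slice -/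
def pp (w₀ : ℂ) (M : (ℂ × ℂ) × ℂ → ℂ) (θ : ℂ × ℂ → ℂ) (κ : ℂ) : ℂ :=
  dx M ((κ, w₀), θ (κ, w₀))

theorem pp_diff (W : WorldL l H R w₀ ρw Mn M th θ) : DifferentiableOn ℂ (pp w₀ M θ) Low := by
  have hθc : ContinuousOn (fun κ => θ (κ, w₀)) Low := W.slice_diff.continuousOn
  -- continuity
  have hpc : ContinuousOn (pp w₀ M θ) Low := by
    intro κ hκ
    have h1 := (W.contAt (Or.inl hκ) (W.str _ (W.mem_dom hκ))).2
    have h2 : ContinuousAt (fun κ => ((κ, w₀), θ (κ, w₀))) κ := by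
      refine ContinuousAt.prodMk (by fun_prop) (hθc.continuousAt (isOpen_low.mem_nhds hκ))
    exact (ContinuousAt.comp (f := fun κ => ((κ, w₀), θ (κ, w₀))) (g := dx M) h1
      h2).continuousWithinAt
  intro κ hκ
  obtain ⟨r, hr, hA, hU, hU', hc, hc'⟩ := W.loc (Or.inl hκ) (W.str _ (W.mem_dom hκ))
  obtain ⟨V, hV, hVn⟩ := W.reg' (W.mem_dom hκ)
  have hcc := W.slice_cc' hκ
  have hbox : ball (κ, w₀) r ×ˢ ball (θ (κ, w₀)) (r / 2) ∈ 𝓝 ((κ, w₀), θ (κ, w₀)) :=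
    prod_mem_nhds (ball_mem_nhds _ hr) (ball_mem_nhds _ (by positivity))
  have hev := hcc.eventually (prod_mem_prod (univ_mem (f := (l : Filter ι))) hbox)
  obtain ⟨pa, hpa, pb, hpb, hab⟩ := Filter.eventually_prod_iff.mp hev
  have h1 : ∀ᶠ κ' in 𝓝 κ, (κ', w₀) ∈ V := by
    have : ContinuousAt (fun κ' : ℂ => (κ', w₀)) κ := by fun_prop
    exact this hV
  have hl : ∀ᶠ κ' in 𝓝 κ, κ' ∈ Low := isOpen_low.mem_nhds hκ
  obtain ⟨s, hs, hsub⟩ := Metric.mem_nhds_iff.mp (h1.and (hl.and hpb))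
  have hlow : ball κ s ⊆ Low := fun κ' hκ' => (hsub hκ').2.1
  have hFd : ∀ᶠ n in l, DifferentiableOn ℂ
      (fun κ' => dx (Mn n) ((κ', w₀), th n (κ', w₀))) (ball κ s) := by
    filter_upwards [hA, hVn, hpa] with n hAn hn hpan κ' hκ'
    have h3 := hab hpan (hsub hκ').2.2
    have h4 : ((κ', w₀), th n (κ', w₀)) ∈ ball (κ, w₀) r ×ˢ ball (θ (κ, w₀)) (r / 2) := h3.2
    have hb2 : ball (θ (κ, w₀)) (r / 2) ⊆ ball (θ (κ, w₀)) r := ball_subset_ball (by linarith)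
    have h5 : ((κ', w₀), th n (κ', w₀)) ∈ ball (κ, w₀) r ×ˢ ball (θ (κ, w₀)) r :=
      ⟨h4.1, hb2 h4.2⟩
    have h6 : DifferentiableAt ℂ (fun q => fderiv ℂ (Mn n) q (0, 1))
        ((κ', w₀), th n (κ', w₀)) :=
      ((hAn _ h5).fderiv.differentiableAt).clm_apply (differentiableAt_const _)
    have h7 : (fun q => fderiv ℂ (Mn n) q (0, 1)) =ᶠ[𝓝 ((κ', w₀), th n (κ', w₀))] dx (Mn n) := by
      filter_upwards [(isOpen_ball.prod isOpen_ball).mem_nhds h5] with q hq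
      exact (dx_eq (hAn q hq)).symm
    have h8 : DifferentiableAt ℂ (dx (Mn n)) ((κ', w₀), th n (κ', w₀)) :=
      h6.congr_of_eventuallyEq h7.symm
    have h9 : DifferentiableAt ℂ (th n) (κ', w₀) := (hn _ (hsub hκ').1).1
    have h10 : DifferentiableAt ℂ (fun κ' : ℂ => (κ', w₀)) κ' := by fun_prop
    have h11 : DifferentiableAt ℂ (fun κ' : ℂ => ((κ', w₀), th n (κ', w₀))) κ' :=
      h10.prodMk (DifferentiableAt.comp κ' h9 h10)
    exact (DifferentiableAt.comp κ' h8 h11).differentiableWithinAt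
  have htlu : TendstoLocallyUniformlyOn (fun n κ' => dx (Mn n) ((κ', w₀), th n (κ', w₀)))
      (pp w₀ M θ) l (ball κ s) := by
    refine tlu_of_cc isOpen_ball (hpc.mono hlow) fun κ' hκ' => ?_
    have hκl : κ' ∈ Low := hlow hκ'
    have hx' := W.str _ (W.mem_dom hκl)
    obtain ⟨r', hr', -, -, hU2, -, -⟩ := W.loc (Or.inl hκl) hx'
    exact (cc_of_unif (prod_mem_nhds (ball_mem_nhds _ hr') (ball_mem_nhds _ (by positivity)))
      hU2 (W.contAt (Or.inl hκl) hx').2).comp (W.slice_cc' hκl)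
  have hd := htlu.differentiableOn hFd isOpen_ball
  exact ((hd κ (mem_ball_self hs)).differentiableAt (ball_mem_nhds _ hs)).differentiableWithinAt

/-- a value of `ee ∘ φ` near `ee x` gives an integer translate near `x` -/
theorem near_int {x : ℂ} {U : Set ℂ} (hU : U ∈ 𝓝 x) :
    {y | ∃ v ∈ U, ∃ k : ℤ, True ∧ ee v = y ∧ k = 0} ∈ 𝓝 (ee x) := by
  rw [← ee_map]
  refine mem_of_superset (image_mem_map hU) ?_
  rintro _ ⟨v, hv, rfl⟩
  exact ⟨v, hv, 0, trivial, rfl, rfl⟩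

/-- eventually an integer translate is near -/
theorem ev_int {φ : ℂ → ℂ} {F : Filter ℂ} {x : ℂ} (h : Tendsto (fun κ => ee (φ κ)) F (𝓝 (ee x)))
    {U : Set ℂ} (hU : U ∈ 𝓝 x) : ∀ᶠ κ in F, ∃ k : ℤ, φ κ - k ∈ U := by
  have h1 : ee '' U ∈ 𝓝 (ee x) := by rw [← ee_map]; exact image_mem_map hU
  filter_upwards [h.eventually h1] with κ hκ
  obtain ⟨v, hv, hve⟩ := hκ
  obtain ⟨k, hk⟩ := ee_eq_iff.mp hve
  refine ⟨-k, ?_⟩
  have : φ κ - ((-k : ℤ) : ℂ) = v := by rw [hk]; push_cast; ring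
  rwa [this]

theorem fr_int {φ : ℂ → ℂ} {F : Filter ℂ} {x : ℂ} (h : MapClusterPt (ee x) F (fun κ => ee (φ κ)))
    {U : Set ℂ} (hU : U ∈ 𝓝 x) : ∃ᶠ κ in F, ∃ k : ℤ, φ κ - k ∈ U := by
  have h1 : ee '' U ∈ 𝓝 (ee x) := by rw [← ee_map]; exact image_mem_map hU
  refine (mapClusterPt_iff_frequently.mp h _ h1).mono ?_
  intro κ hκ
  obtain ⟨v, hv, hve⟩ := hκ
  obtain ⟨k, hk⟩ := ee_eq_iff.mp hve
  refine ⟨-k, ?_⟩
  have : φ κ - ((-k : ℤ) : ℂ) = v := by rw [hk]; push_cast; ring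
  rwa [this]

/-- **Step 1a**: an interior cluster value is a root. -/
theorem cluster_root (W : WorldL l H R w₀ ρw Mn M th θ) {c : ℝ} (hc : |c| < R) {x : ℂ}
    (hx : |x.im| < H)
    (hcl : MapClusterPt (ee x) (𝓝[Low] (c : ℂ)) (fun κ => ee (θ (κ, w₀)))) :
    M (((c : ℂ), w₀), x) = 0 := by
  by_contra hne
  have hP : (c : ℂ).im < 0 ∨ ((c : ℂ).im = 0 ∧ |(c : ℂ).re| < R) := by
    right; simpa using hc
  have h1 := (W.contAt hP hx).1
  have h2 : ∀ᶠ q in 𝓝 (((c : ℂ), w₀), x), M q ≠ 0 := h1.eventually_ne hne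
  rw [nhds_prod_eq] at h2
  obtain ⟨pa, hpa, pb, hpb, hab⟩ := Filter.eventually_prod_iff.mp h2
  have h3 : ∀ᶠ κ in 𝓝[Low] (c : ℂ), pa (κ, w₀) := by
    have : ContinuousAt (fun κ : ℂ => (κ, w₀)) (c : ℂ) := by fun_prop
    exact (this.eventually hpa).filter_mono nhdsWithin_le_nhds
  obtain ⟨κ, ⟨⟨k, hk⟩, hκ1⟩, hκ2⟩ := (((fr_int hcl (hpb.and (ev_strip hx))).and_eventually
    h3).and_eventually self_mem_nhdsWithin).exists
  have hκl : κ ∈ Low := hκ2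
  have h4 := hab hκ1 hk.1
  have h5 := W.per_lim (Or.inl hκl) (W.str _ (W.mem_dom hκl)) (-k)
  rw [W.inc_lim hκl] at h5
  apply h4
  have h6 : θ (κ, w₀) - (k : ℂ) = θ (κ, w₀) + ((-k : ℤ) : ℂ) := by push_cast; ring
  show M ((κ, w₀), θ (κ, w₀) - (k : ℂ)) = 0
  rw [h6, h5]

/-- **Step 1b**: an interior cluster value is not a simple root (TOUCH). -/
theorem cluster_dx (W : WorldL l H R w₀ ρw Mn M th θ) {c : ℝ} (hc : |c| < R) {x : ℂ}
    (hx : |x.im| < H)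
    (hcl : MapClusterPt (ee x) (𝓝[Low] (c : ℂ)) (fun κ => ee (θ (κ, w₀)))) :
    dx M (((c : ℂ), w₀), x) = 0 := by
  by_contra hne
  have hP : (c : ℂ).im < 0 ∨ ((c : ℂ).im = 0 ∧ |(c : ℂ).re| < R) := by
    right; simpa using hc
  have hroot := W.cluster_root hc hx hcl
  obtain ⟨N, hN, hA, hU⟩ := W.conv c hP x hx
  obtain ⟨ρ, hρ, hρ0, δ, hδ, hev⟩ := persist hN hA hU hroot hne
    (ρ₀ := (H - |x.im|) / 2) (by linarith)
  have hstrip : ∀ v ∈ ball x ρ, |v.im| < H := by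
    intro v hv
    rw [mem_ball, dist_eq_norm] at hv
    have h1 : |v.im - x.im| ≤ ‖v - x‖ := by
      have := Complex.abs_im_le_norm (v - x)
      simpa using this
    have h2 : |v.im| ≤ |v.im - x.im| + |x.im| := by
      have := abs_add_le (v.im - x.im) x.im
      simpa using this
    linarith
  set δ' := min δ (ρw / 2) with hδ'
  have hρw := W.ρ_pos
  have hδ'0 : 0 < δ' := by positivity
  have hδ'δ : ball ((c : ℂ), w₀) δ' ⊆ ball ((c : ℂ), w₀) δ := ball_subset_ball (min_le_left _ _)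
  obtain ⟨ε, hε, htouch⟩ := W.touch c hc δ' hδ'0
  -- the cluster point
  have h3 : ∀ᶠ κ in 𝓝[Low] (c : ℂ), κ ∈ ball (c : ℂ) δ' :=
    mem_nhdsWithin_of_mem_nhds (ball_mem_nhds _ hδ'0)
  obtain ⟨κ₁, ⟨⟨k, hk⟩, hκ₁b⟩, hκ₁l⟩ := (((fr_int hcl (ball_mem_nhds x hρ)).and_eventually
    h3).and_eventually self_mem_nhdsWithin).exists
  have hκl : κ₁ ∈ Low := hκ₁l
  have hκim : κ₁.im < 0 := hκl
  set ε₁ := min ε (-κ₁.im) with hε₁
  have hε₁0 : 0 < ε₁ := lt_min hε (by linarith)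
  -- compact set
  set K : Set (ℂ × ℂ) := closedBall ((c : ℂ), w₀) δ' ∩ {z | z.1.im ≤ -ε₁} with hK
  have hKc : IsCompact K := (isCompact_closedBall _ _).inter_right
    (isClosed_le (Complex.continuous_im.comp continuous_fst) continuous_const)
  have hKD : K ⊆ Dom w₀ ρw := by
    rintro z ⟨hz1, hz2⟩
    have hz2' : z.1.im ≤ -ε₁ := hz2
    refine ⟨by linarith, ?_⟩
    rw [← closedBall_prod_same] at hz1
    have h4 : dist z.2 w₀ ≤ δ' := hz1.2
    rw [mem_ball]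
    have h5 : δ' ≤ ρw / 2 := min_le_right _ _
    linarith
  have hKev := ev_compact hKc fun z hz => W.reg' (hKD hz)
  set S : Set (ℂ × ℂ) := ball ((c : ℂ), w₀) δ' ∩ {z | z.1.im ≤ -ε₁} with hS
  have hSK : S ⊆ K := inter_subset_inter_left _ ball_subset_closedBall
  have hSconv : Convex ℝ S := by
    refine (convex_ball _ _).inter ?_
    intro a ha b hb s t hs ht hst
    have ha' : a.1.im ≤ -ε₁ := ha
    have hb' : b.1.im ≤ -ε₁ := hb
    show (s • a + t • b).1.im ≤ -ε₁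
    have h4 : (s • a + t • b).1.im = s * a.1.im + t * b.1.im := by
      simp
    rw [h4]
    have h5 : s * a.1.im + t * b.1.im ≤ s * (-ε₁) + t * (-ε₁) := by gcongr
    have h6 : s * (-ε₁) + t * (-ε₁) = -ε₁ := by rw [← add_mul, hst, one_mul]
    linarith
  have hz₁S : (κ₁, w₀) ∈ S := by
    refine ⟨?_, ?_⟩
    · rw [← ball_prod_same]
      exact ⟨hκ₁b, mem_ball_self hδ'0⟩
    · show κ₁.im ≤ -ε₁
      have : ε₁ ≤ -κ₁.im := min_le_right _ _
      linarith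
  -- convergence at the cluster point
  have hth : ∀ᶠ n in l, th n (κ₁, w₀) - (k : ℂ) ∈ ball x ρ := by
    have h4 : Tendsto (fun n => th n (κ₁, w₀) - (k : ℂ)) l (𝓝 (θ (κ₁, w₀) - k)) :=
      ((W.slice_cc hκl).comp (Tendsto.prodMk tendsto_id tendsto_const_nhds :
        Tendsto (fun n : ι => (n, κ₁)) l (l ×ˢ 𝓝 κ₁))).sub_const _
    exact h4.eventually (isOpen_ball.mem_nhds hk)
  obtain ⟨n, hnot, ⟨g, hg, hgz⟩, hnK, hnth⟩ :=
    (htouch.and_eventually (hev.and (hKev.and hth))).exists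
  apply hnot
  -- agreement on `S`
  have hinc : ∀ z ∈ S, Mn n (z, th n z - (k : ℂ)) = 0 := by
    intro z hz
    have h4 := hnK z (hSK hz)
    have h5 := W.per_int n z h4.2.1 (-k)
    rw [h4.2.2] at h5
    have h6 : th n z - (k : ℂ) = th n z + ((-k : ℤ) : ℂ) := by push_cast; ring
    rw [h6, h5]
  have hcth : ContinuousOn (fun z => th n z - (k : ℂ)) S := by
    intro z hz
    exact ((hnK z (hSK hz)).1.continuousAt.sub continuousAt_const).continuousWithinAt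
  have hSb : S ⊆ ball ((c : ℂ), w₀) δ := fun z hz => hδ'δ hz.1
  have hagree : EqOn (fun z => th n z - (k : ℂ)) g S := by
    refine eqOn_of_conn hSconv.isPreconnected hcth (hg.continuousOn.mono hSb) hz₁S ?_ ?_
    · exact (hgz _ (hSb hz₁S)).2.2.2 _ hnth (hinc _ hz₁S)
    · intro z hz heq
      have hmem : th n z - (k : ℂ) ∈ ball x ρ := by
        rw [heq]; exact (hgz _ (hSb hz)).1
      filter_upwards [(hcth z hz).eventually (isOpen_ball.mem_nhds hmem), self_mem_nhdsWithin]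
        with z' hz' hz'S
      exact (hgz _ (hSb hz'S)).2.2.2 _ hz' (hinc _ hz'S)
  refine ⟨fun z => g z + (k : ℂ), fun z hz => (hg z (hδ'δ hz)).add analyticAt_const, ?_⟩
  intro z hz
  obtain ⟨hg1, hg2, hg3, -⟩ := hgz z (hδ'δ hz)
  have hgs : |(g z).im| < H := hstrip _ hg1
  refine ⟨by simpa using hgs, ?_, ?_, ?_⟩
  · show Mn n (z, g z + (k : ℂ)) = 0
    rw [W.per_int n z hgs k, hg2]
  · show dx (Mn n) (z, g z + (k : ℂ)) ≠ 0
    rw [W.dx_per_n n z hgs k]; exact hg3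
  · intro hzim
    have hzS : z ∈ S := by
      refine ⟨hz, ?_⟩
      show z.1.im ≤ -ε₁
      have : ε₁ ≤ ε := min_le_left _ _
      linarith
    have h4 := hagree hzS
    simp only at h4
    show g z + (k : ℂ) = th n z
    rw [← h4]; ring

/-- interior cluster values are isolated -/
theorem cluster_iso (W : WorldL l H R w₀ ρw Mn M th θ) {c : ℝ} (hc : |c| < R) {x : ℂ}
    (hx : |x.im| < H) : ∃ s > 0, ∀ y : ℂ, 0 < dist y (ee x) → dist y (ee x) ≤ s →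
      ¬ MapClusterPt y (𝓝[Low] (c : ℂ)) (fun κ => ee (θ (κ, w₀))) := by
  have h1 := W.iso c hc x hx
  rw [eventually_nhdsWithin_iff] at h1
  have h2 : ee '' {y | (y ∈ ({x}ᶜ : Set ℂ) → M (((c : ℂ), w₀), y) ≠ 0) ∧ |y.im| < H} ∈
      𝓝 (ee x) := by
    rw [← ee_map]
    exact image_mem_map (h1.and (ev_strip hx))
  obtain ⟨s, hs, hsub⟩ := Metric.mem_nhds_iff.mp h2
  refine ⟨s / 2, by positivity, fun y hy0 hys hcl => ?_⟩
  have hmem : y ∈ ball (ee x) s := by rw [mem_ball]; linarith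
  obtain ⟨v, ⟨hv1, hv2⟩, rfl⟩ := hsub hmem
  have hroot := W.cluster_root hc hv2 hcl
  refine hv1 ?_ hroot
  intro hvx
  rw [mem_singleton_iff] at hvx
  rw [hvx, dist_self] at hy0
  exact lt_irrefl _ hy0

/-- **Step 2**: no interior limit. -/
theorem tendsto_wall (W : WorldL l H R w₀ ρw Mn M th θ) {c : ℝ} (hc : |c| < R) :
    Tendsto (fun κ => |(θ (κ, w₀)).im|) (𝓝[Low] (c : ℂ)) (𝓝 H) := by
  have hθc : ContinuousOn (fun κ => θ (κ, w₀)) Low := W.slice_diff.continuousOn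
  have hb : ∀ κ ∈ Low, |(θ (κ, w₀)).im| < H := fun κ hκ => W.str _ (W.mem_dom hκ)
  have hdich : ∀ c' : ℝ, |c'| < R →
      (∃ x : ℂ, |x.im| < H ∧ Tendsto (fun κ => ee (θ (κ, w₀))) (𝓝[Low] (c' : ℂ)) (𝓝 (ee x))) ∨
        Tendsto (fun κ => |(θ (κ, w₀)).im|) (𝓝[Low] (c' : ℂ)) (𝓝 H) := fun c' hc' =>
    dich hθc hb fun x hx _ => W.cluster_iso hc' hx
  rcases hdich c hc with ⟨x, hx, hlim⟩ | h
  swap
  · exact h
  exfalso
  -- near `c` the imaginary part stays away from `H`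
  set η₀ := (H - |x.im|) / 2 with hη₀
  have hη₀0 : 0 < η₀ := by rw [hη₀]; linarith
  have hU : {v : ℂ | |v.im| < H - η₀} ∈ 𝓝 x := by
    have : ContinuousAt (fun y : ℂ => |y.im|) x := by fun_prop
    exact this.eventually_lt_const (by rw [hη₀]; linarith)
  obtain ⟨t, ht, htsub⟩ := mem_low_iff.mp (ev_int hlim hU)
  have hsmall : ∀ κ ∈ ball (c : ℂ) t ∩ Low, |(θ (κ, w₀)).im| < H - η₀ := by
    intro κ hκ
    obtain ⟨k, hk⟩ := htsub hκ
    have hk' : |(θ (κ, w₀) - (k : ℂ)).im| < H - η₀ := hk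
    simpa using hk'
  set t' := min t (R - |c|) with ht'
  have ht'0 : 0 < t' := lt_min ht (by linarith)
  have hzero : ∀ c' : ℝ, |c' - c| < t' → Tendsto (pp w₀ M θ) (𝓝[Low] (c' : ℂ)) (𝓝 0) := by
    intro c' hc'
    have hc'R : |c'| < R := by
      have h1 : |c'| ≤ |c' - c| + |c| := by
        have := abs_add_le (c' - c) c
        simpa using this
      have h2 : t' ≤ R - |c| := min_le_right _ _
      linarith
    have hc't : (c' : ℂ) ∈ ball (c : ℂ) t := by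
      rw [mem_ball, dist_eq_norm, ← Complex.ofReal_sub, Complex.norm_real, Real.norm_eq_abs]
      exact lt_of_lt_of_le hc' (min_le_left _ _)
    have hnb : (𝓝[Low] (c' : ℂ)).NeBot := by
      rw [← mem_closure_iff_nhdsWithin_neBot]
      rw [show Low = {κ : ℂ | κ.im < 0} from rfl, Complex.closure_setOfPred_im_lt]
      simp
    rcases hdich c' hc'R with ⟨x', hx', hlim'⟩ | hwall
    · have hcl : MapClusterPt (ee x') (𝓝[Low] (c' : ℂ)) (fun κ => ee (θ (κ, w₀))) :=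
        hlim'.mapClusterPt
      have hdx := W.cluster_dx hc'R hx' hcl
      have hP : (c' : ℂ).im < 0 ∨ ((c' : ℂ).im = 0 ∧ |(c' : ℂ).re| < R) := by
        right; simpa using hc'R
      have hcont := (W.contAt hP hx').2
      rw [Metric.tendsto_nhds]
      intro ε hε
      have h2 : ∀ᶠ q in 𝓝 (((c' : ℂ), w₀), x'), dist (dx M q) 0 < ε := by
        have := Metric.continuousAt_iff'.mp hcont ε hε
        rwa [hdx] at this
      rw [nhds_prod_eq] at h2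
      obtain ⟨pa, hpa, pb, hpb, hab⟩ := Filter.eventually_prod_iff.mp h2
      have h3 : ∀ᶠ κ in 𝓝[Low] (c' : ℂ), pa (κ, w₀) := by
        have : ContinuousAt (fun κ : ℂ => (κ, w₀)) (c' : ℂ) := by fun_prop
        exact (this.eventually hpa).filter_mono nhdsWithin_le_nhds
      filter_upwards [h3, ev_int hlim' hpb, self_mem_nhdsWithin] with κ h4 h5 h6
      obtain ⟨k, hk⟩ := h5
      have h7 := hab h4 hk
      have h8 : θ (κ, w₀) - (k : ℂ) = θ (κ, w₀) + ((-k : ℤ) : ℂ) := by push_cast; ring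
      have h9 := W.dx_per_lim (Or.inl h6) (W.str _ (W.mem_dom h6)) (-k)
      have h10 : dist (dx M ((κ, w₀), θ (κ, w₀) - (k : ℂ))) 0 < ε := h7
      rw [h8, h9] at h10
      exact h10
    · exfalso
      have h1 := hwall.eventually (lt_mem_nhds (show H - η₀ < H by linarith))
      have h2 : ∀ᶠ κ in 𝓝[Low] (c' : ℂ), κ ∈ ball (c : ℂ) t ∩ Low := by
        filter_upwards [mem_nhdsWithin_of_mem_nhds (isOpen_ball.mem_nhds hc't),
          self_mem_nhdsWithin] with κ h3 h4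
        exact ⟨h3, h4⟩
      obtain ⟨κ, h3, h4⟩ := (h1.and h2).exists
      have := hsmall κ h4
      linarith
  obtain ⟨κ, hκ, hne⟩ := W.nt
  exact hne (zero_of_boundary W.pp_diff ht'0 hzero κ hκ)

/-- **The limit world is almost at the wall.** -/
theorem bound (W : WorldL l H R w₀ ρw Mn M th θ) {y : ℝ} (hy : 0 < y) (hyR : y < R) :
    H - |(θ (-(y : ℂ) * I, w₀)).im| ≤ 4 * H * y / R :=
  half_plane_bound W.H_pos W.slice_diff (fun _ hκ => (W.str _ (W.mem_dom hκ)).le)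
    (fun _ hc => W.tendsto_wall hc) hy hyR

end WorldL

/-- **The limit world is contradictory** if it exists for all `R`. -/
theorem no_worldL [l.NeBot] {H : ℝ} {w₀ : ℂ} {ρw : ℝ} {Mn : ι → (ℂ × ℂ) × ℂ → ℂ}
    {M : (ℂ × ℂ) × ℂ → ℂ} {th : ι → ℂ × ℂ → ℂ} {θ : ℂ × ℂ → ℂ}
    (W : ∀ R : ℝ, WorldL l H R w₀ ρw Mn M th θ) : False := by
  have h1 : |(θ (-(1 : ℝ) * I, w₀)).im| < H := by
    refine (W 1).str _ ((W 1).mem_dom ?_)
    show (-((1 : ℝ) : ℂ) * I).im < 0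
    simp
  have hH := (W 1).H_pos
  set A := H - |(θ (-((1 : ℝ) : ℂ) * I, w₀)).im| with hA
  have hA0 : 0 < A := by rw [hA]; linarith
  set R := max 2 (8 * H / A) with hR
  have hR2 : 2 ≤ R := le_max_left _ _
  have hR3 : 8 * H / A ≤ R := le_max_right _ _
  have h2 := (W R).bound (y := 1) one_pos (by linarith)
  rw [← hA, mul_one, le_div_iff₀ (by linarith)] at h2
  rw [div_le_iff₀ hA0] at hR3
  nlinarith

end Vale.Agent.P097.H190.EN
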