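import Mathlib

/-! # P097 / HADAMARD: Hankel determinants, algebra (helper190). -/

set_option linter.all false

open Matrix Finset

namespace Vale.Agent.P097.H190

/-- Hankel matrix of size `p` starting at `k` -/
def hk (a : ℕ → ℂ) (p k : ℕ) : Matrix (Fin p) (Fin p) ℂ :=
  Matrix.of fun i j => a (k + i + j)

theorem hk_apply (a : ℕ → ℂ) (p k : ℕ) (i j : Fin p) : hk a p k i j = a (k + i + j) := rfl

/-- Hankel determinant of size `p` starting at `k` -/
noncomputable def hdt (a : ℕ → ℂ) (p k : ℕ) : ℂ := (hk a p k).det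

/-- the vector of maximal minors -/
noncomputable def uu (a : ℕ → ℂ) (p k : ℕ) (j : Fin (p + 1)) : ℂ :=
  (hk a (p + 1) k).adjugate j (Fin.last p)

theorem sub_cc (a : ℕ → ℂ) (p k : ℕ) :
    (hk a (p + 1) k).submatrix Fin.castSucc Fin.castSucc = hk a p k := by
  ext i j
  simp [hk]

theorem sub_cs (a : ℕ → ℂ) (p k : ℕ) :
    (hk a (p + 1) k).submatrix Fin.castSucc Fin.succ = hk a p (k + 1) := by
  ext i j
  simp only [hk, Matrix.submatrix_apply, Matrix.of_apply, Fin.val_castSucc, Fin.val_succ]
  congr 1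
  ring

theorem sub_sc (a : ℕ → ℂ) (p k : ℕ) :
    (hk a (p + 1) k).submatrix Fin.succ Fin.castSucc = hk a p (k + 1) := by
  ext i j
  simp only [hk, Matrix.submatrix_apply, Matrix.of_apply, Fin.val_castSucc, Fin.val_succ]
  congr 1
  ring

theorem uu_last (a : ℕ → ℂ) (p k : ℕ) : uu a p k (Fin.last p) = hdt a p k := by
  unfold uu hdt
  rw [Matrix.adjugate_fin_succ_eq_det_submatrix]
  rw [Fin.succAbove_last, sub_cc]
  have : (-1 : ℂ) ^ ((Fin.last p : ℕ) + (Fin.last p : ℕ)) = 1 := by
    rw [← two_mul, pow_mul]; simp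
  rw [this, one_mul]

theorem uu_zero (a : ℕ → ℂ) (p k : ℕ) : uu a p k 0 = (-1) ^ p * hdt a p (k + 1) := by
  unfold uu hdt
  rw [Matrix.adjugate_fin_succ_eq_det_submatrix]
  rw [Fin.succAbove_last, Fin.succAbove_zero, sub_cs]
  simp

theorem uu_succ (a : ℕ → ℂ) (p k : ℕ) (j : Fin (p + 1)) :
    uu a p (k + 1) j = (-1) ^ p * (hk a (p + 1) k).adjugate j 0 := by
  unfold uu
  rw [Matrix.adjugate_fin_succ_eq_det_submatrix, Matrix.adjugate_fin_succ_eq_det_submatrix]
  rw [Fin.succAbove_last, Fin.succAbove_zero]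
  have : (hk a (p + 1) (k + 1)).submatrix Fin.castSucc j.succAbove =
      (hk a (p + 1) k).submatrix Fin.succ j.succAbove := by
    ext i l
    simp only [hk, Matrix.submatrix_apply, Matrix.of_apply, Fin.val_castSucc, Fin.val_succ]
    congr 1
    ring
  rw [this]
  simp only [Fin.val_last, Fin.val_zero, zero_add]
  rw [pow_add]
  ring

theorem row_uu (a : ℕ → ℂ) (p k : ℕ) (i : Fin (p + 1)) :
    ∑ j, hk a (p + 1) k i j * uu a p k j = if i = Fin.last p then hdt a (p + 1) k else 0 := by
  have h := congrFun (congrFun (Matrix.mul_adjugate (hk a (p + 1) k)) i) (Fin.last p)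
  rw [Matrix.mul_apply] at h
  unfold uu hdt
  rw [h]
  simp [Matrix.one_apply]

theorem row_uu_succ (a : ℕ → ℂ) (p k : ℕ) (i : Fin (p + 1)) :
    ∑ j, hk a (p + 1) k i j * uu a p (k + 1) j =
      if i = 0 then (-1) ^ p * hdt a (p + 1) k else 0 := by
  have h := congrFun (congrFun (Matrix.mul_adjugate (hk a (p + 1) k)) i) 0
  rw [Matrix.mul_apply] at h
  have e : ∀ j, hk a (p + 1) k i j * uu a p (k + 1) j =
      (-1) ^ p * (hk a (p + 1) k i j * (hk a (p + 1) k).adjugate j 0) := by
    intro j
    rw [uu_succ]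
    ring
  simp_rw [e]
  rw [← Finset.mul_sum, h]
  unfold hdt
  simp [Matrix.one_apply]

/-- the basic identity -/
theorem zz (a : ℕ → ℂ) (p k : ℕ) (h : hdt a p (k + 1) ≠ 0) (j : Fin p) :
    hdt a p (k + 1) * uu a p k j.castSucc - hdt a p k * uu a p (k + 1) j.castSucc =
      hdt a (p + 1) k * ∑ i, (hk a p (k + 1)).adjugate j i *
        (if i.succ = Fin.last p then 1 else 0) := by
  set z : Fin (p + 1) → ℂ := fun j => hdt a p (k + 1) * uu a p k j - hdt a p k * uu a p (k + 1) j
    with hz
  have hlast : z (Fin.last p) = 0 := by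
    simp only [hz, uu_last]
    ring
  have hrow : ∀ i : Fin p, ∑ j : Fin p, hk a p (k + 1) i j * z j.castSucc =
      hdt a p (k + 1) * (hdt a (p + 1) k * (if i.succ = Fin.last p then 1 else 0)) := by
    intro i
    have h1 := row_uu a p k i.succ
    have h2 := row_uu_succ a p k i.succ
    have h3 : ∑ j, hk a (p + 1) k i.succ j * z j =
        hdt a p (k + 1) * (if i.succ = Fin.last p then hdt a (p + 1) k else 0) := by
      have e : ∀ j, hk a (p + 1) k i.succ j * z j =
          hdt a p (k + 1) * (hk a (p + 1) k i.succ j * uu a p k j) -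
            hdt a p k * (hk a (p + 1) k i.succ j * uu a p (k + 1) j) := by
        intro j
        simp only [hz]
        ring
      simp_rw [e]
      rw [Finset.sum_sub_distrib, ← Finset.mul_sum, ← Finset.mul_sum, h1, h2]
      rw [if_neg (Fin.succ_ne_zero i)]
      ring
    rw [Fin.sum_univ_castSucc, hlast, mul_zero, add_zero] at h3
    have e2 : ∀ j : Fin p, hk a (p + 1) k i.succ j.castSucc = hk a p (k + 1) i j := by
      intro j
      have := congrFun (congrFun (sub_sc a p k) i) j
      simpa using this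
    simp_rw [e2] at h3
    rw [h3]
    split_ifs <;> ring
  -- multiply by the adjugate
  have hadj : ∀ j : Fin p, hdt a p (k + 1) * z j.castSucc =
      ∑ i, (hk a p (k + 1)).adjugate j i *
        (hdt a p (k + 1) * (hdt a (p + 1) k * (if i.succ = Fin.last p then 1 else 0))) := by
    intro j
    have h1 : ((hk a p (k + 1)).adjugate * (hk a p (k + 1))).mulVec (fun j => z j.castSucc) =
        (hdt a p (k + 1)) • (fun j : Fin p => z j.castSucc) := by
      rw [Matrix.adjugate_mul]
      simp [hdt, Matrix.smul_mulVec]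
    rw [← Matrix.mulVec_mulVec] at h1
    have h2 := congrFun h1 j
    have h3 : (hk a p (k + 1)).mulVec (fun j => z j.castSucc) = fun i =>
        hdt a p (k + 1) * (hdt a (p + 1) k * (if i.succ = Fin.last p then 1 else 0)) := by
      funext i
      exact hrow i
    rw [h3] at h2
    simp only [Pi.smul_apply, smul_eq_mul] at h2
    rw [← h2]
    rfl
  have h4 := hadj j
  have h5 : ∑ i, (hk a p (k + 1)).adjugate j i *
        (hdt a p (k + 1) * (hdt a (p + 1) k * (if i.succ = Fin.last p then 1 else 0))) =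
      hdt a p (k + 1) * (hdt a (p + 1) k * ∑ i, (hk a p (k + 1)).adjugate j i *
        (if i.succ = Fin.last p then 1 else 0)) := by
    rw [Finset.mul_sum, Finset.mul_sum]
    refine Finset.sum_congr rfl fun i _ => ?_
    ring
  rw [h5] at h4
  exact mul_left_cancel₀ h h4

end Vale.Agent.P097.H190
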