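import Vale.Agent.P097.H190.HadA

/-! # P097 / HADAMARD: growth (helper190). -/

set_option linter.all false

open Matrix Finset

namespace Vale.Agent.P097.H190

/-- subexponential growth -/
def SubE (x : ℕ → ℂ) : Prop :=
  ∀ s : ℝ, 0 < s → s < 1 → ∃ C : ℝ, 0 ≤ C ∧ ∀ n, ‖x n‖ * s ^ n ≤ C

theorem SubE.const (c : ℂ) : SubE fun _ => c := by
  intro s hs hs1
  refine ⟨‖c‖, norm_nonneg _, fun n => ?_⟩
  have : s ^ n ≤ 1 := pow_le_one₀ hs.le hs1.le
  calc ‖c‖ * s ^ n ≤ ‖c‖ * 1 := mul_le_mul_of_nonneg_left this (norm_nonneg _)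
    _ = ‖c‖ := mul_one _

theorem SubE.mul {x y : ℕ → ℂ} (hx : SubE x) (hy : SubE y) : SubE fun n => x n * y n := by
  intro s hs hs1
  have h1 : 0 < Real.sqrt s := Real.sqrt_pos.mpr hs
  have h2 : Real.sqrt s < 1 := by
    rw [Real.sqrt_lt' one_pos]; simpa using hs1
  obtain ⟨C, hC0, hC⟩ := hx _ h1 h2
  obtain ⟨D, hD0, hD⟩ := hy _ h1 h2
  refine ⟨C * D, mul_nonneg hC0 hD0, fun n => ?_⟩
  have e : ‖x n * y n‖ * s ^ n = (‖x n‖ * Real.sqrt s ^ n) * (‖y n‖ * Real.sqrt s ^ n) := by
    rw [norm_mul]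
    have : s ^ n = Real.sqrt s ^ n * Real.sqrt s ^ n := by
      rw [← mul_pow, Real.mul_self_sqrt hs.le]
    rw [this]
    ring
  rw [e]
  exact mul_le_mul (hC n) (hD n) (by positivity) hC0

theorem SubE.add {x y : ℕ → ℂ} (hx : SubE x) (hy : SubE y) : SubE fun n => x n + y n := by
  intro s hs hs1
  obtain ⟨C, hC0, hC⟩ := hx _ hs hs1
  obtain ⟨D, hD0, hD⟩ := hy _ hs hs1
  refine ⟨C + D, add_nonneg hC0 hD0, fun n => ?_⟩
  calc ‖x n + y n‖ * s ^ n ≤ (‖x n‖ + ‖y n‖) * s ^ n :=
        mul_le_mul_of_nonneg_right (norm_add_le _ _) (by positivity)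
    _ = ‖x n‖ * s ^ n + ‖y n‖ * s ^ n := by ring
    _ ≤ C + D := add_le_add (hC n) (hD n)

theorem SubE.shift {x : ℕ → ℂ} (hx : SubE x) (m : ℕ) : SubE fun n => x (n + m) := by
  intro s hs hs1
  obtain ⟨C, hC0, hC⟩ := hx _ hs hs1
  refine ⟨C / s ^ m, by positivity, fun n => ?_⟩
  rw [le_div_iff₀ (by positivity)]
  calc ‖x (n + m)‖ * s ^ n * s ^ m = ‖x (n + m)‖ * s ^ (n + m) := by rw [pow_add]; ring
    _ ≤ C := hC _

theorem SubE.sum {ι : Type*} (t : Finset ι) {x : ι → ℕ → ℂ} (h : ∀ i ∈ t, SubE (x i)) :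
    SubE fun n => ∑ i ∈ t, x i n := by
  classical
  induction t using Finset.induction_on with
  | empty => simpa using SubE.const 0
  | insert i t hi ih =>
    have h1 := h i (Finset.mem_insert_self _ _)
    have h2 := ih fun j hj => h j (Finset.mem_insert_of_mem hj)
    have := h1.add h2
    simpa [Finset.sum_insert hi] using this

theorem SubE.prod {ι : Type*} (t : Finset ι) {x : ι → ℕ → ℂ} (h : ∀ i ∈ t, SubE (x i)) :
    SubE fun n => ∏ i ∈ t, x i n := by
  classical
  induction t using Finset.induction_on with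
  | empty => simpa using SubE.const 1
  | insert i t hi ih =>
    have h1 := h i (Finset.mem_insert_self _ _)
    have h2 := ih fun j hj => h j (Finset.mem_insert_of_mem hj)
    have := h1.mul h2
    simpa [Finset.prod_insert hi] using this

theorem SubE.det {p : ℕ} {M : ℕ → Matrix (Fin p) (Fin p) ℂ} (h : ∀ i j, SubE fun n => M n i j) :
    SubE fun n => (M n).det := by
  have e : (fun n => (M n).det) = fun n => ∑ σ : Equiv.Perm (Fin p),
      ((Equiv.Perm.sign σ : ℤ) : ℂ) * ∏ i, M n (σ i) i := by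
    funext n
    rw [Matrix.det_apply']
  rw [e]
  refine SubE.sum _ fun σ _ => ?_
  exact (SubE.const _).mul (SubE.prod _ fun i _ => h _ _)

theorem SubE.adj {p : ℕ} {M : ℕ → Matrix (Fin p) (Fin p) ℂ} (h : ∀ i j, SubE fun n => M n i j)
    (i j : Fin p) : SubE fun n => (M n).adjugate i j := by
  simp_rw [Matrix.adjugate_apply]
  refine SubE.det fun k l => ?_
  by_cases hk : k = j
  · subst hk
    simp_rw [Matrix.updateRow_self]
    exact SubE.const _
  · have : ∀ n, (M n).updateRow j (Pi.single i 1) k l = M n k l := by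
      intro n
      rw [Matrix.updateRow_ne hk]
    simp_rw [this]
    exact h k l

/-- propagation of lower bounds -/
theorem propagate (x g : ℕ → ℝ) (hx : ∀ n, 0 ≤ x n) (hg : ∀ n, 0 ≤ g n)
    (h : ∀ n, x (n + 1) ^ 2 ≤ x n * x (n + 2) + g n) (θ C q : ℝ) (hθ : 0 < θ)
    (hgθ : ∀ n, g n ≤ C * θ ^ n) (hq0 : 0 < q) (hq1 : q < 1) (hθq : θ < q ^ 6)
    (hunb : ∀ B : ℝ, ∃ n, B * q ^ n < x n) :
    ∃ k0, ∀ n ≥ k0, q ^ (3 * n) ≤ x n := by
  classical
  have hC : 0 ≤ C := by
    have := (hg 0).trans (hgθ 0)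
    simpa using this
  set τ := θ / q ^ 6 with hτ
  have hq6 : 0 < q ^ 6 := by positivity
  have hτ0 : 0 < τ := by positivity
  have hτ1 : τ < 1 := by rw [hτ, div_lt_one hq6]; exact hθq
  have hθτ : θ = τ * q ^ 6 := by rw [hτ]; field_simp
  set D := C / q ^ 3 / (1 - τ) with hD
  have h1τ : 0 < 1 - τ := by linarith
  have hD0 : 0 ≤ D := by positivity
  -- eventually small quantities
  have hlim : Filter.Tendsto (fun n : ℕ => τ ^ n) Filter.atTop (nhds 0) :=
    tendsto_pow_atTop_nhds_zero_of_lt_one hτ0.le hτ1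
  have hsm : ∃ n0, ∀ n ≥ n0, D * τ ^ n ≤ q ^ 2 * (1 - q) ∧ C * τ ^ n ≤ (1 - q) * q ^ 2 := by
    have e1 : Filter.Tendsto (fun n : ℕ => D * τ ^ n) Filter.atTop (nhds 0) := by
      simpa using hlim.const_mul D
    have e2 : Filter.Tendsto (fun n : ℕ => C * τ ^ n) Filter.atTop (nhds 0) := by
      simpa using hlim.const_mul C
    have p1 : 0 < q ^ 2 * (1 - q) := by
      have : 0 < 1 - q := by linarith
      positivity
    have p2 : 0 < (1 - q) * q ^ 2 := by
      have : 0 < 1 - q := by linarith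
      positivity
    have f1 := e1.eventually (gt_mem_nhds p1)
    have f2 := e2.eventually (gt_mem_nhds p2)
    obtain ⟨n0, hn0⟩ := Filter.eventually_atTop.mp (f1.and f2)
    exact ⟨n0, fun n hn => ⟨(hn0 n hn).1.le, (hn0 n hn).2.le⟩⟩
  obtain ⟨n0, hn0⟩ := hsm
  -- a record
  set B : ℝ := 1 + ∑ i ∈ Finset.range (n0 + 2), x i / q ^ i with hB
  have hBi : ∀ i, i ≤ n0 + 1 → x i ≤ B * q ^ i := by
    intro i hi
    have h1 : x i / q ^ i ≤ ∑ i ∈ Finset.range (n0 + 2), x i / q ^ i := by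
      refine Finset.single_le_sum (f := fun i => x i / q ^ i) (fun j _ => ?_)
        (Finset.mem_range.mpr (by omega))
      have := hx j
      positivity
    have h2 : x i / q ^ i ≤ B := by linarith
    rwa [div_le_iff₀ (by positivity)] at h2
  have hex := hunb B
  set k := Nat.find hex with hk
  have hk1 : B * q ^ k < x k := Nat.find_spec hex
  have hk2 : ∀ i < k, x i ≤ B * q ^ i := fun i hi => not_lt.mp (Nat.find_min hex hi)
  have hkn : n0 + 1 < k := by
    by_contra hcon
    push Not at hcon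
    exact absurd (hBi k hcon) (not_le.mpr hk1)
  have hB1 : 1 ≤ B := by
    have : 0 ≤ ∑ i ∈ Finset.range (n0 + 2), x i / q ^ i := by
      refine Finset.sum_nonneg fun i _ => ?_
      have := hx i
      positivity
    linarith
  obtain ⟨m, hm⟩ : ∃ m, k = m + 1 := ⟨k - 1, by omega⟩
  have hmn : n0 ≤ m := by omega
  have hxk : q ^ (m + 1) ≤ x (m + 1) := by
    rw [hm] at hk1
    have : 1 * q ^ (m + 1) ≤ B * q ^ (m + 1) := mul_le_mul_of_nonneg_right hB1 (by positivity)
    linarith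
  have hxm : q * x m ≤ x (m + 1) := by
    have h1 := hk2 m (by omega)
    rw [hm] at hk1
    have h2 : q * x m ≤ q * (B * q ^ m) := mul_le_mul_of_nonneg_left h1 hq0.le
    have h3 : q * (B * q ^ m) = B * q ^ (m + 1) := by ring
    linarith
  have hxk0 : 0 < x (m + 1) := lt_of_lt_of_le (by positivity) hxk
  have hgm : g m ≤ (1 - q) * x (m + 1) ^ 2 := by
    have h1 : C * θ ^ m ≤ (1 - q) * (q ^ (m + 1)) ^ 2 := by
      have h2 := (hn0 m hmn).2
      have e1 : C * θ ^ m = (C * τ ^ m) * q ^ (6 * m) := by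
        rw [hθτ, mul_pow, ← pow_mul]; ring
      have e2 : (1 - q) * (q ^ (m + 1)) ^ 2 = ((1 - q) * q ^ 2) * q ^ (2 * m) := by ring
      rw [e1, e2]
      have h3 : q ^ (6 * m) ≤ q ^ (2 * m) := pow_le_pow_of_le_one hq0.le hq1.le (by omega)
      exact mul_le_mul h2 h3 (by positivity) (by
        have : 0 < 1 - q := by linarith
        positivity)
    have h4 : (q ^ (m + 1)) ^ 2 ≤ x (m + 1) ^ 2 :=
      pow_le_pow_left₀ (by positivity) hxk 2
    have h5 : 0 ≤ 1 - q := by linarith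
    have := mul_le_mul_of_nonneg_left h4 h5
    have := hgθ m
    linarith
  have hstart : q ^ 2 * x (m + 1) ≤ x (m + 2) := by
    have h1 := h m
    have h2 : q * (x (m + 1) ^ 2 - g m) ≤ q * (x m * x (m + 2)) :=
      mul_le_mul_of_nonneg_left (by linarith) hq0.le
    have h3 : q * (x m * x (m + 2)) ≤ x (m + 1) * x (m + 2) := by
      have := mul_le_mul_of_nonneg_right hxm (hx (m + 2))
      linarith
    have h4 : q * (q * x (m + 1) ^ 2) ≤ x (m + 1) * x (m + 2) := by
      have h5 : q * x (m + 1) ^ 2 ≤ x (m + 1) ^ 2 - g m := by linarith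
      have := mul_le_mul_of_nonneg_left h5 hq0.le
      linarith
    have h6 : (q ^ 2 * x (m + 1)) * x (m + 1) ≤ x (m + 2) * x (m + 1) := by
      calc (q ^ 2 * x (m + 1)) * x (m + 1) = q * (q * x (m + 1) ^ 2) := by ring
        _ ≤ x (m + 1) * x (m + 2) := h4
        _ = _ := by ring
    exact le_of_mul_le_mul_right h6 hxk0
  -- forward induction
  have hind : ∀ j, q ^ (3 * (m + 1 + j)) ≤ x (m + 1 + j) ∧
      (q ^ 3 + D * τ ^ (m + 1 + j)) * x (m + 1 + j) ≤ x (m + 1 + j + 1) := by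
    intro j
    induction j with
    | zero =>
      constructor
      · exact (pow_le_pow_of_le_one hq0.le hq1.le (by omega)).trans hxk
      · have h1 := (hn0 (m + 1) (by omega)).1
        have h2 : q ^ 3 + D * τ ^ (m + 1) ≤ q ^ 2 := by
          have e : q ^ 3 + q ^ 2 * (1 - q) = q ^ 2 := by ring
          linarith
        exact (mul_le_mul_of_nonneg_right h2 hxk0.le).trans hstart
    | succ j ih =>
      set i := m + 1 + j with hi
      have ei : m + 1 + (j + 1) = i + 1 := by omega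
      rw [ei]
      obtain ⟨i1, i2⟩ := ih
      have hxi : 0 < x i := lt_of_lt_of_le (by positivity) i1
      have hDi : 0 ≤ D * τ ^ i := by positivity
      have i3 : q ^ 3 * x i ≤ x (i + 1) := by
        have : q ^ 3 * x i ≤ (q ^ 3 + D * τ ^ i) * x i :=
          mul_le_mul_of_nonneg_right (by linarith) hxi.le
        linarith
      have i4 : q ^ (3 * (i + 1)) ≤ x (i + 1) := by
        have e : q ^ (3 * (i + 1)) = q ^ 3 * q ^ (3 * i) := by ring
        rw [e]
        exact (mul_le_mul_of_nonneg_left i1 (by positivity)).trans i3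
      refine ⟨i4, ?_⟩
      have hxi1 : 0 < x (i + 1) := lt_of_lt_of_le (by positivity) i4
      -- the error
      have hgi : g i ≤ (C / q ^ 3 * τ ^ i) * (x i * x (i + 1)) := by
        have h1 : g i ≤ C * θ ^ i := hgθ i
        have h2 : C * θ ^ i = (C / q ^ 3 * τ ^ i) * (q ^ (3 * i) * q ^ (3 * (i + 1))) := by
          rw [hθτ, mul_pow, ← pow_mul]
          field_simp
          ring
        rw [h2] at h1
        refine h1.trans (mul_le_mul_of_nonneg_left ?_ (by positivity))
        exact mul_le_mul i1 i4 (by positivity) hxi.le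
      have h1 := h i
      have h2 : x i * (x (i + 1) * (q ^ 3 + D * τ ^ (i + 1))) ≤ x i * x (i + 2) := by
        have h3 : x (i + 1) * ((q ^ 3 + D * τ ^ i) * x i) ≤ x (i + 1) * x (i + 1) :=
          mul_le_mul_of_nonneg_left i2 hxi1.le
        have h4 : D * τ ^ i - C / q ^ 3 * τ ^ i = D * τ ^ (i + 1) := by
          have : C / q ^ 3 = D * (1 - τ) := by rw [hD]; field_simp
          rw [this, pow_succ]
          ring
        have h5 : x i * (x (i + 1) * (q ^ 3 + D * τ ^ (i + 1))) =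
            x (i + 1) * ((q ^ 3 + D * τ ^ i) * x i) - (C / q ^ 3 * τ ^ i) * (x i * x (i + 1)) := by
          rw [← h4]
          ring
        rw [h5]
        have h6 : x (i + 1) * x (i + 1) = x (i + 1) ^ 2 := by ring
        linarith
      have h7 := le_of_mul_le_mul_left h2 hxi
      have h8 : (q ^ 3 + D * τ ^ (i + 1)) * x (i + 1) = x (i + 1) * (q ^ 3 + D * τ ^ (i + 1)) := by
        ring
      rw [h8]
      exact h7
  refine ⟨m + 1, fun n hn => ?_⟩
  obtain ⟨j, rfl⟩ : ∃ j, n = m + 1 + j := ⟨n - (m + 1), by omega⟩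
  exact (hind j).1

end Vale.Agent.P097.H190
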