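import Vale.Agent.P097.H190.HadB

/-! # P097 / HADAMARD: the recurrence with an exponentially small defect (helper190). -/

set_option linter.all false

open Matrix Finset Filter Topology

namespace Vale.Agent.P097.H190

/-- a linear recurrence with an exponentially small defect -/
def Rec (a : ℕ → ℂ) (p : ℕ) : Prop :=
  ∃ b : ℕ → ℂ, b 0 = 1 ∧ ∃ θ : ℝ, 0 < θ ∧ θ < 1 ∧ ∃ C : ℝ, ∀ n,
    ‖∑ l ∈ Finset.range (p + 1), b l * a (n + p - l)‖ ≤ C * θ ^ n

theorem Rec.succ {a : ℕ → ℂ} {p : ℕ} (h : Rec a p) : Rec a (p + 1) := by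
  obtain ⟨b, hb, θ, h0, h1, C, hC⟩ := h
  refine ⟨fun l => if l ≤ p then b l else 0, by simpa using hb, θ, h0, h1, C * θ, fun n => ?_⟩
  rw [Finset.sum_range_succ]
  have e : ∀ l ∈ Finset.range (p + 1), (if l ≤ p then b l else 0) * a (n + (p + 1) - l) =
      b l * a ((n + 1) + p - l) := by
    intro l hl
    have := Finset.mem_range.mp hl
    rw [if_pos (by omega)]
    congr 2
    omega
  have e0 : (fun l => if l ≤ p then b l else 0) (p + 1) = 0 := if_neg (by omega)
  rw [Finset.sum_congr rfl e, e0, zero_mul, add_zero]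
  have := hC (n + 1)
  rw [pow_succ] at this
  calc _ ≤ C * (θ ^ n * θ) := this
    _ = _ := by ring

theorem geo_all {y : ℕ → ℂ} {θ C : ℝ} {k0 : ℕ} (hθ : 0 < θ) (h : ∀ n ≥ k0, ‖y n‖ ≤ C * θ ^ n) :
    ∃ C', ∀ n, ‖y n‖ ≤ C' * θ ^ n := by
  refine ⟨|C| + ∑ i ∈ Finset.range k0, ‖y i‖ / θ ^ i, fun n => ?_⟩
  have hs : 0 ≤ ∑ i ∈ Finset.range k0, ‖y i‖ / θ ^ i :=
    Finset.sum_nonneg fun i _ => by positivity
  have hp : 0 < θ ^ n := by positivity
  rcases lt_or_ge n k0 with h1 | h1
  · have h2 : ‖y n‖ / θ ^ n ≤ ∑ i ∈ Finset.range k0, ‖y i‖ / θ ^ i :=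
      Finset.single_le_sum (f := fun i => ‖y i‖ / θ ^ i) (fun j _ => by positivity)
        (Finset.mem_range.mpr h1)
    have h3 : ‖y n‖ / θ ^ n ≤ |C| + ∑ i ∈ Finset.range k0, ‖y i‖ / θ ^ i := by
      have := abs_nonneg C
      linarith
    rwa [div_le_iff₀ hp] at h3
  · refine (h n h1).trans (mul_le_mul_of_nonneg_right ?_ hp.le)
    have := le_abs_self C
    linarith

theorem rec_of_det (a : ℕ → ℂ) (ha : SubE a) (p : ℕ) : ∀ (θ C : ℝ), 0 < θ → θ < 1 →
    (∀ k, ‖hdt a (p + 1) k‖ ≤ C * θ ^ k) → Rec a p := by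
  induction p with
  | zero =>
    intro θ C h0 h1 h
    refine ⟨fun _ => 1, rfl, θ, h0, h1, C, fun n => ?_⟩
    have e : hdt a (0 + 1) n = a n := by
      unfold hdt
      rw [Matrix.det_fin_one]
      simp [hk]
    have := h n
    rw [e] at this
    simpa using this
  | succ p ih =>
    intro θ C h0 h1 h
    set P := p + 1 with hP
    have hC0 : 0 ≤ C := by
      have := (norm_nonneg _).trans (h 0)
      simpa using this
    -- growth of the adjugate
    set A : ℕ → ℝ := fun k => ∑ j, ∑ i, ‖(hk a P (k + 1)).adjugate j i‖ with hA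
    have hAnn : ∀ k, 0 ≤ A k := fun k =>
      Finset.sum_nonneg fun j _ => Finset.sum_nonneg fun i _ => norm_nonneg _
    set θ1 := Real.sqrt θ with hθ1
    have hθ10 : 0 < θ1 := Real.sqrt_pos.mpr h0
    have hθ11 : θ1 < 1 := by rw [hθ1, Real.sqrt_lt' one_pos]; simpa using h1
    have hθsq : θ1 * θ1 = θ := Real.mul_self_sqrt h0.le
    have hAb : ∃ CA : ℝ, 0 ≤ CA ∧ ∀ k, A k * θ1 ^ k ≤ CA := by
      have h2 : ∀ j i, SubE fun k => (hk a P (k + 1)).adjugate j i := by
        intro j i
        refine SubE.adj (fun i' j' => ?_) j i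
        have := ha.shift (1 + i' + j')
        have e : (fun n => hk a P (n + 1) i' j') = fun n => a (n + (1 + i' + j')) := by
          funext n
          rw [hk_apply]
          congr 1
          ring
        rw [e]
        exact this
      choose K hK0 hK using fun j i => h2 j i θ1 hθ10 hθ11
      refine ⟨∑ j, ∑ i, K j i, Finset.sum_nonneg fun j _ => Finset.sum_nonneg fun i _ => hK0 j i,
        fun k => ?_⟩
      rw [hA]
      simp only
      rw [Finset.sum_mul]
      refine Finset.sum_le_sum fun j _ => ?_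
      rw [Finset.sum_mul]
      exact Finset.sum_le_sum fun i _ => hK j i k
    obtain ⟨CA, hCA0, hCA⟩ := hAb
    set x : ℕ → ℝ := fun k => ‖hdt a P k‖ with hx
    set g : ℕ → ℝ := fun k => ‖hdt a (P + 1) k‖ * A k with hg
    have hgb : ∀ k, g k ≤ (C * CA) * θ1 ^ k := by
      intro k
      have h2 : θ ^ k = θ1 ^ k * θ1 ^ k := by rw [← mul_pow, hθsq]
      have h3 : ‖hdt a (P + 1) k‖ * A k ≤ (C * θ ^ k) * A k :=
        mul_le_mul_of_nonneg_right (h k) (hAnn k)
      have h4 : (C * θ ^ k) * A k = (C * θ1 ^ k) * (A k * θ1 ^ k) := by rw [h2]; ring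
      have h5 : (C * θ1 ^ k) * (A k * θ1 ^ k) ≤ (C * θ1 ^ k) * CA :=
        mul_le_mul_of_nonneg_left (hCA k) (by positivity)
      calc g k ≤ (C * θ1 ^ k) * CA := by rw [h4] at h3; exact h3.trans h5
        _ = _ := by ring
    -- the choice of `q`
    obtain ⟨q, hq0, hq1, hq7⟩ : ∃ q : ℝ, 0 < q ∧ q < 1 ∧ q ^ 7 = θ1 := by
      refine ⟨θ1 ^ ((1 : ℝ) / 7), Real.rpow_pos_of_pos hθ10 _,
        Real.rpow_lt_one hθ10.le hθ11 (by norm_num), ?_⟩
      rw [← Real.rpow_natCast, ← Real.rpow_mul hθ10.le]
      norm_num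
    have hq6 : θ1 < q ^ 6 := by
      rw [← hq7, pow_succ]
      have : 0 < q ^ 6 := by positivity
      nlinarith
    by_cases hcase : ∃ B : ℝ, ∀ n, x n ≤ B * q ^ n
    · obtain ⟨B, hB⟩ := hcase
      exact (ih q B hq0 hq1 hB).succ
    · push Not at hcase
      -- the bound of the basic identity
      have hzz : ∀ k, hdt a P (k + 1) ≠ 0 → ∀ j : Fin P,
          ‖hdt a P (k + 1) * uu a P k j.castSucc - hdt a P k * uu a P (k + 1) j.castSucc‖ ≤ g k := by
        intro k hk0 j
        rw [zz a P k hk0 j, norm_mul]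
        refine mul_le_mul_of_nonneg_left ?_ (norm_nonneg _)
        refine (norm_sum_le _ _).trans ?_
        have h3 : ∑ i, ‖(hk a P (k + 1)).adjugate j i * (if i.succ = Fin.last P then 1 else 0)‖ ≤
            ∑ i, ‖(hk a P (k + 1)).adjugate j i‖ := by
          refine Finset.sum_le_sum fun i _ => ?_
          rw [norm_mul]
          split_ifs <;> simp
        refine h3.trans ?_
        exact Finset.single_le_sum (f := fun j => ∑ i, ‖(hk a P (k + 1)).adjugate j i‖)
          (fun j _ => Finset.sum_nonneg fun i _ => norm_nonneg _) (Finset.mem_univ j)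
      have hrec : ∀ n, x (n + 1) ^ 2 ≤ x n * x (n + 2) + g n := by
        intro n
        by_cases hn : hdt a P (n + 1) = 0
        · have e : x (n + 1) = 0 := by simp [hx, hn]
          rw [e]
          have h3 : 0 ≤ x n * x (n + 2) := mul_nonneg (norm_nonneg _) (norm_nonneg _)
          have h4 : 0 ≤ g n := mul_nonneg (norm_nonneg _) (hAnn n)
          have : (0 : ℝ) ^ 2 = 0 := by norm_num
          linarith
        · have h3 := hzz n hn (0 : Fin P)
          have e0 : (0 : Fin P).castSucc = (0 : Fin (P + 1)) := rfl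
          rw [e0, uu_zero, uu_zero] at h3
          have e1 : hdt a P (n + 1) * ((-1) ^ P * hdt a P (n + 1)) -
              hdt a P n * ((-1) ^ P * hdt a P (n + 1 + 1)) =
              (-1) ^ P * (hdt a P (n + 1) ^ 2 - hdt a P n * hdt a P (n + 2)) := by ring
          rw [e1, norm_mul] at h3
          have e2 : ‖((-1 : ℂ)) ^ P‖ = 1 := by simp
          rw [e2, one_mul] at h3
          have h4 : ‖hdt a P (n + 1) ^ 2‖ ≤ ‖hdt a P (n + 1) ^ 2 - hdt a P n * hdt a P (n + 2)‖ +
              ‖hdt a P n * hdt a P (n + 2)‖ := by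
            have := norm_add_le (hdt a P (n + 1) ^ 2 - hdt a P n * hdt a P (n + 2))
              (hdt a P n * hdt a P (n + 2))
            simpa using this
          rw [norm_pow, norm_mul] at h4
          show x (n + 1) ^ 2 ≤ x n * x (n + 2) + g n
          simp only [hx]
          linarith
      obtain ⟨k0, hk0⟩ := propagate x g (fun n => norm_nonneg _)
        (fun n => mul_nonneg (norm_nonneg _) (hAnn n)) hrec θ1 (C * CA) q hθ10 hgb hq0 hq1 hq6
        (fun B => by
          obtain ⟨n, hn⟩ := hcase B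
          exact ⟨n, hn⟩)
      have hne : ∀ n ≥ k0, hdt a P n ≠ 0 := by
        intro n hn h2
        have h3 := hk0 n hn
        simp only [hx, h2, norm_zero] at h3
        have : 0 < q ^ (3 * n) := by positivity
        linarith
      -- the coefficients
      set cc : ℕ → Fin P → ℂ := fun k j => -uu a P k j.castSucc / hdt a P k with hcc
      set C1 := C * CA / q ^ 3 with hC1
      have hC10 : 0 ≤ C1 := by positivity
      have hdist : ∀ k ≥ k0, ∀ j, dist (cc k j) (cc (k + 1) j) ≤ C1 * q ^ k := by
        intro k hk1 j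
        have n1 := hne k hk1
        have n2 := hne (k + 1) (by omega)
        have e1 : cc k j - cc (k + 1) j = -(hdt a P (k + 1) * uu a P k j.castSucc -
            hdt a P k * uu a P (k + 1) j.castSucc) / (hdt a P k * hdt a P (k + 1)) := by
          simp only [hcc]
          field_simp
          ring
        rw [dist_eq_norm, e1, norm_div, norm_neg, norm_mul]
        have b1 := hk0 k hk1
        have b2 := hk0 (k + 1) (by omega)
        have b3 : q ^ (3 * k) * q ^ (3 * (k + 1)) ≤ ‖hdt a P k‖ * ‖hdt a P (k + 1)‖ :=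
          mul_le_mul b1 b2 (by positivity) (norm_nonneg _)
        have b4 := (hzz k n2 j).trans (hgb k)
        have b5 : 0 < q ^ (3 * k) * q ^ (3 * (k + 1)) := by positivity
        rw [div_le_iff₀ (lt_of_lt_of_le b5 b3)]
        refine b4.trans ?_
        have b6 : C1 * q ^ k * (q ^ (3 * k) * q ^ (3 * (k + 1))) = C * CA * θ1 ^ k := by
          rw [hC1, ← hq7, ← pow_mul]
          field_simp
          ring
        rw [← b6]
        exact mul_le_mul_of_nonneg_left b3 (by positivity)
      have hlimit : ∀ j, ∃ c : ℂ, ∀ n, ‖cc (k0 + n) j - c‖ ≤ C1 * q ^ k0 * q ^ n / (1 - q) := by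
        intro j
        have h2 : ∀ n, dist (cc (k0 + n) j) (cc (k0 + (n + 1)) j) ≤ (C1 * q ^ k0) * q ^ n := by
          intro n
          have := hdist (k0 + n) (by omega) j
          rw [pow_add] at this
          calc _ ≤ C1 * (q ^ k0 * q ^ n) := this
            _ = _ := by ring
        have h3 := cauchySeq_of_le_geometric q (C1 * q ^ k0) hq1 h2
        obtain ⟨c, hc⟩ := cauchySeq_tendsto_of_complete h3
        refine ⟨c, fun n => ?_⟩
        rw [← dist_eq_norm]
        exact dist_le_of_le_geometric_of_tendsto q (C1 * q ^ k0) hq1 h2 hc n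
      choose c hc using hlimit
      -- the exact recurrence with `cc`
      have hexact : ∀ k ≥ k0, a (k + P) = ∑ j : Fin P, cc k j * a (k + j) := by
        intro k hk1
        have n1 := hne k hk1
        have h2 := row_uu a P k 0
        have h3 : (0 : Fin (P + 1)) ≠ Fin.last P := by
          intro h4
          have := congrArg Fin.val h4
          simp at this
        rw [if_neg h3, Fin.sum_univ_castSucc, uu_last] at h2
        have e1 : hk a (P + 1) k 0 (Fin.last P) = a (k + P) := by
          rw [hk_apply]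
          simp
        have e2 : ∀ j : Fin P, hk a (P + 1) k 0 j.castSucc = a (k + j) := by
          intro j
          rw [hk_apply]
          simp
        rw [e1] at h2
        simp_rw [e2] at h2
        have h5 : a (k + P) = -(∑ j : Fin P, a (k + j) * uu a P k j.castSucc) / hdt a P k := by
          rw [eq_div_iff n1]
          linear_combination h2
        rw [h5, ← Finset.sum_neg_distrib, Finset.sum_div]
        refine Finset.sum_congr rfl fun j _ => ?_
        simp only [hcc]
        ring
      -- growth of `a`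
      set s := Real.sqrt q with hs
      have hs0 : 0 < s := Real.sqrt_pos.mpr hq0
      have hs1 : s < 1 := by rw [hs, Real.sqrt_lt' one_pos]; simpa using hq1
      have hss : s * s = q := Real.mul_self_sqrt hq0.le
      obtain ⟨CS, hCS0, hCS⟩ := ha s hs0 hs1
      have h1q : 0 < 1 - q := by linarith
      -- the defect
      have hdef : ∀ n ≥ k0, ‖a (n + P) - ∑ j : Fin P, c j * a (n + j)‖ ≤
          (∑ j : Fin P, C1 / (1 - q) * (CS / s ^ (j : ℕ))) * s ^ n := by
        intro n hn
        rw [hexact n hn, ← Finset.sum_sub_distrib]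
        refine (norm_sum_le _ _).trans ?_
        rw [Finset.sum_mul]
        refine Finset.sum_le_sum fun j _ => ?_
        obtain ⟨m, rfl⟩ : ∃ m, n = k0 + m := ⟨n - k0, by omega⟩
        have e : cc (k0 + m) j * a (k0 + m + j) - c j * a (k0 + m + j) =
            (cc (k0 + m) j - c j) * a (k0 + m + j) := by ring
        rw [e, norm_mul]
        have h2 := hc j m
        have h3 : C1 * q ^ k0 * q ^ m / (1 - q) = C1 / (1 - q) * q ^ (k0 + m) := by
          rw [pow_add]; ring
        rw [h3] at h2
        have h4 : ‖a (k0 + m + j)‖ ≤ CS / s ^ (k0 + m + j) := by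
          rw [le_div_iff₀ (by positivity)]
          exact hCS _
        have h5 : ‖cc (k0 + m) j - c j‖ * ‖a (k0 + m + j)‖ ≤
            (C1 / (1 - q) * q ^ (k0 + m)) * (CS / s ^ (k0 + m + j)) :=
          mul_le_mul h2 h4 (norm_nonneg _) (by positivity)
        refine h5.trans (le_of_eq ?_)
        have h6 : q ^ (k0 + m) = s ^ (k0 + m) * s ^ (k0 + m) := by rw [← mul_pow, hss]
        rw [h6, pow_add s (k0 + m) j]
        field_simp
      obtain ⟨C', hC'⟩ := geo_all hs0 hdef
      refine ⟨fun l => if l = 0 then 1 else -(if hl : P - l < P then c ⟨P - l, hl⟩ else 0),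
        by simp, s, hs0, hs1, C', fun n => ?_⟩
      refine le_trans (le_of_eq ?_) (hC' n)
      congr 1
      rw [Finset.sum_range_succ']
      have e1 : ∀ l ∈ Finset.range P, (if l + 1 = 0 then (1 : ℂ) else
          -(if hl : P - (l + 1) < P then c ⟨P - (l + 1), hl⟩ else 0)) * a (n + P - (l + 1)) =
          -((fun j : ℕ => (if hj : j < P then c ⟨j, hj⟩ else 0) * a (n + j)) (P - 1 - l)) := by
        intro l hl
        have hl' := Finset.mem_range.mp hl
        have h2 : P - (l + 1) = P - 1 - l := by omega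
        have h3 : n + P - (l + 1) = n + (P - 1 - l) := by omega
        rw [if_neg (by omega), h3]
        simp only [h2]
        ring
      rw [Finset.sum_congr rfl e1, Finset.sum_neg_distrib,
        Finset.sum_range_reflect (fun j : ℕ => (if hj : j < P then c ⟨j, hj⟩ else 0) * a (n + j)) P]
      rw [Finset.sum_range]
      simp only [Fin.is_lt, dif_pos, if_true, one_mul, Nat.sub_zero]
      ring

end Vale.Agent.P097.H190
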