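import Vale.Agent.P097.H190.HadC

/-! # P097 / HADAMARD: general radius and function form (helper190). -/

set_option linter.all false

open Finset Filter Topology

namespace Vale.Agent.P097.H190

/-- scaling of the Hankel determinants -/
theorem hdt_scale (a : ℕ → ℂ) (R : ℂ) (p k : ℕ) :
    hdt (fun n => a n * R ^ n) p k = R ^ (p * k) * (R ^ (p * (p - 1))) * hdt a p k := by
  unfold hdt
  have e : hk (fun n => a n * R ^ n) p k = Matrix.of fun i j : Fin p =>
      (R ^ (k + (i : ℕ))) * (Matrix.of fun i j : Fin p => R ^ (j : ℕ) * hk a p k i j) i j := by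
    ext i j
    simp only [hk, Matrix.of_apply]
    rw [pow_add, pow_add]
    ring
  rw [e, Matrix.det_mul_column, Matrix.det_mul_row]
  rw [← mul_assoc]
  congr 1
  have e1 : ∏ i : Fin p, R ^ (k + (i : ℕ)) = R ^ (p * k) * ∏ i : Fin p, R ^ (i : ℕ) := by
    simp_rw [pow_add]
    rw [Finset.prod_mul_distrib, Finset.prod_const, Finset.card_univ, Fintype.card_fin, ← pow_mul,
      mul_comm k p]
  rw [e1]
  have e2 : (∏ i : Fin p, R ^ (i : ℕ)) * ∏ i : Fin p, R ^ (i : ℕ) = R ^ (p * (p - 1)) := by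
    rw [Finset.prod_pow_eq_pow_sum, ← pow_add, Fin.sum_univ_eq_sum_range (fun i => i) p]
    congr 1
    have := Finset.sum_range_id_mul_two p
    omega
  rw [mul_assoc, e2]

/-- power series with exponentially small coefficients -/
theorem diff_of_geo {r : ℕ → ℂ} {θ C : ℝ} (hθ : 0 < θ) (h : ∀ n, ‖r n‖ ≤ C * θ ^ n) :
    DifferentiableOn ℂ (fun x => ∑' n, r n * x ^ n) (Metric.ball 0 (1 / θ)) := by
  intro x hx
  rw [Metric.mem_ball, dist_zero_right] at hx
  obtain ⟨ρ, h1, h2⟩ := exists_between hx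
  have hρ : 0 < ρ := lt_of_le_of_lt (norm_nonneg _) h1
  have hC : 0 ≤ C := by
    have := (norm_nonneg _).trans (h 0)
    simpa using this
  have hlt : θ * ρ < 1 := by
    rw [lt_div_iff₀ hθ] at h2
    linarith
  have hsum : Summable fun n : ℕ => C * (θ * ρ) ^ n :=
    (summable_geometric_of_lt_one (by positivity) hlt).mul_left C
  have hd : DifferentiableOn ℂ (fun x => ∑' n, r n * x ^ n) (Metric.ball 0 ρ) := by
    refine Complex.differentiableOn_tsum_of_summable_norm hsum (fun n => ?_) Metric.isOpen_ball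
      fun n w hw => ?_
    · exact (differentiableOn_id.pow n).const_mul (r n)
    · rw [Metric.mem_ball, dist_zero_right] at hw
      rw [norm_mul, norm_pow]
      calc ‖r n‖ * ‖w‖ ^ n ≤ (C * θ ^ n) * ρ ^ n :=
            mul_le_mul (h n) (pow_le_pow_left₀ (norm_nonneg _) hw.le n) (by positivity)
              (by positivity)
        _ = C * (θ * ρ) ^ n := by rw [mul_pow]; ring
  exact (hd.differentiableAt (Metric.isOpen_ball.mem_nhds (by
    rw [Metric.mem_ball, dist_zero_right]; exact h1))).differentiableWithinAt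

/-- HADAMARD, coefficient form, general radius `R` -/
theorem hadamard_rec (a : ℕ → ℂ) (R : ℝ) (hR : 0 < R)
    (ha : ∀ s, 0 < s → s < R → ∃ C : ℝ, ∀ n, ‖a n‖ * s ^ n ≤ C) (p : ℕ) (θ C : ℝ) (h0 : 0 < θ)
    (h1 : θ < 1) (hD : ∀ k, ‖hdt a (p + 1) k‖ * R ^ ((p + 1) * k) ≤ C * θ ^ k) :
    ∃ b : ℕ → ℂ, b 0 = 1 ∧ ∃ R' : ℝ, R < R' ∧ ∃ C' : ℝ, ∀ n,
      ‖∑ l ∈ Finset.range (p + 1), b l * a (n + p - l)‖ * R' ^ n ≤ C' := by
  set a' : ℕ → ℂ := fun n => a n * (R : ℂ) ^ n with ha'
  have hs : SubE a' := by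
    intro s hs0 hs1
    obtain ⟨K, hK⟩ := ha (R * s) (by positivity) (by nlinarith)
    refine ⟨K, ?_, fun n => ?_⟩
    · have := hK 0
      have h3 : 0 ≤ ‖a 0‖ * (R * s) ^ 0 := by positivity
      linarith
    · rw [ha']
      simp only
      rw [norm_mul, norm_pow, Complex.norm_real, Real.norm_of_nonneg hR.le, mul_assoc, ← mul_pow]
      exact hK n
  have hdet : ∀ k, ‖hdt a' (p + 1) k‖ ≤ (R ^ ((p + 1) * p) * C) * θ ^ k := by
    intro k
    rw [ha', hdt_scale, norm_mul, norm_mul, norm_pow, norm_pow, Complex.norm_real,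
      Real.norm_of_nonneg hR.le]
    have := mul_le_mul_of_nonneg_left (hD k) (by positivity : (0 : ℝ) ≤ R ^ ((p + 1) * p))
    calc R ^ ((p + 1) * k) * R ^ ((p + 1) * (p + 1 - 1)) * ‖hdt a (p + 1) k‖ =
          R ^ ((p + 1) * p) * (‖hdt a (p + 1) k‖ * R ^ ((p + 1) * k)) := by
            rw [Nat.add_sub_cancel]; ring
      _ ≤ _ := this
      _ = _ := by ring
  obtain ⟨b, hb, θ', t0, t1, C', hC'⟩ := rec_of_det a' hs p θ _ h0 h1 hdet
  have hRc : (R : ℂ) ≠ 0 := by exact_mod_cast hR.ne'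
  refine ⟨fun l => b l / (R : ℂ) ^ l, by simp [hb], R / θ', ?_, C' / R ^ p, fun n => ?_⟩
  · rw [lt_div_iff₀ t0]
    nlinarith
  · have e : ∀ l ∈ Finset.range (p + 1), b l / (R : ℂ) ^ l * a (n + p - l) =
        (b l * a' (n + p - l)) / (R : ℂ) ^ (n + p) := by
      intro l hl
      have hl' := Finset.mem_range.mp hl
      obtain ⟨m, hm⟩ : ∃ m, n + p = m + l := ⟨n + p - l, by omega⟩
      simp only [ha', hm, Nat.add_sub_cancel, pow_add]
      field_simp
    rw [Finset.sum_congr rfl e, ← Finset.sum_div, norm_div, norm_pow, Complex.norm_real,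
      Real.norm_of_nonneg hR.le]
    have h3 := hC' n
    rw [div_mul_eq_mul_div, div_pow, div_le_div_iff₀ (by positivity) (by positivity)]
    have h4 : ‖∑ l ∈ Finset.range (p + 1), b l * a' (n + p - l)‖ * (R ^ n / θ' ^ n) * R ^ p =
        (‖∑ l ∈ Finset.range (p + 1), b l * a' (n + p - l)‖ / θ' ^ n) * R ^ (n + p) := by
      rw [pow_add]; ring
    rw [h4]
    refine mul_le_mul_of_nonneg_right ?_ (by positivity)
    rw [div_le_iff₀ (by positivity)]
    exact h3

/-- HADAMARD, function form -/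
theorem hadamard (a : ℕ → ℂ) (R : ℝ) (hR : 0 < R)
    (ha : ∀ s, 0 < s → s < R → ∃ C : ℝ, ∀ n, ‖a n‖ * s ^ n ≤ C) (p : ℕ) (θ C : ℝ) (h0 : 0 < θ)
    (h1 : θ < 1) (hD : ∀ k, ‖hdt a (p + 1) k‖ * R ^ ((p + 1) * k) ≤ C * θ ^ k) :
    ∃ (Q : Polynomial ℂ) (R' : ℝ) (F : ℂ → ℂ), Q.coeff 0 = 1 ∧ Q.natDegree ≤ p ∧ R < R' ∧
      DifferentiableOn ℂ F (Metric.ball 0 R') ∧
      ∀ x ∈ Metric.ball (0 : ℂ) R, F x = Q.eval x * ∑' n, a n * x ^ n := by
  obtain ⟨b, hb, R', hR', C', hC'⟩ := hadamard_rec a R hR ha p θ C h0 h1 hD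
  have hR'0 : 0 < R' := hR.trans hR'
  set r : ℕ → ℂ := fun n => ∑ l ∈ Finset.range (p + 1), b l * a (n + p - l) with hr
  have hrb : ∀ n, ‖r n‖ ≤ C' * (1 / R') ^ n := by
    intro n
    have := hC' n
    rw [one_div, inv_pow, ← div_eq_mul_inv, le_div_iff₀ (by positivity)]
    exact this
  have hG := diff_of_geo (by positivity : 0 < 1 / R') hrb
  rw [one_div_one_div] at hG
  refine ⟨∑ l ∈ Finset.range (p + 1), Polynomial.C (b l) * Polynomial.X ^ l, R',
    fun x => x ^ p * (∑' n, r n * x ^ n) +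
      ∑ l ∈ Finset.range (p + 1), b l * x ^ l * ∑ m ∈ Finset.range (p - l), a m * x ^ m,
    ?_, ?_, hR', ?_, ?_⟩
  · simp [Polynomial.finset_sum_coeff, Polynomial.coeff_X_pow, hb]
  · refine Polynomial.natDegree_sum_le_of_forall_le _ _ fun l hl => ?_
    refine (Polynomial.natDegree_C_mul_X_pow_le _ _).trans ?_
    have := Finset.mem_range.mp hl
    omega
  · refine ((differentiableOn_id.pow p).mul hG).add ?_
    refine DifferentiableOn.fun_sum fun l _ => ?_
    refine ((differentiableOn_id.pow l).const_mul (b l)).mul ?_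
    exact DifferentiableOn.fun_sum fun m _ => (differentiableOn_id.pow m).const_mul (a m)
  · intro x hx
    rw [Metric.mem_ball, dist_zero_right] at hx
    -- summability on the small disc
    obtain ⟨s, hs1, hs2⟩ := exists_between hx
    have hs0 : 0 < s := lt_of_le_of_lt (norm_nonneg _) hs1
    obtain ⟨K, hK⟩ := ha s hs0 hs2
    have hsum : Summable fun n => a n * x ^ n := by
      refine Summable.of_norm_bounded (g := fun n => K * (‖x‖ / s) ^ n) ?_ fun n => ?_
      · exact (summable_geometric_of_lt_one (by positivity) (by rwa [div_lt_one hs0])).mul_left K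
      · rw [norm_mul, norm_pow, div_pow]
        have h3 := mul_le_mul_of_nonneg_right (hK n)
          (by positivity : (0 : ℝ) ≤ ‖x‖ ^ n / s ^ n)
        calc ‖a n‖ * ‖x‖ ^ n = ‖a n‖ * s ^ n * (‖x‖ ^ n / s ^ n) := by field_simp
          _ ≤ _ := h3
    have hsl : ∀ l, Summable fun n => a (n + l) * x ^ (n + l) := fun l =>
      (summable_nat_add_iff l).mpr hsum
    have htail : ∀ l ∈ Finset.range (p + 1), x ^ l * ∑' n, a (n + (p - l)) * x ^ (n + (p - l)) =
        x ^ l * (∑' n, a n * x ^ n) - x ^ l * ∑ m ∈ Finset.range (p - l), a m * x ^ m := by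
      intro l _
      have := hsum.sum_add_tsum_nat_add (p - l)
      rw [← this]
      ring
    have hmain : x ^ p * (∑' n, r n * x ^ n) = ∑ l ∈ Finset.range (p + 1),
        b l * (x ^ l * ∑' n, a (n + (p - l)) * x ^ (n + (p - l))) := by
      rw [← tsum_mul_left]
      have e1 : ∀ n, x ^ p * (r n * x ^ n) = ∑ l ∈ Finset.range (p + 1),
          b l * (x ^ l * (a (n + (p - l)) * x ^ (n + (p - l)))) := by
        intro n
        rw [hr]
        simp only
        rw [Finset.sum_mul, Finset.mul_sum]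
        refine Finset.sum_congr rfl fun l hl => ?_
        have hl' := Finset.mem_range.mp hl
        have e2 : n + p - l = n + (p - l) := by omega
        have e3 : x ^ p = x ^ l * x ^ (p - l) := by rw [← pow_add]; congr 1; omega
        rw [e2, e3, pow_add x n (p - l)]
        ring
      simp_rw [e1]
      rw [Summable.tsum_finsetSum fun l _ => ((hsl (p - l)).mul_left (x ^ l)).mul_left (b l)]
      refine Finset.sum_congr rfl fun l _ => ?_
      rw [tsum_mul_left, tsum_mul_left]
    simp only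
    rw [hmain, Polynomial.eval_finset_sum, Finset.sum_mul, ← Finset.sum_add_distrib]
    refine Finset.sum_congr rfl fun l hl => ?_
    rw [htail l hl]
    simp only [Polynomial.eval_mul, Polynomial.eval_C, Polynomial.eval_pow, Polynomial.eval_X]
    ring

end Vale.Agent.P097.H190
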