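import Vale.Agent.P097.H190.Ult

/-!
# P097: functions with real part bounded above, along an ultrafilter

`re_dich`: on a connected open set, either the real parts tend to `-∞` locally uniformly, or the
differences `f n - f n z₀` are locally bounded and `Re (f n z₀)` is bounded below.
-/

set_option linter.all false

noncomputable section

open Filter Metric Set Topology

namespace Vale.Agent.P097.H190.Ult

variable {ι : Type*} {E F : Type*} [NormedAddCommGroup E] [NormedSpace ℂ E]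
  [NormedAddCommGroup F] [NormedSpace ℂ F]

theorem LocBdd.mono {l : Filter ι} {f : ι → E → F} {U V : Set E} (h : LocBdd l f U) (hV : V ⊆ U) :
    LocBdd l f V := fun x hx => h x (hV hx)

/-- bounds on compacts -/
theorem locBdd_of_compact [ProperSpace E] {l : Filter ι} {f : ι → E → F} {D : Set E}
    (hD : IsOpen D) (h : ∀ K : Set E, K ⊆ D → IsCompact K → ∃ C : ℝ, ∀ᶠ n in l, ∀ z ∈ K,
      DifferentiableAt ℂ (f n) z ∧ ‖f n z‖ ≤ C) : LocBdd l f D := by
  intro x hx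
  obtain ⟨r, hr, hrD⟩ := Metric.isOpen_iff.mp hD x hx
  obtain ⟨C, hC⟩ := h (closedBall x (r / 2))
    ((closedBall_subset_ball (by linarith)).trans hrD) (isCompact_closedBall _ _)
  refine ⟨r / 2, by positivity, C, ?_⟩
  filter_upwards [hC] with n hn
  exact ⟨fun y hy => (hn y (ball_subset_closedBall hy)).1.differentiableWithinAt,
    fun y hy => (hn y (ball_subset_closedBall hy)).2⟩

/-- one neighbourhood for the uniform convergence -/
theorem unif_near [ProperSpace E] {l : Filter ι} {f : ι → E → F} {g : E → F} {D : Set E}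
    (hD : IsOpen D) (h : TendstoLocallyUniformlyOn f g l D) {z : E} (hz : z ∈ D) :
    ∃ r > 0, ball z r ⊆ D ∧ TendstoUniformlyOn f g l (ball z r) := by
  obtain ⟨r, hr, hrD⟩ := Metric.isOpen_iff.mp hD z hz
  have hK : closedBall z (r / 2) ⊆ D := (closedBall_subset_ball (by linarith)).trans hrD
  have h1 := (tendstoLocallyUniformlyOn_iff_forall_isCompact hD).mp h (closedBall z (r / 2)) hK
    (isCompact_closedBall _ _)
  exact ⟨r / 2, by positivity, ball_subset_closedBall.trans hK, h1.mono ball_subset_closedBall⟩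

/-- one sided Borel-Caratheodory -/
theorem bc_one {f : E → ℂ} {x : E} {R M : ℝ} (hd : DifferentiableOn ℂ f (ball x R))
    (hs : ∀ y ∈ ball x R, (f y).re ≤ M) (hM : (f x).re < M) {z : E}
    (hz : z ∈ ball x R) : ‖f z - f x‖ ≤ 2 * (M - (f x).re) * ‖z - x‖ / (R - ‖z - x‖) := by
  rw [mem_ball, dist_eq_norm] at hz
  have hR : 0 < R := lt_of_le_of_lt (norm_nonneg _) hz
  rcases eq_or_ne z x with rfl | hne
  · simp
  have hn : 0 < ‖z - x‖ := norm_pos_iff.mpr (sub_ne_zero.mpr hne)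
  set v : E := ((‖z - x‖⁻¹ : ℝ) : ℂ) • (z - x) with hv
  have hvn : ‖v‖ = 1 := by
    rw [hv, norm_smul, Complex.norm_real, Real.norm_eq_abs, abs_of_pos (inv_pos.mpr hn)]
    exact inv_mul_cancel₀ hn.ne'
  set g : ℂ → ℂ := fun t => f (x + t • v) - f x with hg
  have hmap : ∀ t ∈ ball (0 : ℂ) R, x + t • v ∈ ball x R := by
    intro t ht
    rw [mem_ball_zero_iff] at ht
    rw [mem_ball, dist_eq_norm]
    have : x + t • v - x = t • v := by abel
    rw [this, norm_smul, hvn, mul_one]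
    exact ht
  have hgd : DifferentiableOn ℂ g (ball 0 R) := by
    have h1 : DifferentiableOn ℂ (fun t : ℂ => f (x + t • v)) (ball 0 R) :=
      hd.comp (by fun_prop) hmap
    exact h1.sub_const _
  have hg0 : g 0 = 0 := by simp [hg]
  have hre : MapsTo g (ball 0 R) {w | w.re ≤ M - (f x).re} := by
    intro t ht
    have h1 := hs _ (hmap t ht)
    show (g t).re ≤ M - (f x).re
    have h3 : (g t).re = (f (x + t • v)).re - (f x).re := by simp [hg]
    rw [h3]; linarith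
  have hmem : ((‖z - x‖ : ℝ) : ℂ) ∈ ball (0 : ℂ) R := by
    rw [mem_ball_zero_iff, Complex.norm_real, norm_norm]; exact hz
  have hkey := Complex.borelCaratheodory_zero (by linarith : 0 < M - (f x).re) hgd hre hR hmem hg0
  have hpt : x + ((‖z - x‖ : ℝ) : ℂ) • v = z := by
    rw [hv, smul_smul, ← Complex.ofReal_mul, mul_inv_cancel₀ hn.ne', Complex.ofReal_one, one_smul]
    abel
  rw [Complex.norm_real, norm_norm] at hkey
  have h5 : ‖g ((‖z - x‖ : ℝ) : ℂ)‖ = ‖f z - f x‖ := by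
    simp only [hg]
    rw [hpt]
  rw [h5] at hkey
  exact hkey

/-- Harnack form on the small ball -/
theorem bc_fifth {f : E → ℂ} {x : E} {R M : ℝ} (hd : DifferentiableOn ℂ f (ball x R))
    (hs : ∀ y ∈ ball x R, (f y).re ≤ M) (hM : (f x).re < M) {z : E}
    (hz : z ∈ ball x (R / 5)) : ‖f z - f x‖ ≤ (M - (f x).re) / 2 := by
  have hz1 : z ∈ ball x R := by
    rw [mem_ball] at *
    have := dist_nonneg (x := z) (y := x)
    linarith
  have h1 := bc_one hd hs hM hz1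
  rw [mem_ball, dist_eq_norm] at hz
  have h0 := norm_nonneg (z - x)
  refine h1.trans ?_
  rw [div_le_div_iff₀ (by linarith) (by norm_num)]
  nlinarith

/-- near every point eventually holomorphic with real part bounded above -/
def LocRe (l : Filter ι) (f : ι → E → ℂ) (U : Set E) : Prop :=
  ∀ x ∈ U, ∃ r > 0, ∃ C : ℝ, ∀ᶠ j in l, DifferentiableOn ℂ (f j) (ball x r) ∧
    ∀ y ∈ ball x r, (f j y).re ≤ C

theorem re_dich (𝒰 : Ultrafilter ι) {f : ι → E → ℂ} {D : Set E} (hD : IsOpen D)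
    (hc : IsPreconnected D) (hf : LocRe (𝒰 : Filter ι) f D) {z₀ : E} (hz₀ : z₀ ∈ D) :
    (∀ x ∈ D, ∃ r > 0, ∀ M : ℝ, ∀ᶠ n in (𝒰 : Filter ι), ∀ y ∈ ball x r, (f n y).re ≤ M) ∨
    (LocBdd (𝒰 : Filter ι) (fun n z => f n z - f n z₀) D ∧
      ∃ C : ℝ, ∀ᶠ n in (𝒰 : Filter ι), C ≤ (f n z₀).re) := by
  have hloc : ∀ x ∈ D, ∃ r > 0, ∃ C : ℝ, ball x r ⊆ D ∧ ∀ᶠ n in (𝒰 : Filter ι),
      DifferentiableOn ℂ (f n) (ball x r) ∧ (f n x).re < C ∧
      ∀ y ∈ ball x r, ‖f n y - f n x‖ ≤ (C - (f n x).re) / 2 := by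
    intro x hx
    obtain ⟨r, hr, C, hC⟩ := hf x hx
    obtain ⟨r', hr', hrD⟩ := Metric.isOpen_iff.mp hD x hx
    refine ⟨min r r' / 5, by positivity, C + 1, ?_, ?_⟩
    · refine (ball_subset_ball ?_).trans hrD
      have := min_le_right r r'
      have h2 : 0 < min r r' := by positivity
      linarith
    filter_upwards [hC] with n hn
    have hsub : ball x (min r r') ⊆ ball x r := ball_subset_ball (min_le_left _ _)
    have h1 : (f n x).re < C + 1 := by
      have := hn.2 x (mem_ball_self hr)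
      linarith
    refine ⟨hn.1.mono ((ball_subset_ball ?_).trans hsub), h1, fun y hy => ?_⟩
    · have h2 : 0 < min r r' := by positivity
      linarith
    · exact bc_fifth (hn.1.mono hsub) (fun y hy => by linarith [hn.2 y (hsub hy)]) h1 hy
  set S₁ : Set E := {x | x ∈ D ∧ ∀ M : ℝ, ∀ᶠ n in (𝒰 : Filter ι), (f n x).re ≤ M} with hS₁
  set S₂ : Set E := {x | x ∈ D ∧ ∃ M : ℝ, ∀ᶠ n in (𝒰 : Filter ι), M < (f n x).re} with hS₂
  have hcov : D ⊆ S₁ ∪ S₂ := by
    intro x hx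
    by_cases h : ∀ M : ℝ, ∀ᶠ n in (𝒰 : Filter ι), (f n x).re ≤ M
    · exact Or.inl ⟨hx, h⟩
    · push Not at h
      obtain ⟨M, hM⟩ := h
      exact Or.inr ⟨hx, M, hM⟩
  have hre : ∀ a c : ℂ, ∀ t : ℝ, ‖a - c‖ ≤ t → a.re ≤ c.re + t ∧ c.re ≤ a.re + t := by
    intro a c t h
    have h1 := (Complex.abs_re_le_norm (a - c)).trans h
    rw [abs_le, Complex.sub_re] at h1
    constructor <;> linarith [h1.1, h1.2]
  have hunif : ∀ x ∈ S₁, ∃ r > 0, ball x r ⊆ D ∧ ∀ M : ℝ, ∀ᶠ n in (𝒰 : Filter ι),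
      ∀ y ∈ ball x r, (f n y).re ≤ M := by
    rintro x ⟨hx, hM⟩
    obtain ⟨r, hr, C, hrD, hn⟩ := hloc x hx
    refine ⟨r, hr, hrD, fun M => ?_⟩
    filter_upwards [hn, hM (2 * M - C)] with n h1 h2 y hy
    have := (hre _ _ _ (h1.2.2 y hy)).1
    linarith
  have hlow : ∀ x ∈ S₂, ∃ r > 0, ball x r ⊆ D ∧ ∃ M : ℝ, ∀ᶠ n in (𝒰 : Filter ι),
      DifferentiableOn ℂ (f n) (ball x r) ∧ (∀ y ∈ ball x r, M < (f n y).re) ∧
      ∀ y ∈ ball x r, ‖f n y - f n x‖ ≤ -M := by
    rintro x ⟨hx, M, hM⟩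
    obtain ⟨r, hr, C, hrD, hn⟩ := hloc x hx
    refine ⟨r, hr, hrD, -(|M| + |C|) * 2, ?_⟩
    filter_upwards [hn, hM] with n h1 h2
    have h3 := neg_abs_le M
    have h4 := le_abs_self C
    have h5 := abs_nonneg M
    have h6 := abs_nonneg C
    refine ⟨h1.1, fun y hy => ?_, fun y hy => ?_⟩
    · have h7 := (hre _ _ _ (h1.2.2 y hy)).2
      have h8 := h1.2.1
      nlinarith
    · have h7 := h1.2.2 y hy
      nlinarith
  have hO₁ : IsOpen S₁ := by
    rw [isOpen_iff_mem_nhds]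
    intro x hx
    obtain ⟨r, hr, hrD, h⟩ := hunif x hx
    filter_upwards [ball_mem_nhds x hr] with y hy
    exact ⟨hrD hy, fun M => (h M).mono fun n hn => hn y hy⟩
  have hO₂ : IsOpen S₂ := by
    rw [isOpen_iff_mem_nhds]
    intro x hx
    obtain ⟨r, hr, hrD, M, h⟩ := hlow x hx
    filter_upwards [ball_mem_nhds x hr] with y hy
    exact ⟨hrD hy, M, h.mono fun n hn => hn.2.1 y hy⟩
  have hdis : Disjoint S₁ S₂ := by
    rw [Set.disjoint_left]
    rintro x ⟨-, h1⟩ ⟨-, M, h2⟩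
    obtain ⟨n, hn1, hn2⟩ := ((h1 M).and h2).exists
    linarith
  rcases hcov hz₀ with h | h
  · left
    have hsub : D ⊆ S₁ := hc.subset_left_of_subset_union hO₁ hO₂ hdis hcov ⟨z₀, hz₀, h⟩
    intro x hx
    obtain ⟨r, hr, -, h2⟩ := hunif x (hsub hx)
    exact ⟨r, hr, h2⟩
  · right
    have hsub : D ⊆ S₂ := hc.subset_left_of_subset_union hO₂ hO₁ hdis.symm
      (hcov.trans (union_comm _ _).le) ⟨z₀, hz₀, h⟩
    obtain ⟨-, C₀, hC₀⟩ := h
    refine ⟨?_, C₀, hC₀.mono fun n hn => hn.le⟩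
    set T : Set E := {x | x ∈ D ∧ ∃ C : ℝ, ∀ᶠ n in (𝒰 : Filter ι), ‖f n x - f n z₀‖ ≤ C} with hT
    have hTo : IsOpen T := by
      rw [isOpen_iff_mem_nhds]
      rintro x ⟨hx, C, hC⟩
      obtain ⟨r, hr, hrD, M, hev⟩ := hlow x (hsub hx)
      filter_upwards [ball_mem_nhds x hr] with y hy
      refine ⟨hrD hy, C + -M, ?_⟩
      filter_upwards [hC, hev] with j hj1 hj2
      have h1 := hj2.2.2 y hy
      calc ‖f j y - f j z₀‖ = ‖(f j x - f j z₀) + (f j y - f j x)‖ := by congr 1; ring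
        _ ≤ ‖f j x - f j z₀‖ + ‖f j y - f j x‖ := norm_add_le _ _
        _ ≤ C + -M := by linarith
    have hWo : IsOpen (D \ T) := by
      rw [isOpen_iff_mem_nhds]
      rintro x ⟨hx, hxS⟩
      obtain ⟨r, hr, hrD, M, hev⟩ := hlow x (hsub hx)
      filter_upwards [ball_mem_nhds x hr] with y hy
      refine ⟨hrD hy, fun hyS => hxS ⟨hx, ?_⟩⟩
      obtain ⟨-, C, hC⟩ := hyS
      refine ⟨C + -M, ?_⟩
      filter_upwards [hC, hev] with j hj1 hj2
      have h1 := hj2.2.2 y hy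
      calc ‖f j x - f j z₀‖ = ‖(f j y - f j z₀) - (f j y - f j x)‖ := by congr 1; ring
        _ ≤ ‖f j y - f j z₀‖ + ‖f j y - f j x‖ := norm_sub_le _ _
        _ ≤ C + -M := by linarith
    have hDT : D ⊆ T := by
      refine hc.subset_left_of_subset_union hTo hWo disjoint_sdiff_self_right ?_ ?_
      · intro x hx
        by_cases h : x ∈ T
        · exact Or.inl h
        · exact Or.inr ⟨hx, h⟩
      · exact ⟨z₀, hz₀, hz₀, 0, Eventually.of_forall fun n => by simp⟩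
    intro x hx
    obtain ⟨-, C, hC⟩ := hDT hx
    obtain ⟨r, hr, hrD, M, hev⟩ := hlow x (hsub hx)
    refine ⟨r, hr, C + -M, ?_⟩
    filter_upwards [hC, hev] with j hj1 hj2
    refine ⟨hj2.1.sub_const _, fun y hy => ?_⟩
    have h1 := hj2.2.2 y hy
    calc ‖f j y - f j z₀‖ = ‖(f j x - f j z₀) + (f j y - f j x)‖ := by congr 1; ring
      _ ≤ ‖f j x - f j z₀‖ + ‖f j y - f j x‖ := norm_add_le _ _
      _ ≤ C + -M := by linarith

end Vale.Agent.P097.H190.Ult
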