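import Vale.Agent.P097.H190.WBr
import Vale.Agent.P097.TC.Defs5

/-!
# P097 / case [c] : from bounds to `A5.Hon` / `A5.Iso` (helper190)

`line_out` : `e^{iα}` and `2 p e^{iα}` locally bounded along the ultrafilter on the wide cone:
`Hon` or `Iso 1`; `Iso 1` if `e^{2iα} → 0` at one point, `Hon` if `|e^{2iα}|` is bounded below at one
point.  `line_out'` : the same with `-i`.
-/

set_option linter.all false

noncomputable section

open Complex Metric Filter Topology Set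

namespace Vale.Agent.P097.H190.WO

open Vale.Agent.P097.H929 Vale.Agent.P097.H190.Ult
open Vale.Agent.P097.A5 (Hon Iso)

theorem Wd_eq (d : ℝ) : A5.Wd d = Wd d := rfl

theorem Nr_eq : A5.Nr = Gd := rfl

section

variable {F q : ℂ → ℂ} {d : ℝ} {al p : ℂ × ℂ → ℂ} {φ : ℕ → ℂ × ℂ → ℂ × ℂ} (𝒰 : Ultrafilter ℕ)

/-- honest -/
theorem hon_of {N : ℕ → ℤ}
    (h1 : LocBdd (𝒰 : Filter ℕ) (fun n z => al (φ n z) - 2 * Real.pi * N n) (Wd d))
    (h2 : LocBdd (𝒰 : Filter ℕ) (fun n z => p (φ n z)) (Wd d)) : Hon F q d al p φ 𝒰 := by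
  obtain ⟨al', d1, c1, -⟩ := montel_full 𝒰 (isOpen_Wd d) h1
  obtain ⟨p', d2, c2, -⟩ := montel_full 𝒰 (isOpen_Wd d) h2
  exact ⟨N, al', p', d1, d2, c1, c2⟩

theorem tlu_zero {g : ℕ → ℂ × ℂ → ℂ} {D : Set (ℂ × ℂ)}
    (h1 : ∀ z ∈ D, ∃ r > 0, ∀ ε > 0, ∀ᶠ n in (𝒰 : Filter ℕ), ∀ y ∈ ball z r, ‖g n y‖ ≤ ε) :
    TendstoLocallyUniformlyOn g (fun _ => 0) (𝒰 : Filter ℕ) D := by
  rw [Metric.tendstoLocallyUniformlyOn_iff]
  intro ε hε z hz
  obtain ⟨r, hr, h⟩ := h1 z hz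
  refine ⟨ball z r, mem_nhdsWithin_of_mem_nhds (ball_mem_nhds z hr), ?_⟩
  filter_upwards [h (ε / 2) (by positivity)] with n hn y hy
  rw [dist_zero_left]
  linarith [hn y hy]

/-- isotropic, sign `+` -/
theorem iso_of (h1 : ∀ z ∈ Wd d, ∃ r > 0, ∀ ε > 0, ∀ᶠ n in (𝒰 : Filter ℕ), ∀ y ∈ ball z r,
      ‖exp (2 * I * al (φ n y))‖ ≤ ε)
    (h2 : LocBdd (𝒰 : Filter ℕ) (fun n z => 2 * p (φ n z) * exp (I * al (φ n z))) (Wd d)) :
    Iso F q d al p φ 𝒰 1 := by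
  obtain ⟨B', d1, c1, -⟩ := montel_full 𝒰 (isOpen_Wd d) h2
  refine ⟨B', d1, ?_, ?_⟩ <;> rw [Wd_eq]
  · have := tlu_zero (g := fun n z => exp (2 * I * al (φ n z))) 𝒰 h1
    simpa only [one_mul] using this
  · simpa only [one_mul] using c1

/-- isotropic, sign `-` -/
theorem iso_of' (h1 : ∀ z ∈ Wd d, ∃ r > 0, ∀ ε > 0, ∀ᶠ n in (𝒰 : Filter ℕ), ∀ y ∈ ball z r,
      ‖exp (-(2 * I * al (φ n y)))‖ ≤ ε)
    (h2 : LocBdd (𝒰 : Filter ℕ) (fun n z => 2 * p (φ n z) * exp (-I * al (φ n z))) (Wd d)) :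
    Iso F q d al p φ 𝒰 (-1) := by
  obtain ⟨B', d1, c1, -⟩ := montel_full 𝒰 (isOpen_Wd d) h2
  refine ⟨B', d1, ?_, ?_⟩ <;> rw [Wd_eq]
  · have := tlu_zero (g := fun n z => exp (-(2 * I * al (φ n z)))) 𝒰 h1
    simpa only [neg_one_mul] using this
  · have e : ∀ n z, -1 * (I * al (φ n z)) = -I * al (φ n z) := fun n z => by ring
    simpa only [e] using c1

variable {z₀ : ℂ × ℂ}

/-- **sign `+`**, the alternative decided at one point -/
theorem line_out (hz₀ : z₀ ∈ Wd d) (hal : LocD (𝒰 : Filter ℕ) (fun n z => al (φ n z)) (Wd d))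
    (hp : LocD (𝒰 : Filter ℕ) (fun n z => p (φ n z)) (Wd d))
    (h1 : LocBdd (𝒰 : Filter ℕ) (fun n z => exp (I * al (φ n z))) (Wd d))
    (h2 : LocBdd (𝒰 : Filter ℕ) (fun n z => 2 * p (φ n z) * exp (I * al (φ n z))) (Wd d)) :
    (∀ C : ℝ, (∀ᶠ n in (𝒰 : Filter ℕ), (al (φ n z₀)).im ≤ C) → Hon F q d al p φ 𝒰) ∧
    (Tendsto (fun n => (al (φ n z₀)).im) (𝒰 : Filter ℕ) atTop → Iso F q d al p φ 𝒰 1) := by
  have key := line_dich 𝒰 (al := fun n z => al (φ n z)) (p := fun n z => p (φ n z))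
    (isOpen_Wd d) (convex_Wd d).isPreconnected hz₀ hal hp h1 h2
  have hnorm : ∀ n, ‖exp (2 * I * al (φ n z₀))‖ = Real.exp (-(2 * (al (φ n z₀)).im)) := by
    intro n
    rw [norm_exp]
    congr 1
    simp [mul_re, mul_im]
  constructor
  · intro C hC
    rcases key with ⟨N, h3, h4⟩ | ⟨-, h3⟩
    · exact hon_of 𝒰 h3 h4
    · exfalso
      obtain ⟨r, hr, h⟩ := h3 z₀ hz₀
      obtain ⟨n, hn1, hn2⟩ := ((h (Real.exp (-(2 * C)) / 2) (by positivity)).and hC).exists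
      have h5 := hn1 z₀ (mem_ball_self hr)
      rw [hnorm] at h5
      have h6 : Real.exp (-(2 * C)) ≤ Real.exp (-(2 * (al (φ n z₀)).im)) :=
        Real.exp_le_exp.mpr (by linarith)
      have := Real.exp_pos (-(2 * C))
      linarith
  · intro ht
    rcases key with ⟨N, h3, h4⟩ | ⟨-, h3⟩
    · exfalso
      obtain ⟨r, hr, C, hC⟩ := h3 z₀ hz₀
      obtain ⟨n, hn1, hn2⟩ := (hC.and (ht.eventually_gt_atTop C)).exists
      have h5 := (abs_im_le_norm _).trans (hn1.2 z₀ (mem_ball_self hr))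
      have e : (al (φ n z₀) - 2 * Real.pi * N n).im = (al (φ n z₀)).im := by simp [mul_im]
      rw [e] at h5
      exact absurd ((le_abs_self _).trans h5) (not_le.mpr hn2)
    · exact iso_of 𝒰 h3 h2

/-- **sign `-`**, the alternative decided at one point -/
theorem line_out' (hz₀ : z₀ ∈ Wd d) (hal : LocD (𝒰 : Filter ℕ) (fun n z => al (φ n z)) (Wd d))
    (hp : LocD (𝒰 : Filter ℕ) (fun n z => p (φ n z)) (Wd d))
    (h1 : LocBdd (𝒰 : Filter ℕ) (fun n z => exp (-I * al (φ n z))) (Wd d))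
    (h2 : LocBdd (𝒰 : Filter ℕ) (fun n z => 2 * p (φ n z) * exp (-I * al (φ n z))) (Wd d)) :
    (∀ C : ℝ, (∀ᶠ n in (𝒰 : Filter ℕ), C ≤ (al (φ n z₀)).im) → Hon F q d al p φ 𝒰) ∧
    (Tendsto (fun n => (al (φ n z₀)).im) (𝒰 : Filter ℕ) atBot → Iso F q d al p φ 𝒰 (-1)) := by
  have key := line_dich' 𝒰 (al := fun n z => al (φ n z)) (p := fun n z => p (φ n z))
    (isOpen_Wd d) (convex_Wd d).isPreconnected hz₀ hal hp h1 h2
  have hnorm : ∀ n, ‖exp (-(2 * I * al (φ n z₀)))‖ = Real.exp (2 * (al (φ n z₀)).im) := by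
    intro n
    rw [norm_exp]
    congr 1
    simp [mul_re, mul_im]
  constructor
  · intro C hC
    rcases key with ⟨N, h3, h4⟩ | ⟨-, h3⟩
    · exact hon_of 𝒰 h3 h4
    · exfalso
      obtain ⟨r, hr, h⟩ := h3 z₀ hz₀
      obtain ⟨n, hn1, hn2⟩ := ((h (Real.exp (2 * C) / 2) (by positivity)).and hC).exists
      have h5 := hn1 z₀ (mem_ball_self hr)
      rw [hnorm] at h5
      have h6 : Real.exp (2 * C) ≤ Real.exp (2 * (al (φ n z₀)).im) :=
        Real.exp_le_exp.mpr (by linarith)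
      have := Real.exp_pos (2 * C)
      linarith
  · intro ht
    rcases key with ⟨N, h3, h4⟩ | ⟨-, h3⟩
    · exfalso
      obtain ⟨r, hr, C, hC⟩ := h3 z₀ hz₀
      obtain ⟨n, hn1, hn2⟩ := (hC.and (ht.eventually_lt_atBot (-C))).exists
      have h5 := (abs_im_le_norm _).trans (hn1.2 z₀ (mem_ball_self hr))
      have e : (al (φ n z₀) - 2 * Real.pi * N n).im = (al (φ n z₀)).im := by simp [mul_im]
      rw [e] at h5
      have := (abs_le.mp h5).1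
      linarith
    · exact iso_of' 𝒰 h3 h2

end

end Vale.Agent.P097.H190.WO
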