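import Vale.Agent.P097.H190.PuC

/-! # P097 / ALG-PU: Puiseux, conclusion (helper190). -/

set_option linter.all false

open Complex Metric Filter Topology Set
open scoped ContDiff

namespace Vale.Agent.P097.H190

/-- the roots are bounded by the coefficients -/
theorem root_bound {d : ℕ} (hd : 1 ≤ d) (a : ℕ → ℂ → ℂ) (x Y : ℂ) (h : pv d a x Y = 0) :
    ‖a d x * Y‖ ≤ ∑ i ∈ Finset.range (d + 1), ‖a i x‖ := by
  obtain ⟨e, rfl⟩ : ∃ e, d = e + 1 := ⟨d - 1, by omega⟩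
  unfold pv at h
  rw [Finset.sum_range_succ] at h
  rw [Finset.sum_range_succ, norm_mul]
  set S := ∑ i ∈ Finset.range (e + 1), ‖a i x‖ with hS
  have hS0 : 0 ≤ S := Finset.sum_nonneg fun i _ => norm_nonneg _
  rcases le_or_gt ‖Y‖ 1 with h1 | h1
  · have : ‖a (e + 1) x‖ * ‖Y‖ ≤ ‖a (e + 1) x‖ * 1 :=
      mul_le_mul_of_nonneg_left h1 (norm_nonneg _)
    linarith
  · have e1 : a (e + 1) x * Y ^ (e + 1) = -∑ i ∈ Finset.range (e + 1), a i x * Y ^ i := by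
      linear_combination h
    have e2 : ‖a (e + 1) x * Y ^ (e + 1)‖ ≤ S * ‖Y‖ ^ e := by
      rw [e1, norm_neg, hS, Finset.sum_mul]
      refine (norm_sum_le _ _).trans (Finset.sum_le_sum fun i hi => ?_)
      rw [norm_mul, norm_pow]
      refine mul_le_mul_of_nonneg_left ?_ (norm_nonneg _)
      refine pow_le_pow_right₀ h1.le ?_
      have := Finset.mem_range.mp hi
      omega
    rw [norm_mul, norm_pow, pow_succ] at e2
    have hp : 0 < ‖Y‖ ^ e := by positivity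
    have e3 : (‖a (e + 1) x‖ * ‖Y‖) * ‖Y‖ ^ e ≤ S * ‖Y‖ ^ e := by
      calc (‖a (e + 1) x‖ * ‖Y‖) * ‖Y‖ ^ e = ‖a (e + 1) x‖ * (‖Y‖ ^ e * ‖Y‖) := by ring
        _ ≤ _ := e2
    have e4 := le_of_mul_le_mul_right e3 hp
    have := norm_nonneg (a (e + 1) x)
    linarith

theorem hp_congr {r : ℝ} {v w : ℂ} (h : v.re = w.re) (hw : w ∈ HP r) : v ∈ HP r := by
  show v.re < Real.log r
  rw [h]
  exact hw

theorem period_int {r : ℝ} {f : ℂ → ℂ} {N : ℕ}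
    (h : ∀ w ∈ HP r, f (w + N * (2 * Real.pi * I)) = f w) (k : ℤ) :
    ∀ w ∈ HP r, f (w + k * (N * (2 * Real.pi * I))) = f w := by
  have hnat : ∀ (n : ℕ), ∀ w ∈ HP r, f (w + n * (N * (2 * Real.pi * I))) = f w := by
    intro n
    induction n with
    | zero => intro w hw; simp
    | succ n ih =>
      intro w hw
      have e1 : w + ((n + 1 : ℕ) : ℂ) * (N * (2 * Real.pi * I)) =
          (w + n * (N * (2 * Real.pi * I))) + N * (2 * Real.pi * I) := by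
        push_cast; ring
      rw [e1, h _ (hp_congr (by simp) hw), ih w hw]
  intro w hw
  rcases Int.eq_nat_or_neg k with ⟨n, rfl | rfl⟩
  · have := hnat n w hw
    push_cast
    exact this
  · have hm : w + ((-(n : ℤ) : ℤ) : ℂ) * (N * (2 * Real.pi * I)) ∈ HP r :=
      hp_congr (by simp) hw
    have := hnat n _ hm
    rw [← this]
    congr 1
    push_cast
    ring

theorem puiseux {d : ℕ} {a : ℕ → ℂ → ℂ} {r : ℝ} (hd : 1 ≤ d) (A : AlgF d a r) :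
    ∃ (N : ℕ) (ε : ℝ) (k : Fin d → ℤ) (R : Fin d → ℂ → ℂ), 1 ≤ N ∧ 0 < ε ∧ ε ^ N ≤ r ∧
      (∀ j, DifferentiableOn ℂ (R j) (ball 0 ε)) ∧ (∀ j, ∀ ξ ∈ ball (0 : ℂ) ε, R j ξ ≠ 0) ∧
      ∀ ξ ∈ ball (0 : ℂ) ε, ξ ≠ 0 → ∀ Y,
        (pv d a (ξ ^ N) Y = 0 ↔ ∃ j, Y = ξ ^ (k j) * R j ξ) := by
  obtain ⟨Y, N, hN, hYd, hYr, hYp⟩ := global_roots hd A
  have hr := A.hr
  set e0 : ℝ := min 1 r with he0
  have he0p : 0 < e0 := lt_min one_pos hr
  have hNp : (0 : ℝ) < N := by exact_mod_cast hN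
  -- logarithms lie in the half plane
  have hlog : ∀ v : ℂ, ‖Complex.exp v‖ < e0 → (N : ℂ) * v ∈ HP r := by
    intro v hv
    show ((N : ℂ) * v).re < Real.log r
    have e1 : ((N : ℂ) * v).re = N * v.re := by simp
    rw [e1]
    rw [Complex.norm_exp] at hv
    have h1 : v.re < 0 := by
      have : Real.exp v.re < 1 := hv.trans_le (min_le_left _ _)
      exact Real.exp_lt_one_iff.mp this
    have h2 : v.re < Real.log r := by
      rw [Real.lt_log_iff_exp_lt hr]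
      exact hv.trans_le (min_le_right _ _)
    have h3 : (1 : ℝ) ≤ N := by exact_mod_cast hN
    nlinarith
  let G : Fin d → ℂ → ℂ := fun j ξ => Y j (N * Complex.log ξ)
  have hGv : ∀ j (v : ℂ), ‖Complex.exp v‖ < e0 → G j (Complex.exp v) = Y j (N * v) := by
    intro j v hv
    obtain ⟨n, hn⟩ := Complex.log_exp_exists v
    show Y j (N * Complex.log (Complex.exp v)) = Y j (N * v)
    rw [hn]
    have := period_int (hYp j) n _ (hlog v hv)
    rw [← this]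
    congr 1
    ring
  have hGroot : ∀ ξ ∈ ball (0 : ℂ) e0, ξ ≠ 0 → ∀ Z, pv d a (ξ ^ N) Z = 0 ↔ ∃ j, Z = G j ξ := by
    intro ξ hξ hξ0 Z
    have h1 : ‖Complex.exp (Complex.log ξ)‖ < e0 := by
      rw [Complex.exp_log hξ0]
      exact mem_ball_zero_iff.mp hξ
    have h2 := hYr _ (hlog _ h1) Z
    have h3 : Complex.exp (N * Complex.log ξ) = ξ ^ N := by
      rw [Complex.exp_nat_mul, Complex.exp_log hξ0]
    rw [h3] at h2
    exact h2
  have hGd : ∀ j, ∀ ξ ∈ ball (0 : ℂ) e0, ξ ≠ 0 → DifferentiableAt ℂ (G j) ξ := by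
    intro j ξ₀ hξ hξ0
    set v : ℂ → ℂ := fun ξ => Complex.log (ξ / ξ₀) + Complex.log ξ₀ with hv
    have hvd : DifferentiableAt ℂ v ξ₀ := by
      refine DifferentiableAt.add_const _ ?_
      refine DifferentiableAt.clog (differentiableAt_id.div_const ξ₀) ?_
      simp [div_self hξ0]
    have hv0 : v ξ₀ = Complex.log ξ₀ := by simp [hv, div_self hξ0]
    have hve : ∀ ξ, ξ ≠ 0 → Complex.exp (v ξ) = ξ := by
      intro ξ hξ'
      rw [hv]
      simp only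
      rw [Complex.exp_add, Complex.exp_log (div_ne_zero hξ' hξ0), Complex.exp_log hξ0]
      field_simp
    have ev1 : ∀ᶠ ξ in 𝓝 ξ₀, ξ ∈ ball (0 : ℂ) e0 := isOpen_ball.mem_nhds hξ
    have ev2 : ∀ᶠ ξ in 𝓝 ξ₀, ξ ≠ 0 := isOpen_compl_singleton.mem_nhds hξ0
    have ev : G j =ᶠ[𝓝 ξ₀] fun ξ => Y j (N * v ξ) := by
      filter_upwards [ev1, ev2] with ξ h1 h2
      have h3 : ‖Complex.exp (v ξ)‖ < e0 := by
        rw [hve ξ h2]
        exact mem_ball_zero_iff.mp h1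
      have h4 := hGv j (v ξ) h3
      rw [hve ξ h2] at h4
      exact h4
    have h5 : (N : ℂ) * v ξ₀ ∈ HP r := by
      refine hlog _ ?_
      rw [hve ξ₀ hξ0]
      exact mem_ball_zero_iff.mp hξ
    have h6 : DifferentiableAt ℂ (fun ξ => Y j (N * v ξ)) ξ₀ :=
      DifferentiableAt.comp ξ₀ (((hYd j).differentiableAt ((isOpen_HP r).mem_nhds h5)))
        (hvd.const_mul _)
    exact ev.differentiableAt_iff.mpr h6
  -- the coefficients at `ξ ^ N`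
  have hpow : ∀ ξ ∈ ball (0 : ℂ) e0, ξ ^ N ∈ ball (0 : ℂ) r := by
    intro ξ hξ
    rw [mem_ball_zero_iff] at hξ ⊢
    rw [norm_pow]
    have h1 : ‖ξ‖ ≤ 1 := (hξ.trans_le (min_le_left _ _)).le
    calc ‖ξ‖ ^ N ≤ ‖ξ‖ ^ 1 := pow_le_pow_of_le_one (norm_nonneg _) h1 hN
      _ = ‖ξ‖ := pow_one _
      _ < r := hξ.trans_le (min_le_right _ _)
  have hcoef : ∀ i, DifferentiableOn ℂ (fun ξ => a i (ξ ^ N)) (ball 0 e0) := fun i =>
    (A.an i).comp (differentiableOn_id.pow N) hpow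
  -- a bound near the origin
  have hbd : ∃ ρ > 0, ρ ≤ e0 ∧ ∃ M : ℝ, ∀ ξ ∈ ball (0 : ℂ) ρ,
      ∑ i ∈ Finset.range (d + 1), ‖a i (ξ ^ N)‖ ≤ M := by
    have hc : ContinuousAt (fun ξ : ℂ => ∑ i ∈ Finset.range (d + 1), ‖a i (ξ ^ N)‖) 0 := by
      refine tendsto_finset_sum _ fun i _ => ?_
      exact ((hcoef i).continuousOn.continuousAt (ball_mem_nhds _ he0p)).norm
    have h1 : ∀ᶠ ξ in 𝓝 (0 : ℂ), ∑ i ∈ Finset.range (d + 1), ‖a i (ξ ^ N)‖ <
        (∑ i ∈ Finset.range (d + 1), ‖a i (0 ^ N)‖) + 1 :=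
      hc.eventually (gt_mem_nhds (lt_add_one _))
    obtain ⟨ρ, hρ, hb⟩ := Metric.eventually_nhds_iff_ball.mp h1
    refine ⟨min ρ e0, lt_min hρ he0p, min_le_right _ _, _, fun ξ hξ => (hb ξ ?_).le⟩
    exact ball_subset_ball (min_le_left _ _) hξ
  obtain ⟨ρ, hρ, hρe, M, hM⟩ := hbd
  -- the root functions are meromorphic at the origin
  have hmer : ∀ j, MeromorphicAt (G j) 0 := by
    intro j
    set B : ℂ → ℂ := fun ξ => a d (ξ ^ N) * G j ξ with hB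
    have hBd : DifferentiableOn ℂ B (ball 0 ρ \ {0}) := by
      rintro ξ ⟨hξ, hξ0⟩
      have hξ' := ball_subset_ball hρe hξ
      exact (((hcoef d).differentiableAt (isOpen_ball.mem_nhds hξ')).mul
        (hGd j ξ hξ' hξ0)).differentiableWithinAt
    have hBb : BddAbove (norm ∘ B '' (ball 0 ρ \ {0})) := by
      refine ⟨M, ?_⟩
      rintro _ ⟨ξ, ⟨hξ, hξ0⟩, rfl⟩
      have hξ' := ball_subset_ball hρe hξ
      have h1 : pv d a (ξ ^ N) (G j ξ) = 0 := (hGroot ξ hξ' hξ0 _).mpr ⟨j, rfl⟩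
      exact (root_bound hd a _ _ h1).trans (hM ξ hξ)
    have h2 := Complex.differentiableOn_update_limUnder_of_bddAbove (ball_mem_nhds 0 hρ) hBd hBb
    have h3 : AnalyticAt ℂ (Function.update B 0 (limUnder (𝓝[≠] 0) B)) 0 :=
      h2.analyticAt (ball_mem_nhds 0 hρ)
    have h4 : AnalyticAt ℂ (fun ξ => a d (ξ ^ N)) 0 :=
      (hcoef d).analyticAt (ball_mem_nhds 0 he0p)
    have h5 : MeromorphicAt (fun ξ => Function.update B 0 (limUnder (𝓝[≠] 0) B) ξ /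
        a d (ξ ^ N)) 0 := h3.meromorphicAt.div h4.meromorphicAt
    refine h5.congr ?_
    have ev1 : ∀ᶠ ξ in 𝓝[≠] (0 : ℂ), ξ ∈ ball (0 : ℂ) e0 :=
      mem_nhdsWithin_of_mem_nhds (ball_mem_nhds 0 he0p)
    filter_upwards [ev1, self_mem_nhdsWithin] with ξ h6 h7
    have h7' : ξ ≠ 0 := h7
    have h8 : a d (ξ ^ N) ≠ 0 := A.lead _ (hpow ξ h6) (pow_ne_zero _ h7')
    rw [Function.update_of_ne h7', hB]
    field_simp
  have hGne : ∀ j, ∀ ξ ∈ ball (0 : ℂ) e0, ξ ≠ 0 → G j ξ ≠ 0 := by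
    intro j ξ hξ hξ0 h0
    have h1 : pv d a (ξ ^ N) (G j ξ) = 0 := (hGroot ξ hξ hξ0 _).mpr ⟨j, rfl⟩
    rw [h0] at h1
    have h2 : pv d a (ξ ^ N) 0 = a 0 (ξ ^ N) := by
      unfold pv
      rw [Finset.sum_range_succ']
      simp
    rw [h2] at h1
    exact A.low _ (hpow ξ hξ) (pow_ne_zero _ hξ0) h1
  have hfac : ∀ j, ∃ (k : ℤ) (g : ℂ → ℂ), AnalyticAt ℂ g 0 ∧ g 0 ≠ 0 ∧
      ∀ᶠ ξ in 𝓝[≠] (0 : ℂ), G j ξ = ξ ^ k * g ξ := by
    intro j
    have h1 : meromorphicOrderAt (G j) 0 ≠ ⊤ := by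
      rw [meromorphicOrderAt_ne_top_iff_eventually_ne_zero (hmer j)]
      have ev1 : ∀ᶠ ξ in 𝓝[≠] (0 : ℂ), ξ ∈ ball (0 : ℂ) e0 :=
        mem_nhdsWithin_of_mem_nhds (ball_mem_nhds 0 he0p)
      filter_upwards [ev1, self_mem_nhdsWithin] with ξ h6 h7
      exact hGne j ξ h6 h7
    obtain ⟨g, g1, g2, g3⟩ := (meromorphicOrderAt_ne_top_iff (hmer j)).mp h1
    refine ⟨(meromorphicOrderAt (G j) 0).untop₀, g, g1, g2, ?_⟩
    filter_upwards [g3] with ξ h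
    rw [h]
    simp
  choose k R hR1 hR2 hR3 using hfac
  have evA : ∀ᶠ ξ in 𝓝 (0 : ℂ), ∀ j, AnalyticAt ℂ (R j) ξ :=
    Filter.eventually_all.mpr fun j => (hR1 j).eventually_analyticAt
  have evB : ∀ᶠ ξ in 𝓝 (0 : ℂ), ∀ j, R j ξ ≠ 0 :=
    Filter.eventually_all.mpr fun j => (hR1 j).continuousAt.eventually_ne (hR2 j)
  have evC : ∀ᶠ ξ in 𝓝 (0 : ℂ), ∀ j, ξ ≠ 0 → G j ξ = ξ ^ (k j) * R j ξ :=
    Filter.eventually_all.mpr fun j => eventually_nhdsWithin_iff.mp (hR3 j)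
  obtain ⟨ε₁, hε₁, hb⟩ := Metric.eventually_nhds_iff_ball.mp (evA.and (evB.and evC))
  refine ⟨N, min ε₁ e0, k, R, hN, lt_min hε₁ he0p, ?_, ?_, ?_, ?_⟩
  · have h1 : 0 ≤ min ε₁ e0 := (lt_min hε₁ he0p).le
    have h2 : min ε₁ e0 ≤ 1 := (min_le_right _ _).trans (min_le_left _ _)
    calc min ε₁ e0 ^ N ≤ min ε₁ e0 ^ 1 := pow_le_pow_of_le_one h1 h2 hN
      _ = min ε₁ e0 := pow_one _
      _ ≤ r := (min_le_right _ _).trans (min_le_right _ _)
  · intro j ξ hξ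
    exact ((hb ξ (ball_subset_ball (min_le_left _ _) hξ)).1 j).differentiableAt.differentiableWithinAt
  · intro j ξ hξ
    exact (hb ξ (ball_subset_ball (min_le_left _ _) hξ)).2.1 j
  · intro ξ hξ hξ0 Z
    have h1 := (hb ξ (ball_subset_ball (min_le_left _ _) hξ)).2.2
    rw [hGroot ξ (ball_subset_ball (min_le_right _ _) hξ) hξ0 Z]
    constructor
    · rintro ⟨j, hj⟩
      exact ⟨j, hj.trans (h1 j hξ0)⟩
    · rintro ⟨j, hj⟩
      exact ⟨j, hj.trans (h1 j hξ0).symm⟩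

end Vale.Agent.P097.H190
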