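import Vale.Agent.P097.H402.Alg.Defs
import Vale.Agent.P097.H190.PuD

/-! # P097 / ALG-PU: Puiseux (helper190). -/

set_option linter.all false

namespace Vale.Agent.P097.H190

/-- ALG-PU -/
theorem ppu : Vale.Agent.P097.Alg.PPU := by
  intro d a r hd A
  exact puiseux hd ⟨A.hr, A.an, A.lead, A.low, A.sep⟩

end Vale.Agent.P097.H190
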