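import Vale.Agent.P097.H190.Seq5
import Vale.Agent.P097.H365.PW.Pw
import Vale.Agent.P097.H320.W5.StInst

/-!
# P097 / case [c]: `A5.PW` from the bridge alone
-/

set_option linter.all false

namespace Vale.Agent.P097.H190

/-- block (W) over the comparison `Brg` only -/
theorem pw_of_brg (hB : H226.W.Brg) : A5.PW :=
  SQ.fin H365.PW.pw H320.W.inst hB

end Vale.Agent.P097.H190
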