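import Mathlib

/-! # P097 / ALG-PU: Puiseux, local part (helper190). -/

set_option linter.all false

open Complex Metric Filter Topology Set
open scoped ContDiff

namespace Vale.Agent.P097.H190

/-- value of the polynomial with coefficients `a i` -/
noncomputable def pv (d : ℕ) (a : ℕ → ℂ → ℂ) (x Y : ℂ) : ℂ :=
  ∑ i ∈ Finset.range (d + 1), a i x * Y ^ i

/-- derivative of the polynomial with coefficients `a i` -/
noncomputable def pv' (d : ℕ) (a : ℕ → ℂ → ℂ) (x Y : ℂ) : ℂ :=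
  ∑ i ∈ Finset.range (d + 1), i * a i x * Y ^ (i - 1)

theorem hasDerivAt_pv (d : ℕ) (a : ℕ → ℂ → ℂ) (x Y : ℂ) :
    HasDerivAt (fun Y => pv d a x Y) (pv' d a x Y) Y := by
  unfold pv pv'
  have h : ∀ i ∈ Finset.range (d + 1), HasDerivAt (fun Y : ℂ => a i x * Y ^ i)
      (i * a i x * Y ^ (i - 1)) Y := by
    intro i _
    have := (hasDerivAt_pow i Y).const_mul (a i x)
    refine this.congr_deriv (by ring)
  exact HasDerivAt.fun_sum h

/-- implicit function theorem for a simple root -/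
theorem implicit_root {d : ℕ} {a : ℕ → ℂ → ℂ} {x₀ Y₀ : ℂ} (ha : ∀ i, AnalyticAt ℂ (a i) x₀)
    (h0 : pv d a x₀ Y₀ = 0) (h1 : pv' d a x₀ Y₀ ≠ 0) :
    ∃ y : ℂ → ℂ, AnalyticAt ℂ y x₀ ∧ y x₀ = Y₀ ∧ ∀ᶠ x in 𝓝 x₀, pv d a x (y x) = 0 := by
  set f : ℂ × ℂ → ℂ := fun q => pv d a q.1 q.2 with hfdef
  have hf : AnalyticAt ℂ f (x₀, Y₀) := by
    have h : ∀ i ∈ Finset.range (d + 1), AnalyticAt ℂ (fun q : ℂ × ℂ => a i q.1 * q.2 ^ i)
        (x₀, Y₀) := by
      intro i _
      exact ((ha i).comp_of_eq analyticAt_fst rfl).mul (analyticAt_snd.pow i)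
    have := Finset.analyticAt_fun_sum (Finset.range (d + 1)) h
    exact this
  have cdf : ContDiffAt ℂ ω f (x₀, Y₀) := hf.contDiffAt
  have hd : HasFDerivAt f (fderiv ℂ f (x₀, Y₀)) (x₀, Y₀) :=
    hf.differentiableAt.hasFDerivAt
  have key : fderiv ℂ f (x₀, Y₀) ∘L .inr ℂ ℂ ℂ =
      ContinuousLinearMap.toSpanSingleton ℂ (pv' d a x₀ Y₀) := by
    have e1 : HasFDerivAt (fun Y : ℂ => (x₀, Y)) (.inr ℂ ℂ ℂ : ℂ →L[ℂ] ℂ × ℂ) Y₀ :=
      hasFDerivAt_prodMk_right x₀ Y₀
    have e2 : HasFDerivAt (fun Y => f (x₀, Y)) (fderiv ℂ f (x₀, Y₀) ∘L .inr ℂ ℂ ℂ) Y₀ :=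
      HasFDerivAt.comp Y₀ (f := fun Y : ℂ => (x₀, Y)) hd e1
    have e3 : HasFDerivAt (fun Y => f (x₀, Y))
        (ContinuousLinearMap.toSpanSingleton ℂ (pv' d a x₀ Y₀)) Y₀ :=
      (hasDerivAt_pv d a x₀ Y₀).hasFDerivAt
    exact e2.unique e3
  have if2 : (fderiv ℂ f (x₀, Y₀) ∘L .inr ℂ ℂ ℂ).IsInvertible := by
    rw [key]
    refine ⟨ContinuousLinearEquiv.unitsEquivAut ℂ (Units.mk0 _ h1), ?_⟩
    ext
    simp
  refine ⟨cdf.implicitFunction (by simp) if2, ?_, ?_, ?_⟩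
  · have := cdf.contDiffAt_implicitFunction (by simp) if2
    exact this.analyticAt
  · exact cdf.implicitFunction_apply_self (by simp) if2
  · have := cdf.eventually_apply_implicitFunction (by simp) if2
    filter_upwards [this] with x hx
    have h2 : f (x₀, Y₀) = 0 := h0
    rw [h2] at hx
    exact hx

open Polynomial in
/-- the polynomial over a point -/
noncomputable def px (d : ℕ) (a : ℕ → ℂ → ℂ) (x : ℂ) : ℂ[X] :=
  ∑ i ∈ Finset.range (d + 1), C (a i x) * X ^ i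

theorem eval_px (d : ℕ) (a : ℕ → ℂ → ℂ) (x Y : ℂ) : (px d a x).eval Y = pv d a x Y := by
  unfold px pv
  simp [Polynomial.eval_finset_sum]

theorem eval_derivative_px (d : ℕ) (a : ℕ → ℂ → ℂ) (x Y : ℂ) :
    (Polynomial.derivative (px d a x)).eval Y = pv' d a x Y := by
  have h1 : HasDerivAt (fun Y => (px d a x).eval Y) ((Polynomial.derivative (px d a x)).eval Y) Y :=
    (px d a x).hasDerivAt Y
  have h2 : (fun Y => (px d a x).eval Y) = fun Y => pv d a x Y := funext fun Y => eval_px d a x Y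
  rw [h2] at h1
  exact h1.unique (hasDerivAt_pv d a x Y)

theorem coeff_px (d : ℕ) (a : ℕ → ℂ → ℂ) (x : ℂ) (n : ℕ) (hn : n ≤ d) :
    (px d a x).coeff n = a n x := by
  unfold px
  simp only [Polynomial.finset_sum_coeff, Polynomial.coeff_C_mul, Polynomial.coeff_X_pow]
  rw [Finset.sum_eq_single n]
  · simp
  · intro b _ hb
    simp [Ne.symm hb]
  · intro h
    exact absurd (Finset.mem_range.mpr (by omega)) h

theorem natDegree_px_le (d : ℕ) (a : ℕ → ℂ → ℂ) (x : ℂ) : (px d a x).natDegree ≤ d := by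
  unfold px
  refine Polynomial.natDegree_sum_le_of_forall_le _ _ ?_
  intro i hi
  refine (Polynomial.natDegree_C_mul_X_pow_le _ _).trans ?_
  have := Finset.mem_range.mp hi
  omega

theorem natDegree_px (d : ℕ) (a : ℕ → ℂ → ℂ) (x : ℂ) (h : a d x ≠ 0) :
    (px d a x).natDegree = d := by
  refine le_antisymm (natDegree_px_le d a x) ?_
  refine Polynomial.le_natDegree_of_ne_zero ?_
  rw [coeff_px d a x d le_rfl]
  exact h

theorem px_ne_zero (d : ℕ) (a : ℕ → ℂ → ℂ) (x : ℂ) (h : a d x ≠ 0) : px d a x ≠ 0 := by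
  intro h0
  have := coeff_px d a x d le_rfl
  rw [h0] at this
  exact h this.symm

theorem roots_nodup {d : ℕ} {a : ℕ → ℂ → ℂ} {x : ℂ} (h : a d x ≠ 0)
    (hs : ∀ Y, pv d a x Y = 0 → pv' d a x Y ≠ 0) : (px d a x).roots.Nodup := by
  rw [Multiset.nodup_iff_count_le_one]
  intro Y
  rw [Polynomial.count_roots]
  by_contra hcon
  push Not at hcon
  rw [Polynomial.one_lt_rootMultiplicity_iff_isRoot (px_ne_zero d a x h)] at hcon
  obtain ⟨h1, h2⟩ := hcon
  rw [Polynomial.IsRoot.def, eval_px] at h1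
  rw [Polynomial.IsRoot.def, eval_derivative_px] at h2
  exact hs Y h1 h2

/-- there are exactly `d` roots -/
theorem roots_fin {d : ℕ} {a : ℕ → ℂ → ℂ} {x : ℂ} (h : a d x ≠ 0)
    (hs : ∀ Y, pv d a x Y = 0 → pv' d a x Y ≠ 0) :
    ∃ y : Fin d → ℂ, Function.Injective y ∧ ∀ Y, pv d a x Y = 0 ↔ ∃ j, Y = y j := by
  classical
  have hc : (px d a x).roots.toFinset.card = d := by
    rw [Multiset.toFinset_card_of_nodup (roots_nodup h hs)]
    have h1 := (Polynomial.splits_iff_card_roots (f := px d a x)).mp (IsAlgClosed.splits _)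
    rw [h1, natDegree_px d a x h]
  let e := (Finset.equivFinOfCardEq hc).symm
  refine ⟨fun j => (e j : ℂ), ?_, ?_⟩
  · intro i j hij
    exact e.injective (Subtype.ext hij)
  · intro Y
    constructor
    · intro hY
      have hm : Y ∈ (px d a x).roots.toFinset := by
        rw [Multiset.mem_toFinset, Polynomial.mem_roots (px_ne_zero d a x h),
          Polynomial.IsRoot.def, eval_px]
        exact hY
      exact ⟨e.symm ⟨Y, hm⟩, by simp⟩
    · rintro ⟨j, rfl⟩
      have hm : (e j : ℂ) ∈ (px d a x).roots.toFinset := (e j).2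
      rw [Multiset.mem_toFinset, Polynomial.mem_roots (px_ne_zero d a x h),
          Polynomial.IsRoot.def, eval_px] at hm
      exact hm

/-- `d` different roots are all the roots -/
theorem roots_all {d : ℕ} {a : ℕ → ℂ → ℂ} {x : ℂ} (h : a d x ≠ 0) {y : Fin d → ℂ}
    (hy : Function.Injective y) (h0 : ∀ j, pv d a x (y j) = 0) {Y : ℂ} (hY : pv d a x Y = 0) :
    ∃ j, Y = y j := by
  classical
  by_contra hcon
  push Not at hcon
  have hsub : insert Y (Finset.univ.image y) ⊆ (px d a x).roots.toFinset := by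
    intro Z hZ
    rw [Multiset.mem_toFinset, Polynomial.mem_roots (px_ne_zero d a x h),
          Polynomial.IsRoot.def, eval_px]
    rcases Finset.mem_insert.mp hZ with rfl | hZ
    · exact hY
    · obtain ⟨j, _, rfl⟩ := Finset.mem_image.mp hZ
      exact h0 j
  have h1 := Finset.card_le_card hsub
  have h2 : (insert Y (Finset.univ.image y)).card = d + 1 := by
    rw [Finset.card_insert_of_notMem, Finset.card_image_of_injective _ hy, Finset.card_univ,
      Fintype.card_fin]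
    intro hm
    obtain ⟨j, _, hj⟩ := Finset.mem_image.mp hm
    exact hcon j hj.symm
  have h3 : (px d a x).roots.toFinset.card ≤ d :=
    (Multiset.toFinset_card_le _).trans
      ((Polynomial.card_roots' _).trans (natDegree_px_le d a x))
  omega

/-- a polynomial of degree `d` with analytic coefficients, without zero and multiple roots over the
punctured disc -/
structure AlgF (d : ℕ) (a : ℕ → ℂ → ℂ) (r : ℝ) : Prop where
  hr : 0 < r
  an : ∀ i, DifferentiableOn ℂ (a i) (ball 0 r)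
  lead : ∀ x ∈ ball (0 : ℂ) r, x ≠ 0 → a d x ≠ 0
  low : ∀ x ∈ ball (0 : ℂ) r, x ≠ 0 → a 0 x ≠ 0
  sep : ∀ x ∈ ball (0 : ℂ) r, x ≠ 0 → ∀ Y, pv d a x Y = 0 → pv' d a x Y ≠ 0

/-- local sections -/
theorem local_roots {d : ℕ} {a : ℕ → ℂ → ℂ} {r : ℝ} (A : AlgF d a r) {x₀ : ℂ}
    (hx : x₀ ∈ ball (0 : ℂ) r) (hx0 : x₀ ≠ 0) :
    ∃ V : Set ℂ, IsOpen V ∧ x₀ ∈ V ∧ V ⊆ ball 0 r ∩ {0}ᶜ ∧ ∃ y : Fin d → ℂ → ℂ,
      (∀ j, DifferentiableOn ℂ (y j) V) ∧ (∀ x ∈ V, Function.Injective fun j => y j x) ∧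
      ∀ x ∈ V, ∀ Y, pv d a x Y = 0 ↔ ∃ j, Y = y j x := by
  obtain ⟨y0, hy0, hroots⟩ := roots_fin (A.lead x₀ hx hx0) (A.sep x₀ hx hx0)
  have han : ∀ i, AnalyticAt ℂ (a i) x₀ := fun i =>
    (A.an i).analyticAt (isOpen_ball.mem_nhds hx)
  have hex : ∀ j : Fin d, ∃ y : ℂ → ℂ, AnalyticAt ℂ y x₀ ∧ y x₀ = y0 j ∧
      ∀ᶠ x in 𝓝 x₀, pv d a x (y x) = 0 := by
    intro j
    have h0 : pv d a x₀ (y0 j) = 0 := (hroots _).mpr ⟨j, rfl⟩
    exact implicit_root han h0 (A.sep x₀ hx hx0 _ h0)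
  choose y hya hyv hyr using hex
  have ev1 : ∀ᶠ x in 𝓝 x₀, ∀ j, AnalyticAt ℂ (y j) x :=
    Filter.eventually_all.mpr fun j => (hya j).eventually_analyticAt
  have ev2 : ∀ᶠ x in 𝓝 x₀, ∀ j, pv d a x (y j x) = 0 :=
    Filter.eventually_all.mpr fun j => hyr j
  have ev3 : ∀ᶠ x in 𝓝 x₀, ∀ i j, i ≠ j → y i x ≠ y j x := by
    refine Filter.eventually_all.mpr fun i => Filter.eventually_all.mpr fun j => ?_
    by_cases hij : i = j
    · exact Filter.Eventually.of_forall fun x h => absurd hij h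
    · have h1 : y i x₀ ≠ y j x₀ := by
        rw [hyv, hyv]
        exact fun h => hij (hy0 h)
      have h2 : ∀ᶠ x in 𝓝 x₀, y i x ≠ y j x :=
        ((hya i).continuousAt.prodMk (hya j).continuousAt).eventually
          (isClosed_diagonal.isOpen_compl.mem_nhds (by simpa using h1))
      filter_upwards [h2] with x hx _
      exact hx
  have ev4 : ∀ᶠ x in 𝓝 x₀, x ∈ ball (0 : ℂ) r ∩ {0}ᶜ :=
    (isOpen_ball.inter isOpen_compl_singleton).mem_nhds ⟨hx, hx0⟩
  obtain ⟨V, hV, hVo, hxV⟩ := _root_.eventually_nhds_iff.mp (ev1.and (ev2.and (ev3.and ev4)))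
  refine ⟨V, hVo, hxV, fun x hxx => (hV x hxx).2.2.2, y, ?_, ?_, ?_⟩
  · intro j x hxx
    exact ((hV x hxx).1 j).differentiableAt.differentiableWithinAt
  · intro x hxx i j hij
    by_contra hne
    exact (hV x hxx).2.2.1 i j hne hij
  · intro x hxx Y
    obtain ⟨h1, h2, h3, h4, h5⟩ := hV x hxx
    constructor
    · intro hY
      refine roots_all (A.lead x h4 h5) (y := fun j => y j x) ?_ h2 hY
      intro i j hij
      by_contra hne
      exact h3 i j hne hij
    · rintro ⟨j, rfl⟩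
      exact h2 j

end Vale.Agent.P097.H190
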