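import Vale.Agent.P097.H190.PuA

/-! # P097 / ALG-PU: Puiseux, the covering (helper190). -/

set_option linter.all false

open Complex Metric Filter Topology Set
open scoped ContDiff

namespace Vale.Agent.P097.H190

/-- the curve -/
def Cur (d : ℕ) (a : ℕ → ℂ → ℂ) : Type := {q : ℂ × ℂ // pv d a q.1 q.2 = 0}

instance (d : ℕ) (a : ℕ → ℂ → ℂ) : TopologicalSpace (Cur d a) :=
  inferInstanceAs (TopologicalSpace {q : ℂ × ℂ // pv d a q.1 q.2 = 0})

/-- the projection of the curve -/
def prC (d : ℕ) (a : ℕ → ℂ → ℂ) : Cur d a → ℂ := fun q => q.1.1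

theorem continuous_val (d : ℕ) (a : ℕ → ℂ → ℂ) :
    Continuous (fun q : Cur d a => (q.1 : ℂ × ℂ)) := continuous_subtype_val

theorem isOpen_cur_iff (d : ℕ) (a : ℕ → ℂ → ℂ) (O : Set (Cur d a)) :
    IsOpen O ↔ ∃ O' : Set (ℂ × ℂ), IsOpen O' ∧ (fun q : Cur d a => (q.1 : ℂ × ℂ)) ⁻¹' O' = O :=
  isOpen_induced_iff

theorem covering {d : ℕ} {a : ℕ → ℂ → ℂ} {r : ℝ} (hd : 1 ≤ d) (A : AlgF d a r) :
    IsCoveringMapOn (prC d a) (ball 0 r ∩ {0}ᶜ) := by
  rintro x₀ ⟨hx, hx0⟩
  obtain ⟨V, hVo, hxV, hVs, y, hyd, hyi, hyr⟩ := local_roots A hx hx0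
  have hne : Nonempty (Fin d) := ⟨⟨0, hd⟩⟩
  have hmem : ∀ x ∈ V, ∀ j, pv d a x (y j x) = 0 := fun x hx j => (hyr x hx _).mpr ⟨j, rfl⟩
  have hneC : Nonempty (Cur d a) := ⟨⟨(x₀, y ⟨0, hd⟩ x₀), hmem x₀ hxV _⟩⟩
  have hneF : Nonempty (ℂ → Cur d a) := ⟨fun _ => Classical.choice hneC⟩
  let U : Fin d → Set (Cur d a) := fun j => {e | e.1.1 ∈ V ∧ e.1.2 = y j e.1.1}
  have hUinj : ∀ i, (U i).InjOn (prC d a) := by
    intro i e he e' he' h
    have h1 : e.1.1 = e'.1.1 := h
    apply Subtype.ext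
    refine Prod.ext h1 ?_
    rw [he.2, he'.2, h1]
  have hUsurj : ∀ i, (U i).SurjOn (prC d a) V := by
    intro i x hxx
    exact ⟨⟨(x, y i x), hmem x hxx i⟩, ⟨hxx, rfl⟩, rfl⟩
  have hUdisj : Pairwise (Function.onFun Disjoint U) := by
    intro i j hij
    rw [Function.onFun, Set.disjoint_left]
    rintro e ⟨he1, he2⟩ ⟨_, he3⟩
    exact hij (hyi _ he1 (he2.symm.trans he3))
  have hUex : prC d a ⁻¹' V ⊆ ⋃ i, U i := by
    intro e he
    have he' : e.1.1 ∈ V := he
    obtain ⟨j, hj⟩ := (hyr _ he' e.1.2).mp e.2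
    exact Set.mem_iUnion.mpr ⟨j, he', hj⟩
  have hcont : Continuous (prC d a) := continuous_fst.comp (continuous_val d a)
  have hopen : ∀ i {W}, W ⊆ V → (IsOpen W ↔ IsOpen (prC d a ⁻¹' W ∩ U i)) := by
    intro i W hW
    constructor
    · intro hWo
      have e1 : prC d a ⁻¹' W ∩ U i =
          ⋂ j, (prC d a ⁻¹' W ∩ {e | j = i ∨ e.1.2 - y j e.1.1 ≠ 0}) := by
        ext e
        constructor
        · rintro ⟨h1, h2, h3⟩
          refine Set.mem_iInter.mpr fun j => ⟨h1, ?_⟩
          by_cases hji : j = i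
          · exact Or.inl hji
          · right
            intro h0
            have h4 : y j e.1.1 = y i e.1.1 := by
              rw [← h3]
              exact (sub_eq_zero.mp h0).symm
            exact hji (hyi _ h2 h4)
        · intro h
          have h1 := fun j => Set.mem_iInter.mp h j
          have h2 : e.1.1 ∈ W := (h1 i).1
          obtain ⟨j, hj⟩ := (hyr _ (hW h2) e.1.2).mp e.2
          have hji : j = i := by
            rcases (h1 j).2 with h3 | h3
            · exact h3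
            · exact absurd (sub_eq_zero.mpr hj) h3
          refine ⟨h2, hW h2, ?_⟩
          rw [← hji]
          exact hj
      rw [e1]
      refine isOpen_iInter_of_finite fun j => ?_
      by_cases hji : j = i
      · have : {e : Cur d a | j = i ∨ e.1.2 - y j e.1.1 ≠ 0} = univ := by
          ext e; simp [hji]
        rw [this, Set.inter_univ]
        exact hWo.preimage hcont
      · have e2 : {e : Cur d a | j = i ∨ e.1.2 - y j e.1.1 ≠ 0} =
            (fun e : Cur d a => e.1.2 - y j e.1.1) ⁻¹' {0}ᶜ := by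
          ext e; simp [hji]
        rw [e2]
        have hc : ContinuousOn (fun e : Cur d a => e.1.2 - y j e.1.1) (prC d a ⁻¹' W) := by
          refine (continuous_snd.comp (continuous_val d a)).continuousOn.sub ?_
          exact ((hyd j).continuousOn.mono hW).comp hcont.continuousOn (fun e he => he)
        exact hc.isOpen_inter_preimage (hWo.preimage hcont) isOpen_compl_singleton
    · intro hO
      obtain ⟨O', hO', hO'eq⟩ := (isOpen_cur_iff d a _).mp hO
      have e1 : W = V ∩ (fun x => (x, y i x)) ⁻¹' O' := by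
        ext x
        constructor
        · intro hxW
          refine ⟨hW hxW, ?_⟩
          have h1 : (⟨(x, y i x), hmem x (hW hxW) i⟩ : Cur d a) ∈ prC d a ⁻¹' W ∩ U i :=
            ⟨hxW, hW hxW, rfl⟩
          rw [← hO'eq] at h1
          exact h1
        · rintro ⟨hxV', hxO⟩
          have h1 : (⟨(x, y i x), hmem x hxV' i⟩ : Cur d a) ∈
              (fun q : Cur d a => (q.1 : ℂ × ℂ)) ⁻¹' O' := hxO
          rw [hO'eq] at h1
          exact h1.1
      rw [e1]
      exact (continuousOn_id.prodMk (hyd i).continuousOn).isOpen_inter_preimage hVo hO'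
  refine (IsEvenlyCovered.of_trivialization (t := hVo.trivializationDiscrete U V
    (fun i W hW => hopen i hW) hUinj hUsurj hUdisj hUex) ?_).to_isEvenlyCovered_preimage
  exact hxV

/-- the half plane over the punctured disc -/
def HP (r : ℝ) : Set ℂ := {w | w.re < Real.log r}

theorem isOpen_HP (r : ℝ) : IsOpen (HP r) := isOpen_lt Complex.continuous_re continuous_const

theorem convex_HP (r : ℝ) : Convex ℝ (HP r) := convex_halfSpace_re_lt _

theorem exp_mem {r : ℝ} (hr : 0 < r) {w : ℂ} (hw : w ∈ HP r) :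
    Complex.exp w ∈ ball (0 : ℂ) r ∩ {0}ᶜ := by
  refine ⟨?_, Complex.exp_ne_zero w⟩
  rw [mem_ball_zero_iff, Complex.norm_exp]
  have : w.re < Real.log r := hw
  calc Real.exp w.re < Real.exp (Real.log r) := Real.exp_lt_exp.mpr this
    _ = r := Real.exp_log hr

instance (r : ℝ) : LocallyPathConnectedSpace (HP r) := (isOpen_HP r).locallyPathConnectedSpace

theorem hp_nonempty (r : ℝ) : (HP r).Nonempty := by
  refine ⟨((Real.log r - 1 : ℝ) : ℂ), ?_⟩
  show ((Real.log r - 1 : ℝ) : ℂ).re < Real.log r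
  rw [Complex.ofReal_re]
  linarith

instance (r : ℝ) : SimplyConnectedSpace (HP r) := by
  have := (convex_HP r).contractibleSpace (hp_nonempty r)
  infer_instance

/-- the exponential map to the plane -/
noncomputable def expH (r : ℝ) : C(HP r, ℂ) := ⟨fun w => Complex.exp w, by fun_prop⟩

/-- global sections over the half plane: existence and uniqueness -/
theorem lift_exists {d : ℕ} {a : ℕ → ℂ → ℂ} {r : ℝ} (hd : 1 ≤ d) (A : AlgF d a r) (w₀ : HP r)
    (Y₀ : ℂ) (h : pv d a (Complex.exp w₀) Y₀ = 0) :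
    ∃! F : C(HP r, Cur d a), F w₀ = ⟨(Complex.exp w₀, Y₀), h⟩ ∧ prC d a ∘ F = expH r :=
  (covering hd A).existsUnique_continuousMap_lifts (expH r) (a₀ := w₀)
    (e₀ := ⟨(Complex.exp w₀, Y₀), h⟩) rfl fun w => exp_mem A.hr w.2

end Vale.Agent.P097.H190
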