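import Vale.Agent.P097.H190.PuB

/-! # P097 / ALG-PU: Puiseux, the root functions on the half plane (helper190). -/

set_option linter.all false

open Complex Metric Filter Topology Set
open scoped ContDiff

namespace Vale.Agent.P097.H190

theorem hp_add {r : ℝ} {w : ℂ} (hw : w ∈ HP r) : w + 2 * Real.pi * I ∈ HP r := by
  show (w + 2 * Real.pi * I).re < Real.log r
  have : (w + 2 * Real.pi * I).re = w.re := by simp
  rw [this]
  exact hw

/-- the root functions on the half plane, with their monodromy -/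
theorem global_roots0 {d : ℕ} {a : ℕ → ℂ → ℂ} {r : ℝ} (hd : 1 ≤ d) (A : AlgF d a r) :
    ∃ (Y : Fin d → ℂ → ℂ) (π : Fin d → Fin d), (∀ j, DifferentiableOn ℂ (Y j) (HP r)) ∧
      (∀ w ∈ HP r, Function.Injective fun j => Y j w) ∧
      (∀ w ∈ HP r, ∀ Z, pv d a (Complex.exp w) Z = 0 ↔ ∃ j, Z = Y j w) ∧
      (∀ j, ∀ w ∈ HP r, Y j (w + 2 * Real.pi * I) = Y (π j) w) := by
  classical
  obtain ⟨w₀', hw₀⟩ := hp_nonempty r
  let w₀ : HP r := ⟨w₀', hw₀⟩
  obtain ⟨hx, hx0⟩ := exp_mem A.hr hw₀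
  obtain ⟨y0, hy0, hroots⟩ := roots_fin (A.lead _ hx hx0) (A.sep _ hx hx0)
  have h0 : ∀ j, pv d a (Complex.exp w₀) (y0 j) = 0 := fun j => (hroots _).mpr ⟨j, rfl⟩
  choose F hF hFu using fun j => lift_exists hd A w₀ (y0 j) (h0 j)
  have hF1 : ∀ j, F j w₀ = ⟨(Complex.exp w₀, y0 j), h0 j⟩ := fun j => (hF j).1
  have hF2 : ∀ j (w : HP r), (F j w).1.1 = Complex.exp w := by
    intro j w
    have := congrFun (hF j).2 w
    exact this
  -- two lifts which agree at a point agree everywhere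
  have huniq : ∀ (G G' : C(HP r, Cur d a)), prC d a ∘ G = expH r → prC d a ∘ G' = expH r →
      ∀ w : HP r, G w = G' w → G = G' := by
    intro G G' hG hG' w hw
    have h1 : (G w).1.1 = Complex.exp w := congrFun hG w
    have h2 : pv d a (Complex.exp w) (G w).1.2 = 0 := by
      rw [← h1]
      exact (G w).2
    obtain ⟨K, hK, hKu⟩ := lift_exists hd A w (G w).1.2 h2
    have e1 : G w = ⟨(Complex.exp w, (G w).1.2), h2⟩ := by
      apply Subtype.ext
      exact Prod.ext h1 rfl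
    have g1 := hKu G ⟨e1, hG⟩
    have g2 := hKu G' ⟨hw ▸ e1, hG'⟩
    rw [g1, g2]
  let Y : Fin d → ℂ → ℂ := fun j w => if h : w ∈ HP r then (F j ⟨w, h⟩).1.2 else 0
  have hY : ∀ j (w : ℂ) (h : w ∈ HP r), Y j w = (F j ⟨w, h⟩).1.2 := fun j w h => dif_pos h
  have hYr : ∀ j (w : ℂ) (h : w ∈ HP r), pv d a (Complex.exp w) (Y j w) = 0 := by
    intro j w h
    rw [hY j w h, ← hF2 j ⟨w, h⟩]
    exact (F j ⟨w, h⟩).2
  have hYi : ∀ w ∈ HP r, Function.Injective fun j => Y j w := by
    intro w hw i j hij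
    have h1 : (F i ⟨w, hw⟩).1.2 = (F j ⟨w, hw⟩).1.2 := by
      rw [← hY i w hw, ← hY j w hw]
      exact hij
    have h2 : F i ⟨w, hw⟩ = F j ⟨w, hw⟩ := by
      apply Subtype.ext
      exact Prod.ext ((hF2 i _).trans (hF2 j _).symm) h1
    have h3 := huniq (F i) (F j) (hF i).2 (hF j).2 _ h2
    have h4 : F i w₀ = F j w₀ := by rw [h3]
    rw [hF1, hF1] at h4
    have h5 : y0 i = y0 j := congrArg (fun q : Cur d a => q.1.2) h4
    exact hy0 h5
  have hYall : ∀ w ∈ HP r, ∀ Z, pv d a (Complex.exp w) Z = 0 ↔ ∃ j, Z = Y j w := by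
    intro w hw Z
    constructor
    · intro hZ
      obtain ⟨g1, g2⟩ := exp_mem A.hr hw
      exact roots_all (A.lead _ g1 g2) (hYi w hw) (fun j => hYr j w hw) hZ
    · rintro ⟨j, rfl⟩
      exact hYr j w hw
  -- continuity and differentiability
  have hYc : ∀ j, ContinuousOn (Y j) (HP r) := by
    intro j
    rw [continuousOn_iff_continuous_restrict]
    refine ((continuous_snd.comp (continuous_val d a)).comp (F j).continuous).congr ?_
    intro w
    exact (hY j w w.2).symm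
  have hYd : ∀ j, DifferentiableOn ℂ (Y j) (HP r) := by
    intro j w hw
    obtain ⟨g1, g2⟩ := exp_mem A.hr hw
    obtain ⟨V, hVo, hxV, hVs, y, hyd, hyi, hyr⟩ := local_roots A g1 g2
    obtain ⟨i, hi⟩ := (hyr _ hxV _).mp (hYr j w hw)
    have hexpc : ContinuousAt Complex.exp w := Complex.continuous_exp.continuousAt
    have hyc : ∀ l, ContinuousAt (fun v => y l (Complex.exp v)) w := by
      intro l
      exact ContinuousAt.comp (f := Complex.exp) (((hyd l).continuousOn).continuousAt (hVo.mem_nhds hxV)) hexpc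
    have hYcw : ContinuousAt (Y j) w := (hYc j).continuousAt ((isOpen_HP r).mem_nhds hw)
    have ev1 : ∀ᶠ v in 𝓝 w, ∀ l, l ≠ i → Y j v ≠ y l (Complex.exp v) := by
      refine Filter.eventually_all.mpr fun l => ?_
      by_cases hl : l = i
      · exact Filter.Eventually.of_forall fun v h => absurd hl h
      · have hne : Y j w ≠ y l (Complex.exp w) := by
          rw [hi]
          exact fun h => hl (hyi _ hxV h.symm)
        have h2 : ∀ᶠ v in 𝓝 w, Y j v ≠ y l (Complex.exp v) :=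
          (hYcw.prodMk (hyc l)).eventually
            (isClosed_diagonal.isOpen_compl.mem_nhds (by simpa using hne))
        filter_upwards [h2] with v hv _
        exact hv
    have ev2 : ∀ᶠ v in 𝓝 w, Complex.exp v ∈ V := hexpc.eventually (hVo.mem_nhds hxV)
    have ev3 : ∀ᶠ v in 𝓝 w, v ∈ HP r := (isOpen_HP r).mem_nhds hw
    have ev : Y j =ᶠ[𝓝 w] fun v => y i (Complex.exp v) := by
      filter_upwards [ev1, ev2, ev3] with v h1 h2 h3
      obtain ⟨l, hl⟩ := (hyr _ h2 _).mp (hYr j v h3)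
      by_cases hli : l = i
      · rw [hl, hli]
      · exact absurd hl (h1 l hli)
    have hd1 : DifferentiableAt ℂ (fun v => y i (Complex.exp v)) w :=
      DifferentiableAt.comp w ((hyd i).differentiableAt (hVo.mem_nhds hxV))
        Complex.differentiableAt_exp
    exact (ev.differentiableAt_iff.mpr hd1).differentiableWithinAt
  -- monodromy
  let sh : C(HP r, HP r) := ⟨fun w => ⟨w + 2 * Real.pi * I, hp_add w.2⟩, by fun_prop⟩
  have hsh : ∀ w : HP r, ((sh w : HP r) : ℂ) = w + 2 * Real.pi * I := fun w => rfl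
  have hexpsh : ∀ w : HP r, Complex.exp (sh w : HP r) = Complex.exp w := by
    intro w
    rw [hsh, Complex.exp_add, Complex.exp_two_pi_mul_I, mul_one]
  have hmon : ∀ j, ∃ i, ∀ w ∈ HP r, Y j (w + 2 * Real.pi * I) = Y i w := by
    intro j
    have hr1 : pv d a (Complex.exp w₀) (F j (sh w₀)).1.2 = 0 := by
      rw [← hexpsh w₀, ← hF2 j (sh w₀)]
      exact (F j (sh w₀)).2
    obtain ⟨i, hi⟩ := (hroots _).mp hr1
    refine ⟨i, ?_⟩
    have hlift : prC d a ∘ ((F j).comp sh) = expH r := by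
      funext w
      show (F j (sh w)).1.1 = Complex.exp w
      rw [hF2, hexpsh]
    have hpt : (F j).comp sh w₀ = F i w₀ := by
      apply Subtype.ext
      refine Prod.ext ?_ ?_
      · show (F j (sh w₀)).1.1 = (F i w₀).1.1
        rw [hF2, hF2, hexpsh]
      · show (F j (sh w₀)).1.2 = (F i w₀).1.2
        rw [hF1 i]
        exact hi
    have heq := huniq _ _ hlift (hF i).2 w₀ hpt
    intro w hw
    rw [hY j _ (hp_add hw), hY i w hw]
    have := congrArg (fun G : C(HP r, Cur d a) => (G ⟨w, hw⟩).1.2) heq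
    exact this
  choose π hπ using hmon
  exact ⟨Y, π, hYd, hYi, hYall, hπ⟩

/-- the root functions on the half plane have a common period -/
theorem global_roots {d : ℕ} {a : ℕ → ℂ → ℂ} {r : ℝ} (hd : 1 ≤ d) (A : AlgF d a r) :
    ∃ (Y : Fin d → ℂ → ℂ) (N : ℕ), 1 ≤ N ∧ (∀ j, DifferentiableOn ℂ (Y j) (HP r)) ∧
      (∀ w ∈ HP r, ∀ Z, pv d a (Complex.exp w) Z = 0 ↔ ∃ j, Z = Y j w) ∧
      (∀ j, ∀ w ∈ HP r, Y j (w + N * (2 * Real.pi * I)) = Y j w) := by
  obtain ⟨Y, π, h1, h2, h3, h4⟩ := global_roots0 hd A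
  obtain ⟨w₀, hw₀⟩ := hp_nonempty r
  have hinj : Function.Injective π := by
    intro i j hij
    have e1 := h4 i w₀ hw₀
    have e2 := h4 j w₀ hw₀
    rw [hij] at e1
    exact h2 _ (hp_add hw₀) (e1.trans e2.symm)
  let σ : Equiv.Perm (Fin d) := Equiv.ofBijective π (Finite.injective_iff_bijective.mp hinj)
  have hσ : ∀ j, σ j = π j := fun j => rfl
  have hiter : ∀ (n : ℕ) (j : Fin d), ∀ w ∈ HP r, w + n * (2 * Real.pi * I) ∈ HP r ∧
      Y j (w + n * (2 * Real.pi * I)) = Y ((σ ^ n) j) w := by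
    intro n
    induction n with
    | zero => intro j w hw; simp [hw]
    | succ n ih =>
      intro j w hw
      have e1 : w + ((n + 1 : ℕ) : ℂ) * (2 * Real.pi * I) =
          (w + n * (2 * Real.pi * I)) + 2 * Real.pi * I := by
        push_cast; ring
      obtain ⟨g1, g2⟩ := ih (π j) w hw
      rw [e1]
      refine ⟨hp_add g1, ?_⟩
      rw [h4 j _ g1, g2, pow_succ, Equiv.Perm.mul_apply, hσ]
  refine ⟨Y, Fintype.card (Equiv.Perm (Fin d)), Fintype.card_pos, h1, h3, ?_⟩
  intro j w hw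
  rw [(hiter _ j w hw).2, pow_card_eq_one]
  rfl

end Vale.Agent.P097.H190
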