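import Vale.Agent.P097.H190.HonIso
import Vale.Agent.P097.H226.W.Defs2

/-!
# P097 / case [c] / row W-SEQ, part 1 (helper190): straight coordinates versus `kpt`
-/

set_option linter.all false

noncomputable section

open Complex Metric Filter Topology Set

namespace Vale.Agent.P097.H190.SQ

open Vale.Agent.P097.H929 Vale.Agent.P097.H190.Ult Vale.Agent.P097.H190.WO
open Vale.Agent.P097.TC

/-- straight coordinates at the scale `ρ` -/
abbrev Sm (P : ℝ → ℂ) (Ψ : ℂ → ℂ) (y u ρ : ℝ) (z : ℂ × ℂ) : ℂ × ℂ := H226.W.StM P Ψ y u ρ z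

/-- the axis point -/
def ax₀ : ℂ × ℂ := (-I, I)

theorem Sm_smul (P : ℝ → ℂ) (Ψ : ℂ → ℂ) (y u ρ a : ℝ) (z : ℂ × ℂ) :
    Sm P Ψ y u ρ ((a : ℂ) • z) = Sm P Ψ y u (ρ * a) z := by
  simp only [Sm, H226.W.StM, Prod.smul_fst, Prod.smul_snd, smul_eq_mul]
  push_cast
  simp only [mul_assoc]

/-- the straight coordinate of a point of the `kpt` chart -/
def st (P : ℝ → ℂ) (Ψ : ℂ → ℂ) (c₀ σ u r : ℝ) (p : ℂ × ℂ) : ℂ × ℂ :=
  (p.1 + (I * c₀ + σ) * p.2 - (Ψ (u + r * p.2) - P u) / r, p.2)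

theorem kpt_eq_Sm (P : ℝ → ℂ) (Ψ : ℂ → ℂ) {c₀ σ y u r : ℝ} (hr : r ≠ 0) (p : ℂ × ℂ) :
    kpt (P u).im c₀ σ y u r p = Sm P Ψ y u r (st P Ψ c₀ σ u r p) := by
  have hr' : (r : ℂ) ≠ 0 := by exact_mod_cast hr
  rw [kpt_eq]
  refine Prod.ext ?_ ?_
  · simp only [Sm, H226.W.StM, st]
    have h1 : (P u) = ((P u).re : ℂ) + ((P u).im : ℂ) * I := (re_add_im (P u)).symm
    have h2 : (r : ℂ) * ((Ψ (u + r * p.2) - P u) / r) = Ψ (u + r * p.2) - P u := by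
      field_simp
    rw [mul_sub, h2]
    push_cast
    linear_combination (-1 : ℂ) * h1
  · simp [Sm, H226.W.StM, st]

/-- the inverse: the `kpt` coordinate of a point of the straight chart -/
def ts (P : ℝ → ℂ) (Ψ : ℂ → ℂ) (c₀ σ u r : ℝ) (z : ℂ × ℂ) : ℂ × ℂ :=
  (z.1 - (I * c₀ + σ) * z.2 + (Ψ (u + r * z.2) - P u) / r, z.2)

theorem st_ts (P : ℝ → ℂ) (Ψ : ℂ → ℂ) (c₀ σ u r : ℝ) (z : ℂ × ℂ) :
    st P Ψ c₀ σ u r (ts P Ψ c₀ σ u r z) = z := by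
  refine Prod.ext ?_ rfl
  simp only [st, ts]
  ring

/-- non-tangential expansion, uniform along the sequence -/
def Exp (P : ℝ → ℂ) (Ψ : ℂ → ℂ) (c k : ℝ → ℝ) (u : ℕ → ℝ) : Prop :=
  ∀ c₀ > 0, ∀ ε > 0, ∃ ρ > 0, ∀ n : ℕ, ∀ w : ℂ, |w.re - u n| < ρ → 0 < w.im → w.im < ρ →
    c₀ * |w.re - u n| ≤ w.im →
    ‖Ψ w - P (u n) - (I * c (u n) + k (u n)) * (w - u n)‖ ≤ ε * ‖w - u n‖

section

variable {P : ℝ → ℂ} {Ψ : ℂ → ℂ} {c k : ℝ → ℝ} {u r : ℕ → ℝ} {u₀ σ k₀ : ℝ}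

/-- the error of the two charts -/
theorem err_small (hE : Exp P Ψ c k u) (𝒰 : Filter ℕ) (hc : Tendsto (fun n => c (u n)) 𝒰 (𝓝 (c u₀)))
    (hk : Tendsto (fun n => k (u n)) 𝒰 (𝓝 k₀)) (hr0 : ∀ᶠ n in 𝒰, 0 < r n)
    (hr : Tendsto r 𝒰 (𝓝 0)) {K : Set ℂ} (hK : IsCompact K) (hKp : ∀ w ∈ K, 0 < w.im)
    {η : ℝ} (hη : 0 < η) :
    ∀ᶠ n in 𝒰, ∀ w ∈ K, ‖(Ψ (u n + r n * w) - P (u n)) / r n - (I * c u₀ + k₀) * w‖ ≤ η := by
  -- constants of the compact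
  obtain ⟨X, hX⟩ := hK.isBounded.exists_norm_le
  obtain ⟨m, hm, hmK⟩ : ∃ m > 0, ∀ w ∈ K, m ≤ w.im := by
    rcases K.eq_empty_or_nonempty with h | h
    · exact ⟨1, one_pos, by simp [h]⟩
    · obtain ⟨w₀, hw₀, hmin⟩ := hK.exists_isMinOn h continuous_im.continuousOn
      exact ⟨w₀.im, hKp w₀ hw₀, fun w hw => hmin hw⟩
  set X' := max X 1 with hX'
  have hX1 : 0 < X' := lt_max_of_lt_right one_pos
  have hXK : ∀ w ∈ K, ‖w‖ ≤ X' := fun w hw => (hX w hw).trans (le_max_left _ _)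
  obtain ⟨ρ, hρ, h1⟩ := hE (m / X') (by positivity) (η / (3 * X')) (by positivity)
  have e1 : ∀ᶠ n in 𝒰, r n < ρ / X' := hr.eventually_lt_const (by positivity)
  have e2 : ∀ᶠ n in 𝒰, dist (c (u n)) (c u₀) < η / (3 * X') :=
    hc.eventually (ball_mem_nhds _ (by positivity))
  have e3 : ∀ᶠ n in 𝒰, dist (k (u n)) k₀ < η / (3 * X') :=
    hk.eventually (ball_mem_nhds _ (by positivity))
  filter_upwards [e1, e2, e3, hr0] with n h2 h3 h4 hrn w hw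
  have hwX := hXK w hw
  have hwm := hmK w hw
  have hre : (u n + r n * w : ℂ).re - u n = r n * w.re := by simp
  have him : (u n + r n * w : ℂ).im = r n * w.im := by simp
  rw [lt_div_iff₀ hX1] at h2
  have hwre : |w.re| ≤ X' := (abs_re_le_norm w).trans hwX
  have hwim : w.im ≤ X' := (le_abs_self _).trans ((abs_im_le_norm w).trans hwX)
  have hbase := h1 n (u n + r n * w) (by
      rw [hre, abs_mul, abs_of_pos hrn]
      exact (mul_le_mul_of_nonneg_left hwre hrn.le).trans_lt h2)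
    (by rw [him]; exact mul_pos hrn (hKp w hw))
    (by rw [him]; exact (mul_le_mul_of_nonneg_left hwim hrn.le).trans_lt h2)
    (by
      rw [hre, him, abs_mul, abs_of_pos hrn]
      have : m / X' * |w.re| ≤ m := by
        rw [div_mul_eq_mul_div, div_le_iff₀ hX1]
        exact mul_le_mul_of_nonneg_left hwre hm.le
      have e5 : m / X' * (r n * |w.re|) = r n * (m / X' * |w.re|) := by ring
      rw [e5]
      exact mul_le_mul_of_nonneg_left (this.trans hwm) hrn.le)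
  have hrn' : (r n : ℂ) ≠ 0 := by exact_mod_cast hrn.ne'
  have hsub : (u n + r n * w : ℂ) - u n = r n * w := by ring
  rw [hsub, norm_mul, norm_real, Real.norm_eq_abs, abs_of_pos hrn] at hbase
  have key : (Ψ (u n + r n * w) - P (u n)) / r n - (I * c u₀ + k₀) * w =
      (Ψ (u n + r n * w) - P (u n) - (I * c (u n) + k (u n)) * (r n * w)) / r n +
      (I * ((c (u n) - c u₀ : ℝ) : ℂ) + ((k (u n) - k₀ : ℝ) : ℂ)) * w := by
    field_simp
    push_cast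
    ring
  rw [key]
  refine (norm_add_le _ _).trans ?_
  have t1 : ‖(Ψ (u n + r n * w) - P (u n) - (I * c (u n) + k (u n)) * (r n * w)) / r n‖ ≤ η / 3 := by
    rw [norm_div, norm_real, Real.norm_eq_abs, abs_of_pos hrn, div_le_iff₀ hrn]
    refine hbase.trans ?_
    have : η / (3 * X') * ‖w‖ ≤ η / 3 := by
      rw [div_mul_eq_mul_div, div_le_div_iff₀ (by positivity) (by norm_num)]
      nlinarith
    nlinarith
  have t2 : ‖(I * ((c (u n) - c u₀ : ℝ) : ℂ) + ((k (u n) - k₀ : ℝ) : ℂ)) * w‖ ≤ 2 * η / 3 := by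
    rw [norm_mul]
    have a1 : ‖I * ((c (u n) - c u₀ : ℝ) : ℂ) + ((k (u n) - k₀ : ℝ) : ℂ)‖ ≤ 2 * (η / (3 * X')) := by
      refine (norm_add_le _ _).trans ?_
      rw [norm_mul, norm_I, one_mul, norm_real, norm_real]
      rw [Real.dist_eq] at h3 h4
      rw [Real.norm_eq_abs, Real.norm_eq_abs]
      linarith
    calc _ ≤ 2 * (η / (3 * X')) * X' := mul_le_mul a1 hwX (norm_nonneg _) (by positivity)
      _ = 2 * η / 3 := by field_simp
  linarith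

/-- the linear limit of the charts -/
def lin (σ k₀ : ℝ) (p : ℂ × ℂ) : ℂ × ℂ := (p.1 + ((σ - k₀ : ℝ) : ℂ) * p.2, p.2)

theorem continuous_lin (σ k₀ : ℝ) : Continuous (lin σ k₀) := by unfold lin; fun_prop

theorem st_near (hE : Exp P Ψ c k u) (𝒰 : Filter ℕ) (hc : Tendsto (fun n => c (u n)) 𝒰 (𝓝 (c u₀)))
    (hk : Tendsto (fun n => k (u n)) 𝒰 (𝓝 k₀)) (hr0 : ∀ᶠ n in 𝒰, 0 < r n)
    (hr : Tendsto r 𝒰 (𝓝 0)) {K : Set (ℂ × ℂ)} (hK : IsCompact K) (hKp : ∀ p ∈ K, 0 < p.2.im)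
    {η : ℝ} (hη : 0 < η) :
    ∀ᶠ n in 𝒰, ∀ p ∈ K, ‖st P Ψ (c u₀) σ (u n) (r n) p - lin σ k₀ p‖ ≤ η := by
  have h1 := err_small hE 𝒰 hc hk hr0 hr (K := Prod.snd '' K) (hK.image continuous_snd)
    (by rintro _ ⟨p, hp, rfl⟩; exact hKp p hp) hη
  filter_upwards [h1] with n hn p hp
  have h2 := hn p.2 ⟨p, hp, rfl⟩
  have e : st P Ψ (c u₀) σ (u n) (r n) p - lin σ k₀ p =
      (-((Ψ (u n + r n * p.2) - P (u n)) / r n - (I * c u₀ + k₀) * p.2), 0) := by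
    refine Prod.ext ?_ ?_
    · simp only [st, lin, Prod.fst_sub]
      push_cast
      ring
    · simp [st, lin]
  rw [e, Prod.norm_def]
  simp only [norm_neg, norm_zero]
  exact max_le h2 hη.le

theorem ts_tendsto (hE : Exp P Ψ c k u) (𝒰 : Filter ℕ)
    (hc : Tendsto (fun n => c (u n)) 𝒰 (𝓝 (c u₀)))
    (hk : Tendsto (fun n => k (u n)) 𝒰 (𝓝 k₀)) (hr0 : ∀ᶠ n in 𝒰, 0 < r n)
    (hr : Tendsto r 𝒰 (𝓝 0)) {z : ℂ × ℂ} (hz : 0 < z.2.im) :
    Tendsto (fun n => ts P Ψ (c u₀) σ (u n) (r n) z) 𝒰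
      (𝓝 (z.1 - ((σ - k₀ : ℝ) : ℂ) * z.2, z.2)) := by
  rw [Metric.tendsto_nhds]
  intro ε hε
  have h1 := err_small hE 𝒰 hc hk hr0 hr (K := {z.2}) isCompact_singleton
    (by rintro _ rfl; exact hz) (half_pos hε)
  filter_upwards [h1] with n hn
  have h2 := hn z.2 rfl
  have e : ts P Ψ (c u₀) σ (u n) (r n) z - (z.1 - ((σ - k₀ : ℝ) : ℂ) * z.2, z.2) =
      ((Ψ (u n + r n * z.2) - P (u n)) / r n - (I * c u₀ + k₀) * z.2, 0) := by
    refine Prod.ext ?_ ?_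
    · simp only [ts, Prod.fst_sub]
      push_cast
      ring
    · simp [ts]
  rw [dist_eq_norm, e, Prod.norm_def]
  simp only [norm_zero]
  exact max_lt (h2.trans_lt (half_lt_self hε)) hε

/-- a compact of `Wd (s - σ)` is mapped into one compact of `Wd δ` -/
theorem exists_W {s : ℝ} {K : Set (ℂ × ℂ)} (hK : IsCompact K) (hKW : K ⊆ Wd (s - σ)) :
    ∃ γ > 0, ∃ η > 0, IsCompact (cthickening η (lin σ k₀ '' K)) ∧
      cthickening η (lin σ k₀ '' K) ⊆ Wd (s - k₀ - γ) := by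
  have hKi : IsCompact (lin σ k₀ '' K) := hK.image (continuous_lin σ k₀)
  have hsub : lin σ k₀ '' K ⊆ Wd (s - k₀) := by
    rintro _ ⟨p, hp, rfl⟩
    obtain ⟨h1, h2⟩ := hKW hp
    refine ⟨h1, ?_⟩
    have e : (lin σ k₀ p).1.im = p.1.im + (σ - k₀) * p.2.im := by simp [lin]
    rw [e]
    show p.1.im + (σ - k₀) * p.2.im < (s - k₀) * p.2.im
    nlinarith
  -- the gap
  obtain ⟨γ, hγ, hsub2⟩ : ∃ γ > 0, lin σ k₀ '' K ⊆ Wd (s - k₀ - γ) := by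
    rcases (lin σ k₀ '' K).eq_empty_or_nonempty with h | h
    · exact ⟨1, one_pos, by simp [h]⟩
    have hcont : ContinuousOn (fun z : ℂ × ℂ => ((s - k₀) * z.2.im - z.1.im) / z.2.im)
        (lin σ k₀ '' K) := by
      refine ContinuousOn.div ?_ ?_ fun z hz => (hsub hz).1.ne'
      · fun_prop
      · fun_prop
    obtain ⟨z₁, hz₁, hmin⟩ := hKi.exists_isMinOn h hcont
    have hpos : 0 < ((s - k₀) * z₁.2.im - z₁.1.im) / z₁.2.im :=
      div_pos (by linarith [(hsub hz₁).2]) (hsub hz₁).1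
    refine ⟨((s - k₀) * z₁.2.im - z₁.1.im) / z₁.2.im / 2, by positivity, fun z hz => ?_⟩
    have h1 := hmin hz
    simp only [Set.mem_ofPred_eq] at h1
    have h2 := (hsub hz).1
    refine ⟨h2, ?_⟩
    have h3 : ((s - k₀) * z₁.2.im - z₁.1.im) / z₁.2.im / 2 < ((s - k₀) * z.2.im - z.1.im) / z.2.im :=
      by linarith
    rw [lt_div_iff₀ h2] at h3
    linarith
  obtain ⟨η, hη, hsub3⟩ := hKi.exists_cthickening_subset_open (isOpen_Wd _) hsub2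
  exact ⟨γ, hγ, η, hη, hKi.cthickening, hsub3⟩

end

end Vale.Agent.P097.H190.SQ
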