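import Vale.Agent.P097.H190.Seq2

/-!
# P097 / case [c] / row W-SEQ, part 3 (helper190): the bounds on compacts of the wide domain
-/

set_option linter.all false

noncomputable section

open Complex Metric Filter Topology Set

namespace Vale.Agent.P097.H190.SQ

open Vale.Agent.P097.H929 Vale.Agent.P097.H190.Ult Vale.Agent.P097.H190.WO
open Vale.Agent.P097.TC Vale.Agent.P097.H226.W

/-- `log |E_j|²` at the axis point of depth `t` (independent of the unit of the chart) -/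
def Vz (F : ℂ → ℂ) (P : ℝ → ℂ) (Ψ : ℂ → ℂ) (al th : ℂ × ℂ → ℂ) (y u t : ℝ) : ℝ :=
  (gg F al th (Sm P Ψ y u t ax₀)).re

theorem ax_eq (h : ℝ) : ax h = (h : ℂ) • ax₀ := by
  refine Prod.ext ?_ ?_
  · simp [ax, ax₀]
  · simp [ax, ax₀]

theorem Vq_eq (F : ℂ → ℂ) (P : ℝ → ℂ) (Ψ : ℂ → ℂ) (al th : ℂ × ℂ → ℂ) (y u ρ h : ℝ) :
    Vq F (al ∘ Sm P Ψ y u ρ) (th ∘ Sm P Ψ y u ρ) h = Vz F P Ψ al th y u (ρ * h) := by
  rw [Vq, Vz, ax_eq]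
  simp only [gg, Function.comp_apply]
  rw [Sm_smul]

theorem Wd_mono {δ δ' : ℝ} (h : δ ≤ δ') : H226.W.Wd δ ⊆ H226.W.Wd δ' := fun z hz =>
  ⟨hz.1, hz.2.trans_le (mul_le_mul_of_nonneg_right h hz.1.le)⟩

/-- the sup on the `j`-th compact of the straight tube at the scale `x` -/
def Aj (P : ℝ → ℂ) (Ψ : ℂ → ℂ) (k : ℝ → ℝ) (s : ℝ) (al p : ℂ × ℂ → ℂ) (y u x : ℝ) (j : ℕ) : ℝ :=
  max (sSup (mx (al ∘ Sm P Ψ y u x) (p ∘ Sm P Ψ y u x) '' Ej (s - k u) j)) 0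

section

variable {Λ H : ℝ} {F q : ℂ → ℂ} {P : ℝ → ℂ} {Ψ : ℂ → ℂ} {c k : ℝ → ℝ} {al p th : ℂ × ℂ → ℂ}
  {y u : ℕ → ℝ} {u₀ σ s : ℝ}

theorem main_bound (hPW : PWK) (cv : Cv Λ H F q) (gr : Grw H F q) (hE : Exp P Ψ c k u)
    (hsw : ∀ γ > 0, ∃ ρ₀ > 0, ∀ᶠ n in atTop, ∀ ρ : ℝ, 0 < ρ → ρ ≤ ρ₀ → ∀ δ : ℝ, 0 < δ →
      δ ≤ s - k (u n) - γ → SW Λ H F q δ 1 (al ∘ Sm P Ψ (y n) (u n) ρ)
        (p ∘ Sm P Ψ (y n) (u n) ρ) (th ∘ Sm P Ψ (y n) (u n) ρ))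
    {X om e V₁ K₀ : ℝ} (hX : 1 ≤ X) (hom0 : 0 < om) (hom1 : om ≤ 1) (he : 0 < e) (hV₁ : 0 ≤ V₁)
    (hK₀ : 1 ≤ K₀) (𝒰 : Filter ℕ) (h𝒰 : 𝒰 ≤ atTop) {r G : ℕ → ℝ}
    (hr : ∀ᶠ n in 𝒰, 0 < r n ∧ r n ≤ G n) (hG0 : Tendsto G 𝒰 (𝓝 0))
    (hrG : Tendsto (fun n => r n / G n) 𝒰 (𝓝 0)) {k₀ : ℝ}
    (hc : Tendsto (fun n => c (u n)) 𝒰 (𝓝 (c u₀))) (hk : Tendsto (fun n => k (u n)) 𝒰 (𝓝 k₀))
    (hks : k₀ < s)
    (hmd : ∀ᶠ n in 𝒰, ∀ t : ℝ, r n ≤ t → t ≤ G n →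
      Md H F (th ∘ Sm P Ψ (y n) (u n) (G n)) X om e (t / G n))
    (hrec : ∀ᶠ n in 𝒰, ∀ t : ℝ, r n ≤ t → t ≤ G n →
      |Vz F P Ψ al th (y n) (u n) t| ≤ K₀ * |Vz F P Ψ al th (y n) (u n) (r n)| + V₁)
    (hthr : ∀ᶠ n in 𝒰, ∀ j : ℕ, j ≤ n → r n / G n * Aj P Ψ k s al p (y n) (u n) (G n) j ≤ 1)
    {sg : ℝ} (hsg : sg = 1 ∨ sg = -1)
    (hV : ∀ᶠ n in 𝒰, sg * Vz F P Ψ al th (y n) (u n) (r n) ≤ V₁)
    {K : Set (ℂ × ℂ)} (hK : IsCompact K) (hKW : K ⊆ WO.Wd (s - σ)) :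
    ∃ C : ℝ, ∀ᶠ n in 𝒰, ∀ z ∈ K,
      ‖exp (sg * I * al (kpt (P (u n)).im (c u₀) σ (y n) (u n) (r n) z))‖ ≤ C ∧
      ‖2 * p (kpt (P (u n)).im (c u₀) σ (y n) (u n) (r n) z) *
        exp (sg * I * al (kpt (P (u n)).im (c u₀) σ (y n) (u n) (r n) z))‖ ≤ C := by
  obtain ⟨γ₀, hγ₀, η, hη, hWc, hWs⟩ := exists_W (σ := σ) (k₀ := k₀) hK hKW
  set W := cthickening η (lin σ k₀ '' K) with hW
  set γ := min γ₀ ((s - k₀) / 2) with hγd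
  have hγ : 0 < γ := lt_min hγ₀ (by linarith)
  have hγ1 : γ ≤ γ₀ := min_le_left _ _
  have hγ2 : γ ≤ (s - k₀) / 2 := min_le_right _ _
  set δ := s - k₀ - γ with hδd
  have hδ : 0 < δ := by rw [hδd]; linarith
  have hWδ : W ⊆ H226.W.Wd δ := hWs.trans (Wd_mono (by rw [hδd]; linarith))
  obtain ⟨C, hC0, τ, hτ, hτ1, Z, hZ, hZs, hmain⟩ :=
    hPW cv gr δ X om e V₁ K₀ hδ hX hom0 hom1 he hV₁ hK₀ W hWc hWδ
  obtain ⟨j, hj⟩ := exists_Ej (half_pos hγ) hZ hZs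
  have hjj := hj j le_rfl
  -- the two instances
  obtain ⟨ρ₁, hρ₁, sw1⟩ := hsw (γ / 2) (half_pos hγ)
  set γ₂ := min (1 / (2 * (j + 2 : ℝ))) (γ / 2) with hγ₂d
  have hγ₂ : 0 < γ₂ := lt_min (by positivity) (half_pos hγ)
  obtain ⟨ρ₂, hρ₂, sw2⟩ := hsw γ₂ hγ₂
  have ek : ∀ᶠ n in 𝒰, |k (u n) - k₀| < γ / 2 := by
    have := hk.eventually (ball_mem_nhds k₀ (half_pos hγ))
    filter_upwards [this] with n hn
    rwa [Real.dist_eq] at hn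
  have e1 : ∀ᶠ n in 𝒰, G n < ρ₁ := hG0.eventually_lt_const hρ₁
  have e2 : ∀ᶠ n in 𝒰, G n < ρ₂ := hG0.eventually_lt_const hρ₂
  have e3 : ∀ᶠ n in 𝒰, r n / G n < τ := hrG.eventually_lt_const hτ
  have e4 : ∀ᶠ n in 𝒰, j ≤ n := h𝒰 (eventually_ge_atTop j)
  have hr0 : Tendsto r 𝒰 (𝓝 0) := by
    refine squeeze_zero' (hr.mono fun n hn => hn.1.le) (hr.mono fun n hn => hn.2) hG0
  have e5 := st_near (P := P) (Ψ := Ψ) (σ := σ) hE 𝒰 hc hk (hr.mono fun n hn => hn.1) hr0 hK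
    (fun p hp => (hKW hp).1) hη
  refine ⟨Real.exp (2 * C), ?_⟩
  filter_upwards [ek, e1, e2, e3, e4, e5, hr, hmd, hrec, hthr, hV, h𝒰 sw1, h𝒰 sw2] with n nk n1 n2
    n3 n4 n5 nr nmd nrec nthr nV nsw1 nsw2 z hz
  have hrn := nr.1
  have hGn : 0 < G n := lt_of_lt_of_le nr.1 nr.2
  have nk1 := (abs_lt.mp nk).1
  have nk2 := (abs_lt.mp nk).2
  have SW1 := nsw1 (G n) hGn n1.le δ hδ (by rw [hδd]; linarith)
  have hγ₂1 : γ₂ ≤ 1 / (2 * (j + 2 : ℝ)) := min_le_left _ _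
  have hγ₂2 : γ₂ ≤ γ / 2 := min_le_right _ _
  have hhalf : 1 / (2 * (j + 2 : ℝ)) < 1 / (j + 2 : ℝ) := by
    apply one_div_lt_one_div_of_lt (by positivity)
    have : (0 : ℝ) ≤ j := Nat.cast_nonneg j
    linarith
  have SW2 := nsw2 (G n) hGn n2.le (s - k (u n) - γ₂) (by
    have : δ ≤ s - k (u n) - γ₂ := by rw [hδd]; linarith
    linarith) le_rfl
  -- the sup is finite
  have hsub : Ej (s - k (u n)) j ⊆ Bx 1 ∩ H226.W.Wd (s - k (u n) - γ₂) :=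
    Ej_sub _ _ (by linarith)
  have hcont : ContinuousOn (mx (al ∘ Sm P Ψ (y n) (u n) (G n)) (p ∘ Sm P Ψ (y n) (u n) (G n)))
      (Ej (s - k (u n)) j) :=
    mx_cont (SW2.dal.continuousOn.mono hsub) (SW2.dp.continuousOn.mono hsub)
  have hbdd := (isCompact_Ej (s - k (u n)) j).bddAbove_image hcont
  set A := Aj P Ψ k s al p (y n) (u n) (G n) j with hA
  have hA0 : 0 ≤ A := le_max_right _ _
  have hZA : ∀ z ∈ Z, mx (al ∘ Sm P Ψ (y n) (u n) (G n)) (p ∘ Sm P Ψ (y n) (u n) (G n)) z ≤ A := by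
    intro z hz
    refine le_trans ?_ (le_max_left _ _)
    exact le_csSup hbdd (mem_image_of_mem _ (hjj (s - k (u n)) (by rw [hδd]; linarith) hz))
  have hAexp : A ≤ Real.exp A := by linarith [Real.add_one_le_exp A]
  have hrd : 0 < r n / G n := div_pos hrn hGn
  -- application
  have key := hmain SW1 (r n / G n) hrd n3.le ?_ ?_ sg hsg ?_ A hA0 ?_
    (st P Ψ (c u₀) σ (u n) (r n) z) ?_
  · obtain ⟨-, k1, k2⟩ := key
    have hpt : Sm P Ψ (y n) (u n) (G n) (((r n / G n : ℝ) : ℂ) • st P Ψ (c u₀) σ (u n) (r n) z) =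
        kpt (P (u n)).im (c u₀) σ (y n) (u n) (r n) z := by
      rw [Sm_smul, mul_div_cancel₀ _ hGn.ne', kpt_eq_Sm P Ψ hrn.ne']
    simp only [Function.comp_apply] at k1 k2
    rw [hpt] at k1 k2
    have hle : C + C * (r n / G n) * A ≤ 2 * C := by
      have := nthr j n4
      have h2 := mul_le_mul_of_nonneg_left this hC0
      rw [← mul_assoc] at h2
      linarith
    exact ⟨k1.trans (Real.exp_le_exp.mpr hle), k2.trans (Real.exp_le_exp.mpr hle)⟩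
  · -- mid level
    intro h hh1 hh2
    have hh0 : 0 < h := hrd.trans_le hh1
    have hh3 : h ≤ 1 := by nlinarith
    have := nmd (G n * h) (by rw [div_le_iff₀ hGn] at hh1; linarith)
      (mul_le_of_le_one_right hGn.le hh3)
    rwa [mul_div_cancel_left₀ _ hGn.ne'] at this
  · -- record
    intro i hi
    rw [Vq_eq, Vq_eq, mul_div_cancel₀ _ hGn.ne']
    have e6 : G n * (2 ^ i * (r n / G n)) = 2 ^ i * r n := by field_simp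
    rw [e6]
    refine nrec _ ?_ ?_
    · have : (1 : ℝ) ≤ 2 ^ i := one_le_pow₀ (by norm_num)
      nlinarith
    · have h3 := hi.trans hτ1
      rw [mul_div_assoc', div_le_one hGn] at h3
      exact h3
  · rw [Vq_eq, mul_div_cancel₀ _ hGn.ne']
    exact nV
  · intro z hz
    obtain ⟨a1, a2⟩ := mx_le (hZA z hz) hsg
    exact ⟨a1.trans hAexp, a2.trans hAexp⟩
  · -- the point is in the compact
    rw [hW]
    refine mem_cthickening_of_dist_le _ (lin σ k₀ z) _ _ (mem_image_of_mem _ hz) ?_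
    rw [dist_eq_norm]
    exact n5 z hz

end

end Vale.Agent.P097.H190.SQ
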