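import Vale.Agent.P097.H190.Seq3

/-!
# P097 / case [c] / row W-SEQ, part 4 (helper190): the fields of the world `W5`
-/

set_option linter.all false

noncomputable section

open Complex Metric Filter Topology Set MeasureTheory

namespace Vale.Agent.P097.H190.SQ

open Vale.Agent.P097.H85 Vale.Agent.P097.H929 Vale.Agent.P097.H190.Ult Vale.Agent.P097.H190.WO
open Vale.Agent.P097.TC
open Vale.Agent.P097.H226.W (SW Grw Bx Qu Md gg Vq Inst)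
open Vale.Agent.P097.A5 (W5 Sq Tou Nst del vp Vn Dm)

variable {Λ H : ℝ} {F q : ℂ → ℂ} {b m : ℝ} {Ψ : ℂ → ℂ} {Mj Mk B : Set (ℂ × ℂ)} {A : Set ℝ}
  {P : ℝ → ℂ} {c k : ℝ → ℝ} {K y₀ u₀ σ s : ℝ} {al p th : ℂ × ℂ → ℂ} {J : ℂ → ℂ} {y u : ℕ → ℝ}

theorem grw_of (W : W5 Λ H F q b m Ψ Mj Mk B A P c k K y₀ u₀ σ s al p th J) : Grw H F q := by
  intro a ha
  obtain ⟨C, -, hC⟩ := W.crv.gro a ha
  exact ⟨C, hC⟩

theorem isOpen_Mj (W : W5 Λ H F q b m Ψ Mj Mk B A P c k K y₀ u₀ σ s al p th J) : IsOpen Mj :=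
  W.rhj.dn.op

theorem isOpen_Mk (W : W5 Λ H F q b m Ψ Mj Mk B A P c k K y₀ u₀ σ s al p th J) : IsOpen Mk :=
  W.rhk.dn.op

theorem ev_near (S : Sq A y₀ u₀ y u) {d : ℝ} (hd : 0 < d) :
    ∀ᶠ n in atTop, |u n - u₀| < d ∧ |y n - y₀| < d := by
  have h1 := S.ut.eventually (ball_mem_nhds u₀ hd)
  have h2 := S.yt.eventually (ball_mem_nhds y₀ hd)
  filter_upwards [h1, h2] with n a1 a2
  rw [Real.dist_eq] at a1 a2
  exact ⟨a1, a2⟩

/-- the straight worlds along the sequence -/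
theorem hsw_of (hI : Inst) (W : W5 Λ H F q b m Ψ Mj Mk B A P c k K y₀ u₀ σ s al p th J)
    (S : Sq A y₀ u₀ y u) :
    ∀ γ > 0, ∃ ρ₀ > 0, ∀ᶠ n in atTop, ∀ ρ : ℝ, 0 < ρ → ρ ≤ ρ₀ → ∀ δ : ℝ, 0 < δ →
      δ ≤ s - k (u n) - γ → SW Λ H F q δ 1 (al ∘ Sm P Ψ (y n) (u n) ρ)
        (p ∘ Sm P Ψ (y n) (u n) ρ) (th ∘ Sm P Ψ (y n) (u n) ρ) := by
  intro γ hγ
  obtain ⟨d, hd, h⟩ := hI W γ hγ
  refine ⟨d, hd, ?_⟩
  filter_upwards [ev_near S hd] with n hn ρ h1 h2 δ h3 h4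
  exact (h (u n) (S.uA n) hn.1 (y n) hn.2 ρ h1 h2).2 δ h3 h4

/-- the quadrant is in the domain of the position -/
theorem Sm_dom (W : W5 Λ H F q b m Ψ Mj Mk B A P c k K y₀ u₀ σ s al p th J) :
    ∃ ρ₀ > 0, ∀ u ∈ A, ∀ y ρ : ℝ, 0 < ρ → ρ ≤ ρ₀ → ∀ z ∈ Bx 1 ∩ Qu,
      Sm P Ψ y u ρ z ∈ Dm Mj Mk := by
  obtain ⟨ρ₁, hρ₁, h1⟩ := W.Uj.cmp 1 one_pos 1 one_pos
  obtain ⟨ρ₂, hρ₂, h2⟩ := W.Uk.cmp 1 one_pos 1 one_pos
  have hbm : 0 < m - b := by linarith [W.bm]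
  obtain ⟨ρ₀, hρ₀, g1, g2, g3⟩ : ∃ ρ₀ > 0, ρ₀ ≤ ρ₁ ∧ ρ₀ ≤ ρ₂ ∧ ρ₀ ≤ m - b :=
    ⟨min ρ₁ (min ρ₂ (m - b)), by positivity, min_le_left _ _,
      (min_le_right _ _).trans (min_le_left _ _), (min_le_right _ _).trans (min_le_right _ _)⟩
  refine ⟨ρ₀, hρ₀, ?_⟩
  rintro u hu y ρ hρ hρρ z ⟨⟨a1, a2, a3, a4⟩, a5, a6⟩
  have e1 : ((u : ℂ) + (ρ : ℂ) * z.2).re - u = ρ * z.2.re := by simp
  have e2 : ((u : ℂ) + (ρ : ℂ) * z.2).im = ρ * z.2.im := by simp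
  have b1 : |((u : ℂ) + (ρ : ℂ) * z.2).re - u| < ρ₀ := by
    rw [e1, abs_mul, abs_of_pos hρ]
    nlinarith [abs_nonneg z.2.re]
  have b2 : 0 < ((u : ℂ) + (ρ : ℂ) * z.2).im := by rw [e2]; exact mul_pos hρ a6
  have b3 : ((u : ℂ) + (ρ : ℂ) * z.2).im < ρ₀ := by
    rw [e2]
    have := (abs_lt.mp a4).2
    nlinarith
  have hm := (h1 u hu).bdd ((u : ℂ) + (ρ : ℂ) * z.2) (b1.trans_le g1) b2 (b3.trans_le g1)
  have e3 : (Sm P Ψ y u ρ z).1.im = ρ * z.1.im + (Ψ ((u : ℂ) + (ρ : ℂ) * z.2)).im := by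
    simp [Sm, H226.W.StM]
  have b4 : b < (Sm P Ψ y u ρ z).1.im := by
    rw [e3]
    have := (abs_lt.mp a2).1
    nlinarith
  have b5 : (Sm P Ψ y u ρ z).1.im < (Ψ ((u : ℂ) + (ρ : ℂ) * z.2)).im := by
    rw [e3]
    have := mul_neg_of_pos_of_neg hρ a5
    linarith
  refine ⟨⟨?_, ?_⟩, ?_⟩
  · exact (h1 u hu).base _ _ (b1.trans_le g1) b2 (b3.trans_le g1) b4 b5
  · exact (h2 u hu).base _ _ (b1.trans_le g2) b2 (b3.trans_le g2) b4 b5
  · intro h0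
    have : ((u : ℂ) + (ρ : ℂ) * z.2) = 0 := h0
    rw [this] at b2
    simp at b2

/-- the expansion along the sequence -/
theorem exp_of (W : W5 Λ H F q b m Ψ Mj Mk B A P c k K y₀ u₀ σ s al p th J) (S : Sq A y₀ u₀ y u) :
    Exp P Ψ c k u := by
  intro c₀ hc₀ ε hε
  obtain ⟨ρ, hρ, h⟩ := W.Uj.cmp c₀ hc₀ ε hε
  exact ⟨ρ, hρ, fun n w h1 h2 h3 h4 => (h (u n) (S.uA n)).nt w h1 h2 h3 h4⟩

/-- compacts of the wide domain are eventually in `Mk` -/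
theorem wk_of (W : W5 Λ H F q b m Ψ Mj Mk B A P c k K y₀ u₀ σ s al p th J) (S : Sq A y₀ u₀ y u)
    {𝒰 : Filter ℕ} (h𝒰 : 𝒰 ≤ atTop) {r : ℕ → ℝ} (hr : ∀ᶠ n in 𝒰, 0 < r n)
    (hr0 : Tendsto r 𝒰 (𝓝 0)) (K' : Set (ℂ × ℂ)) (hKW : K' ⊆ WO.Wd (s - σ)) (hK : IsCompact K') :
    ∀ᶠ n in 𝒰, ∀ z ∈ K', kpt (P (u n)).im (c u₀) σ (y n) (u n) (r n) z ∈ Mk := by
  obtain ⟨d, hd, r₀, hr₀, hb⟩ := blow_dom W.u0 W.cR W.cc (W.hb u₀ W.u0) W.regk
    (hK.image (continuous_lsh (c u₀) σ)) (lsh_Wd hKW)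
  filter_upwards [h𝒰 (ev_near S hd), hr, hr0.eventually_lt_const hr₀] with n a1 a2 a3 z hz
  exact hb (u n) (S.uA n) a1.1 (y n) a1.2 (r n) a2 a3 _ ⟨z, hz, rfl⟩

theorem c_tendsto (W : W5 Λ H F q b m Ψ Mj Mk B A P c k K y₀ u₀ σ s al p th J)
    (S : Sq A y₀ u₀ y u) : Tendsto (fun n => c (u n)) atTop (𝓝 (c u₀)) := by
  have h1 : ContinuousWithinAt c A u₀ := W.cc u₀ W.u0
  have h2 : Tendsto u atTop (𝓝[A] u₀) :=
    tendsto_nhdsWithin_iff.mpr ⟨S.ut, Eventually.of_forall S.uA⟩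
  exact h1.tendsto.comp h2

/-- a limit of `k (u n)` along an ultrafilter -/
theorem exists_k (W : W5 Λ H F q b m Ψ Mj Mk B A P c k K y₀ u₀ σ s al p th J)
    (S : Sq A y₀ u₀ y u) (𝒰 : Ultrafilter ℕ) :
    ∃ k₀ : ℝ, Tendsto (fun n => k (u n)) (𝒰 : Filter ℕ) (𝓝 k₀) := by
  obtain ⟨T, hT⟩ := W.Uj.bd
  have h1 : ∀ᶠ n in (𝒰 : Filter ℕ), k (u n) ∈ Icc (-T) T :=
    Eventually.of_forall fun n => abs_le.mp (hT (u n) (S.uA n)).2
  obtain ⟨k₀, -, hk⟩ := (isCompact_Icc (a := -T) (b := T)).ultrafilter_le_nhds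
    (𝒰.map fun n => k (u n)) (by
      rw [le_principal_iff]
      exact h1)
  exact ⟨k₀, hk⟩

/-- **TOUCH bounds the slope of the comparison function** -/
theorem k_le (W : W5 Λ H F q b m Ψ Mj Mk B A P c k K y₀ u₀ σ s al p th J) (S : Sq A y₀ u₀ y u)
    (hT : Tou H P c u₀ σ th y u) (𝒰 : Ultrafilter ℕ) (h𝒰 : (𝒰 : Filter ℕ) ≤ atTop) {k₀ : ℝ}
    (hk : Tendsto (fun n => k (u n)) (𝒰 : Filter ℕ) (𝓝 k₀)) : k₀ ≤ σ := by
  by_contra hcon
  push Not at hcon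
  -- the scales
  set r : ℕ → ℝ := fun n => 1 / ((n : ℝ) + 1) with hrd
  have hr0 : Tendsto r atTop (𝓝 0) := tendsto_one_div_add_atTop_nhds_zero_nat
  have hrp : ∀ n, 0 < r n := fun n => by rw [hrd]; positivity
  have hr : Tendsto r atTop (𝓝[>] 0) :=
    tendsto_nhdsWithin_iff.mpr ⟨hr0, Eventually.of_forall hrp⟩
  obtain ⟨δ₀, hδ₀, hδ₁, hδ₂⟩ : ∃ δ₀ > 0, δ₀ ≤ 1 / 2 ∧ δ₀ < (k₀ - σ) / 4 :=
    ⟨min (1 / 2) ((k₀ - σ) / 8), by
      have : 0 < k₀ - σ := by linarith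
      positivity, min_le_left _ _, by
      have := min_le_right (1 / 2 : ℝ) ((k₀ - σ) / 8)
      linarith⟩
  obtain ⟨ε, hε, hev⟩ := hT r hr I (by simp) (by simp) 0 δ₀ hδ₀
  -- the compact
  set K' : Set (ℂ × ℂ) := closedBall (((0 : ℝ) : ℂ), I) δ₀ with hK'
  have hKc : IsCompact K' := isCompact_closedBall _ _
  have hKco : ∀ z ∈ K', |z.1.im| ≤ δ₀ ∧ |z.2.im - 1| ≤ δ₀ ∧ ‖z.1‖ ≤ 1 ∧ ‖z.2‖ ≤ 2 := by
    rintro ⟨z1, z2⟩ hz
    rw [hK', mem_closedBall, Prod.dist_eq, max_le_iff] at hz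
    simp only [ofReal_zero, dist_zero_right] at hz
    obtain ⟨a1, a2⟩ := hz
    have a3 : |z2.im - 1| ≤ δ₀ := by
      have := (abs_im_le_norm (z2 - I))
      rw [sub_im, I_im] at this
      rw [dist_eq_norm] at a2
      exact this.trans a2
    refine ⟨(abs_im_le_norm z1).trans a1, a3, a1.trans (by linarith), ?_⟩
    have : ‖z2‖ ≤ ‖z2 - I‖ + ‖I‖ := by
      have := norm_add_le (z2 - I) I
      rwa [sub_add_cancel] at this
    rw [norm_I, ← dist_eq_norm] at this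
    linarith
  have hKp : ∀ z ∈ K', 0 < z.2.im := fun z hz => by
    have := (abs_le.mp (hKco z hz).2.1).1
    linarith
  obtain ⟨ρ₀, hρ₀, hmem⟩ := Sm_dom W
  have hη : 0 < min 1 ((k₀ - σ) / 8) := by
    have : 0 < k₀ - σ := by linarith
    positivity
  have e1 := st_near (P := P) (Ψ := Ψ) (σ := σ) (exp_of W S) (𝒰 : Filter ℕ)
    ((c_tendsto W S).mono_left h𝒰) hk (Eventually.of_forall hrp) (hr0.mono_left h𝒰) hKc hKp hη
  set X : ℝ := 1 + 2 * (|σ - k₀| + 1) + 3 with hX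
  have hX0 : 0 < X := by positivity
  have e2 : ∀ᶠ n in (𝒰 : Filter ℕ), r n < ρ₀ / X :=
    (hr0.mono_left h𝒰).eventually_lt_const (by positivity)
  obtain ⟨n, ⟨h1, h2⟩, h4⟩ := ((e1.and e2).and (h𝒰 hev)).exists
  refine h4 ⟨fun z => th (kpt (P (u n)).im (c u₀) σ (y n) (u n) (r n) z), ?_, ?_⟩
  all_goals
    have hin : ∀ z ∈ ball (((0 : ℝ) : ℂ), I) δ₀,
        kpt (P (u n)).im (c u₀) σ (y n) (u n) (r n) z ∈ Dm Mj Mk := by
      intro z hz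
      have hzK : z ∈ K' := ball_subset_closedBall hz
      obtain ⟨c1, c2, c3, c4⟩ := hKco z hzK
      have h5 := h1 z hzK
      set z' := st P Ψ (c u₀) σ (u n) (r n) z with hz'
      have h6 : ‖(z' - lin σ k₀ z).1‖ ≤ min 1 ((k₀ - σ) / 8) := (norm_fst_le _).trans h5
      have h7 : z'.2 = z.2 := rfl
      have h8 : |(z' - lin σ k₀ z).1.im| ≤ (k₀ - σ) / 8 :=
        ((abs_im_le_norm _).trans h6).trans (min_le_right _ _)
      have h9 : (z' - lin σ k₀ z).1.im = z'.1.im - (z.1.im + (σ - k₀) * z.2.im) := by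
        simp [lin]
      rw [h9] at h8
      have h10 := (abs_le.mp h8).2
      have h11 := (abs_le.mp c2).1
      have h12 := (abs_le.mp c1).2
      have him : z'.1.im < 0 := by nlinarith
      have hnorm : ‖z'.1‖ ≤ 1 + 2 * (|σ - k₀| + 1) + 2 := by
        have e3 : z'.1 = (z' - lin σ k₀ z).1 + (z.1 + ((σ - k₀ : ℝ) : ℂ) * z.2) := by
          simp [lin]
        rw [e3]
        refine (norm_add_le _ _).trans ?_
        have e4 : ‖z.1 + ((σ - k₀ : ℝ) : ℂ) * z.2‖ ≤ 1 + |σ - k₀| * 2 := by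
          refine (norm_add_le _ _).trans ?_
          rw [norm_mul, norm_real, Real.norm_eq_abs]
          exact add_le_add c3 (mul_le_mul_of_nonneg_left c4 (abs_nonneg _))
        have e5 := h6.trans (min_le_left _ _)
        linarith
      -- rescale into the box
      have hpt : kpt (P (u n)).im (c u₀) σ (y n) (u n) (r n) z =
          Sm P Ψ (y n) (u n) (r n * X) (((1 / X : ℝ) : ℂ) • z') := by
        rw [Sm_smul, kpt_eq_Sm P Ψ (hrp n).ne']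
        congr 1
        field_simp
      have hbox : (((1 / X : ℝ) : ℂ) • z') ∈ Bx 1 ∩ Qu := by
        have f1 : ∀ x : ℝ, |x| < X → |1 / X * x| < 1 := by
          intro x hx
          rw [abs_mul, abs_of_pos (by positivity : 0 < 1 / X), one_div, inv_mul_lt_iff₀ hX0,
            mul_one]
          exact hx
        have g1 : (((1 / X : ℝ) : ℂ) • z').1 = ((1 / X : ℝ) : ℂ) * z'.1 := rfl
        have g2 : (((1 / X : ℝ) : ℂ) • z').2 = ((1 / X : ℝ) : ℂ) * z'.2 := rfl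
        refine ⟨⟨?_, ?_, ?_, ?_⟩, ?_, ?_⟩
        · rw [g1, re_ofReal_mul]
          exact f1 _ ((abs_re_le_norm _).trans_lt (by rw [hX]; linarith))
        · rw [g1, im_ofReal_mul]
          exact f1 _ ((abs_im_le_norm _).trans_lt (by rw [hX]; linarith))
        · rw [g2, re_ofReal_mul, h7]
          refine f1 _ ((abs_re_le_norm _).trans_lt (c4.trans_lt ?_))
          rw [hX]
          have := abs_nonneg (σ - k₀)
          linarith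
        · rw [g2, im_ofReal_mul, h7]
          refine f1 _ ((abs_im_le_norm _).trans_lt (c4.trans_lt ?_))
          rw [hX]
          have := abs_nonneg (σ - k₀)
          linarith
        · rw [g1, im_ofReal_mul]
          exact mul_neg_of_pos_of_neg (by positivity) him
        · rw [g2, im_ofReal_mul, h7]
          exact mul_pos (by positivity) (hKp z hzK)
      rw [hpt]
      rw [lt_div_iff₀ hX0] at h2
      exact hmem (u n) (S.uA n) (y n) (r n * X) (mul_pos (hrp n) hX0) h2.le _ hbox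
  · intro z hz
    have a1 : DifferentiableAt ℂ th (kpt (P (u n)).im (c u₀) σ (y n) (u n) (r n) z) := by
      refine W.dth.differentiableAt (IsOpen.mem_nhds ?_ (hin z hz))
      exact ((isOpen_Mj W).inter (isOpen_Mk W)).inter (isOpen_ne.preimage continuous_snd)
    have a2 := (diff_kpt (P (u n)).im (c u₀) σ (y n) (u n) (r n)) z
    exact (DifferentiableAt.comp z a1 a2).differentiableWithinAt
  · intro z hz
    exact ⟨W.mem _ (hin z hz), fun _ => rfl⟩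

end Vale.Agent.P097.H190.SQ
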