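import Vale.Agent.P097.H190.Seq4
import Vale.Agent.P097.H983.Har

/-!
# P097 / case [c] / row W-SEQ (helper190): **`fin : H226.W.PW → Inst → Brg → A5.PW`**
-/

set_option linter.all false

noncomputable section

open Complex Metric Filter Topology Set MeasureTheory

namespace Vale.Agent.P097.H190.SQ

open Vale.Agent.P097.H85 Vale.Agent.P097.H929 Vale.Agent.P097.H190.Ult Vale.Agent.P097.H190.WO
open Vale.Agent.P097.TC
open Vale.Agent.P097.H226.W (SW Grw Bx Qu Md gg Vq Inst Brg ax)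
open Vale.Agent.P097.A5 (W5 Sq Tou Nst del vp Vn Dm Hon Iso)

theorem locBdd_of {E : Type*} [NormedAddCommGroup E] [NormedSpace ℂ E] [ProperSpace E]
    {ι : Type*} {l : Filter ι} {f : ι → E → ℂ} {D : Set E} (hD : IsOpen D) (hd : LocD l f D)
    (hb : ∀ K : Set E, K ⊆ D → IsCompact K → ∃ C : ℝ, ∀ᶠ n in l, ∀ z ∈ K, ‖f n z‖ ≤ C) :
    LocBdd l f D := by
  intro x hx
  obtain ⟨r₁, hr₁, h1⟩ := hd x hx
  obtain ⟨r₂, hr₂, h2⟩ := Metric.isOpen_iff.mp hD x hx
  obtain ⟨C, hC⟩ := hb (closedBall x (min r₁ r₂ / 2)) ((closedBall_subset_ball (by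
      have := min_le_right r₁ r₂
      have h3 : 0 < min r₁ r₂ := lt_min hr₁ hr₂
      linarith)).trans h2) (isCompact_closedBall _ _)
  have h3 : 0 < min r₁ r₂ := lt_min hr₁ hr₂
  refine ⟨min r₁ r₂ / 2, by positivity, C, ?_⟩
  filter_upwards [h1, hC] with n a1 a2
  refine ⟨a1.mono (ball_subset_ball ?_), fun y hy => a2 y (ball_subset_closedBall hy)⟩
  have := min_le_left r₁ r₂
  linarith

theorem LocD.exp_mul {E : Type*} [NormedAddCommGroup E] [NormedSpace ℂ E]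
    {ι : Type*} {l : Filter ι} {f : ι → E → ℂ} {D : Set E} (h : LocD l f D) (a : ℂ) :
    LocD l (fun n z => exp (a * f n z)) D := by
  intro x hx
  obtain ⟨r, hr, h1⟩ := h x hx
  exact ⟨r, hr, h1.mono fun n hn => (hn.const_mul a).cexp⟩

theorem LocD.mul2 {E : Type*} [NormedAddCommGroup E] [NormedSpace ℂ E]
    {ι : Type*} {l : Filter ι} {f g : ι → E → ℂ} {D : Set E} (h : LocD l f D) (h' : LocD l g D) :
    LocD l (fun n z => 2 * f n z * g n z) D := by
  intro x hx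
  obtain ⟨r, hr, h1⟩ := h x hx
  obtain ⟨r', hr', h1'⟩ := h' x hx
  refine ⟨min r r', by positivity, ?_⟩
  filter_upwards [h1, h1'] with n a1 a2
  exact ((a1.mono (ball_subset_ball (min_le_left _ _))).const_mul 2).mul
    (a2.mono (ball_subset_ball (min_le_right _ _)))

theorem quad_sub {t X : ℝ} (hX : 10 * X * t ≤ 1) :
    H983.QT 0 (0 : ℂ × ℂ) (10 * X * t) ⊆ Bx 1 ∩ Qu := by
  rintro z ⟨h1, h2, h3⟩
  rw [dist_zero_right, Prod.norm_def, max_lt_iff] at h3
  obtain ⟨h4, h5⟩ := h3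
  exact ⟨⟨(abs_re_le_norm _).trans_lt (h4.trans_le hX), (abs_im_le_norm _).trans_lt (h4.trans_le hX),
    (abs_re_le_norm _).trans_lt (h5.trans_le hX), (abs_im_le_norm _).trans_lt (h5.trans_le hX)⟩,
    by linarith, h2⟩

/-- the axis point is mid-level -/
theorem axis_mid {Λ H : ℝ} {F q : ℂ → ℂ} {δ : ℝ} {al p th : ℂ × ℂ → ℂ}
    (hS : SW Λ H F q δ 1 al p th) {X om e t : ℝ} (hX : 1 ≤ X) (hom : 0 < om) (hom1 : om ≤ 1)
    (ht : 0 < t) (htX : 10 * X * t ≤ 1) (hM : Md H F th X om e t) :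
    |(th (ax t)).im| ≤ H - om * e / (243 * X ^ 2) := by
  obtain ⟨β, h1, h2, h3, h4, -⟩ := hM
  have hsub := quad_sub htX
  have key := H983.wall_quad (θ := th) (p := (0 : ℂ × ℂ)) (b := β) (z := ax t) (H := H) (X := X)
    (ρ := t) (om := 1) (om0 := om) hX ht one_pos le_rfl hom hom1 h1 h2
    (by rw [dist_zero_right]; exact h3) (by simp [ax]) (by simp [ax])
    (by
      rw [dist_zero_right, ax, Prod.norm_def]
      simp only [norm_neg, norm_mul, norm_real, norm_I, mul_one, Real.norm_eq_abs, abs_of_pos ht,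
        max_self]
      nlinarith)
    (hS.sq.dth.mono hsub) (fun y hy => hS.sq.mem y (hsub hy))
  have h5 := key.1
  have h6 : om * e ≤ om * (H - |(th β).im|) := mul_le_mul_of_nonneg_left (by linarith) hom.le
  have h7 : 0 < 243 * X ^ 2 := by positivity
  rw [one_mul] at h5
  have : om * e / (243 * X ^ 2) ≤ H - |(th (ax t)).im| := by
    rw [div_le_iff₀ h7]
    linarith
  linarith

/-- bound of `Im F` at mid-level points -/
theorem imF_bound {H : ℝ} {F q : ℂ → ℂ} (hg : Grw H F q) {e : ℝ} (he : 0 < e) :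
    ∃ C : ℝ, ∀ x : ℂ, |x.im| ≤ H - e → |(F x).im| ≤ C := by
  obtain ⟨C, hC⟩ := hg 1 one_pos
  refine ⟨Real.exp (|C| * e ^ (-1 : ℝ)) + 2 * Real.pi * H, fun x hx => ?_⟩
  have hxS : x ∈ Sb H := by
    show |x.im| < H
    linarith
  have h1 := (hC x hxS).1
  have hd : e ≤ H - |x.im| := by linarith
  have h2 : (H - |x.im|) ^ (-1 : ℝ) ≤ e ^ (-1 : ℝ) :=
    Real.rpow_le_rpow_of_nonpos he hd (by norm_num)
  have h3 : 0 ≤ (H - |x.im|) ^ (-1 : ℝ) := Real.rpow_nonneg (by linarith) _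
  have h4 : C * (H - |x.im|) ^ (-1 : ℝ) ≤ |C| * e ^ (-1 : ℝ) :=
    (mul_le_mul_of_nonneg_right (le_abs_self C) h3).trans
      (mul_le_mul_of_nonneg_left h2 (abs_nonneg C))
  have h5 := h1.trans (Real.exp_le_exp.mpr h4)
  have h6 := (abs_im_le_norm (F x - 2 * Real.pi * x)).trans h5
  have h7 : (F x - 2 * Real.pi * x).im = (F x).im - 2 * Real.pi * x.im := by simp [mul_im]
  rw [h7] at h6
  have h8 : |2 * Real.pi * x.im| ≤ 2 * Real.pi * H := by
    rw [abs_mul, abs_of_pos (by positivity : 0 < 2 * Real.pi)]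
    exact mul_le_mul_of_nonneg_left (by linarith) (by positivity)
  have h9 := abs_sub_abs_le_abs_sub (F x).im (2 * Real.pi * x.im)
  linarith

theorem Vz_eq (F : ℂ → ℂ) (P : ℝ → ℂ) (Ψ : ℂ → ℂ) (al th : ℂ × ℂ → ℂ) (y u t : ℝ) :
    Vz F P Ψ al th y u t = -2 * (del F al th (Sm P Ψ y u t ax₀)).im := by
  simp [Vz, gg, del, mul_re, mul_im]

/-- **row W-SEQ** -/
theorem fin (hPW : H226.W.PW) (hI : Inst) (hBr : Brg) : A5.PW := by
  intro Λ H F q b m Ψ Mj Mk B A P c k K s al p th J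
  refine ⟨∅, measure_empty, fun {y₀ u₀ σ y u} W S hT _ {C c₁} hC hc₁ {h} hN => ?_⟩
  obtain ⟨X, om, e, K₃, d, hX, hom0, hom1, he, hK₃, hd, hd1, hbr⟩ := hBr W C c₁ hC hc₁
  have hn1 : ∀ n : ℕ, (0 : ℝ) < (n : ℝ) + 1 := fun n => by positivity
  set g : ℕ → ℝ := fun n => min (d * h n / 2) (1 / ((n : ℝ) + 1)) with hg
  have hh : ∀ n, 0 < h n := fun n => (hN n).h0
  have hg0 : ∀ n, 0 < g n := fun n => lt_min (by have := hh n; positivity) (by positivity)
  have hg1 : ∀ n, g n ≤ d * h n / 2 := fun n => min_le_left _ _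
  have hg2 : ∀ n, g n ≤ 1 / ((n : ℝ) + 1) := fun n => min_le_right _ _
  refine ⟨g, fun n => ⟨hg0 n, ?_⟩, ?_⟩
  · have h1 := hg1 n
    have h2 := hh n
    nlinarith
  intro G hG
  set T : ℕ → ℝ := fun n => ∑ j ∈ Finset.range (n + 1), Aj P Ψ k s al p (y n) (u n) (G n) j with hTd
  have hA0 : ∀ n j, 0 ≤ Aj P Ψ k s al p (y n) (u n) (G n) j := fun n j => le_max_right _ _
  have hT0 : ∀ n, 0 ≤ T n := fun n => Finset.sum_nonneg fun j _ => hA0 n j
  set ρ : ℕ → ℝ := fun n => G n / (((n : ℝ) + 1) * (1 + T n)) with hρ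
  have hden : ∀ n : ℕ, 1 ≤ ((n : ℝ) + 1) * (1 + T n) := fun n => by
    have h1 := hT0 n
    have h2 : (0 : ℝ) ≤ n := Nat.cast_nonneg n
    nlinarith
  refine ⟨ρ, fun n => ⟨div_pos (hG n).1 (by linarith [hden n]),
    div_le_self (hG n).1.le (hden n)⟩, ?_⟩
  intro r hr hr0 𝒰 h𝒰 V₀ hrec
  -- scales
  have hGp : ∀ n, 0 < G n := fun n => (hG n).1
  have hG0 : Tendsto G (𝒰 : Filter ℕ) (𝓝 0) := by
    refine (squeeze_zero (fun n => (hGp n).le) (fun n => (hG n).2.trans (hg2 n)) ?_).mono_left h𝒰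
    exact tendsto_one_div_add_atTop_nhds_zero_nat
  have hrG' : ∀ n, r n / G n ≤ 1 / (((n : ℝ) + 1) * (1 + T n)) := by
    intro n
    rw [div_le_div_iff₀ (hGp n) (by linarith [hden n]), one_mul]
    have := (hr n).2
    rw [hρ] at this
    simp only at this
    rwa [le_div_iff₀ (by linarith [hden n])] at this
  have hrG1 : ∀ n, r n / G n ≤ 1 / ((n : ℝ) + 1) := fun n => (hrG' n).trans
    (one_div_le_one_div_of_le (hn1 n) (by nlinarith [hT0 n, hn1 n]))
  have hrG : Tendsto (fun n => r n / G n) (𝒰 : Filter ℕ) (𝓝 0) := by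
    refine (squeeze_zero (fun n => (div_pos (hr n).1 (hGp n)).le) hrG1 ?_).mono_left h𝒰
    exact tendsto_one_div_add_atTop_nhds_zero_nat
  have hrleG : ∀ n, r n ≤ G n := fun n => (hr n).2.trans (div_le_self (hGp n).le (hden n))
  have hthr : ∀ n, ∀ j : ℕ, j ≤ n → r n / G n * Aj P Ψ k s al p (y n) (u n) (G n) j ≤ 1 := by
    intro n j hj
    have h1 : Aj P Ψ k s al p (y n) (u n) (G n) j ≤ T n :=
      Finset.single_le_sum (f := fun j => Aj P Ψ k s al p (y n) (u n) (G n) j)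
        (fun i _ => hA0 n i) (Finset.mem_range.mpr (by omega))
    calc r n / G n * Aj P Ψ k s al p (y n) (u n) (G n) j
        ≤ 1 / (((n : ℝ) + 1) * (1 + T n)) * T n :=
          mul_le_mul (hrG' n) h1 (hA0 n j) (by have := hden n; positivity)
      _ ≤ 1 := by
          rw [one_div, inv_mul_le_iff₀ (by linarith [hden n])]
          have := hT0 n
          have := hn1 n
          have h2 : (0 : ℝ) ≤ n := Nat.cast_nonneg n
          nlinarith
  have hr0' : Tendsto r (𝒰 : Filter ℕ) (𝓝 0) := hr0.mono_left h𝒰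
  -- the slope
  obtain ⟨k₀, hk⟩ := exists_k W S 𝒰
  have hkσ := k_le W S hT 𝒰 h𝒰 hk
  have hks : k₀ < s := lt_of_le_of_lt hkσ W.σs
  have hcu := (c_tendsto W S).mono_left h𝒰
  -- domains
  set φ : ℕ → ℂ × ℂ → ℂ × ℂ := fun n => kpt (P (u n)).im (c u₀) σ (y n) (u n) (r n) with hφ
  have hwk := wk_of W S h𝒰 (r := r) (Eventually.of_forall fun n => (hr n).1) hr0'
  have hal : LocD (𝒰 : Filter ℕ) (fun n z => al (φ n z)) (WO.Wd (s - σ)) :=
    locD_kpt (R := fun n => (P (u n)).im) (isOpen_Mk W) W.dal (isOpen_Wd _) hwk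
  have hp : LocD (𝒰 : Filter ℕ) (fun n z => p (φ n z)) (WO.Wd (s - σ)) :=
    locD_kpt (R := fun n => (P (u n)).im) (isOpen_Mk W) W.dp (isOpen_Wd _) hwk
  -- the bridge
  have hbrg : ∀ᶠ n in (𝒰 : Filter ℕ), ∀ t : ℝ, r n ≤ t → t ≤ G n →
      Md H F (th ∘ Sm P Ψ (y n) (u n) (G n)) X om e (t / G n) ∧
      ∀ sg : ℝ, (sg = 1 ∨ sg = -1) →
        sg * Vz F P Ψ al th (y n) (u n) t ≤ K₃ * (1 + max (sg * (-2 * Vn F P al th y u n t)) 0) ∧
        sg * (-2 * Vn F P al th y u n t) ≤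
          K₃ * (1 + max (sg * Vz F P Ψ al th (y n) (u n) t) 0) := by
    have e1 : ∀ᶠ n in (𝒰 : Filter ℕ), G n < d := hG0.eventually_lt_const hd
    filter_upwards [h𝒰 (ev_near S hd), e1] with n a1 a2 t ht1 ht2
    have ht0 : 0 < t := (hr n).1.trans_le ht1
    have hb := hbr (u n) (S.uA n) a1.1 (y n) a1.2 (h n) (hN n) (G n) (hGp n) a2.le
      (((hG n).2.trans (hg1 n)).trans (by have := hh n; nlinarith)) (t / G n)
      (div_pos ht0 (hGp n)) ((div_le_one (hGp n)).mpr ht2)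
    have e2 : G n * (t / G n) = t := mul_div_cancel₀ _ (hGp n).ne'
    have e3 : Vq F (fun z => al (H226.W.StM P Ψ (y n) (u n) (G n) z))
        (fun z => th (H226.W.StM P Ψ (y n) (u n) (G n) z)) (t / G n) =
        Vz F P Ψ al th (y n) (u n) t := by
      have := Vq_eq F P Ψ al th (y n) (u n) (G n) (t / G n)
      rw [e2] at this
      exact this
    rw [e3, e2] at hb
    exact hb
  have hmd : ∀ᶠ n in (𝒰 : Filter ℕ), ∀ t : ℝ, r n ≤ t → t ≤ G n →
      Md H F (th ∘ Sm P Ψ (y n) (u n) (G n)) X om e (t / G n) :=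
    hbrg.mono fun n hn t h1 h2 => (hn t h1 h2).1
  -- absolute comparison
  have habs : ∀ {a v : ℝ}, (∀ sg : ℝ, (sg = 1 ∨ sg = -1) →
      sg * a ≤ K₃ * (1 + max (sg * (-2 * v)) 0) ∧ sg * (-2 * v) ≤ K₃ * (1 + max (sg * a) 0)) →
      |a| ≤ K₃ * (1 + 2 * |v|) ∧ 2 * |v| ≤ K₃ * (1 + |a|) := by
    intro a v hav
    have h1 := hav 1 (Or.inl rfl)
    have h2 := hav (-1) (Or.inr rfl)
    have hK0 : 0 ≤ K₃ := by linarith
    have m1 : max (1 * (-2 * v)) 0 ≤ 2 * |v| := max_le (by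
      have := neg_abs_le v
      linarith) (by positivity)
    have m2 : max (-1 * (-2 * v)) 0 ≤ 2 * |v| := max_le (by
      have := le_abs_self v
      linarith) (by positivity)
    have m3 : max (1 * a) 0 ≤ |a| := max_le (by rw [one_mul]; exact le_abs_self a) (abs_nonneg a)
    have m4 : max (-1 * a) 0 ≤ |a| := max_le (by rw [neg_one_mul]; exact neg_le_abs a) (abs_nonneg a)
    have n1 := mul_le_mul_of_nonneg_left m1 hK0
    have n2 := mul_le_mul_of_nonneg_left m2 hK0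
    have n3 := mul_le_mul_of_nonneg_left m3 hK0
    have n4 := mul_le_mul_of_nonneg_left m4 hK0
    constructor
    · rw [abs_le]
      constructor <;> nlinarith [h1.1, h2.1]
    · have : |v| = max v (-v) := rfl
      rcases le_total 0 v with hv | hv
      · rw [abs_of_nonneg hv]
        nlinarith [h2.2]
      · rw [abs_of_nonpos hv]
        nlinarith [h1.2]
  -- constants
  set K₀ : ℝ := 2 * K₃ ^ 2 with hK₀
  set V₁ : ℝ := K₃ + 2 * K₃ * |V₀| + 2 * K₃ ^ 2 with hV₁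
  have hK₀1 : 1 ≤ K₀ := by rw [hK₀]; nlinarith
  have hV₁0 : 0 ≤ V₁ := by
    have := abs_nonneg V₀
    rw [hV₁]; positivity
  have hrecz : ∀ᶠ n in (𝒰 : Filter ℕ), ∀ t : ℝ, r n ≤ t → t ≤ G n →
      |Vz F P Ψ al th (y n) (u n) t| ≤ K₀ * |Vz F P Ψ al th (y n) (u n) (r n)| + V₁ := by
    filter_upwards [hbrg, hrec] with n a1 a2 t ht1 ht2
    have b1 := (habs (a1 t ht1 ht2).2).1
    have b2 := (habs (a1 (r n) le_rfl (hrleG n)).2).2
    have b3 := a2 t ht1 ht2
    have b4 := le_abs_self V₀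
    have b5 : |Vn F P al th y u n t| ≤ 2 * |Vn F P al th y u n (r n)| + |V₀| := by linarith
    calc |Vz F P Ψ al th (y n) (u n) t| ≤ K₃ * (1 + 2 * |Vn F P al th y u n t|) := b1
      _ ≤ K₃ * (1 + 2 * (2 * |Vn F P al th y u n (r n)| + |V₀|)) :=
          mul_le_mul_of_nonneg_left (by linarith) (by linarith)
      _ = K₃ + 2 * K₃ * |V₀| + 2 * K₃ * (2 * |Vn F P al th y u n (r n)|) := by ring
      _ ≤ K₃ + 2 * K₃ * |V₀| + 2 * K₃ * (K₃ * (1 + |Vz F P Ψ al th (y n) (u n) (r n)|)) := by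
          have := mul_le_mul_of_nonneg_left b2 (by linarith : 0 ≤ 2 * K₃)
          linarith
      _ = _ := by rw [hK₀, hV₁]; ring
  -- the bounds
  have hbound : ∀ sg : ℝ, (sg = 1 ∨ sg = -1) →
      (∀ᶠ n in (𝒰 : Filter ℕ), sg * Vz F P Ψ al th (y n) (u n) (r n) ≤ V₁) →
      LocBdd (𝒰 : Filter ℕ) (fun n z => exp (sg * I * al (φ n z))) (WO.Wd (s - σ)) ∧
      LocBdd (𝒰 : Filter ℕ) (fun n z => 2 * p (φ n z) * exp (sg * I * al (φ n z)))
        (WO.Wd (s - σ)) := by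
    intro sg hsg hV
    have hmb : ∀ K' : Set (ℂ × ℂ), K' ⊆ WO.Wd (s - σ) → IsCompact K' → ∃ C : ℝ,
        ∀ᶠ n in (𝒰 : Filter ℕ), ∀ z ∈ K', ‖exp (sg * I * al (φ n z))‖ ≤ C ∧
        ‖2 * p (φ n z) * exp (sg * I * al (φ n z))‖ ≤ C := fun K' hK'W hK' =>
      main_bound hPW W.crv.cv (grw_of W) (exp_of W S) (hsw_of hI W S) hX hom0 hom1 he hV₁0 hK₀1
        (𝒰 : Filter ℕ) h𝒰 (Eventually.of_forall fun n => ⟨(hr n).1, hrleG n⟩) hG0 hrG hcu hk hks
        hmd hrecz (Eventually.of_forall hthr) hsg hV hK' hK'W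
    have hexp := LocD.exp_mul hal (sg * I)
    refine ⟨locBdd_of (isOpen_Wd _) hexp fun K' h1 h2 => ?_,
      locBdd_of (isOpen_Wd _) (LocD.mul2 hp hexp) fun K' h1 h2 => ?_⟩
    · obtain ⟨C', hC'⟩ := hmb K' h1 h2
      exact ⟨C', hC'.mono fun n hn z hz => (hn z hz).1⟩
    · obtain ⟨C', hC'⟩ := hmb K' h1 h2
      exact ⟨C', hC'.mono fun n hn z hz => (hn z hz).2⟩
  have e1 : ∀ z : ℂ, ((1 : ℝ) : ℂ) * I * z = I * z := fun z => by push_cast; ring
  have e2 : ∀ z : ℂ, ((-1 : ℝ) : ℂ) * I * z = -I * z := fun z => by push_cast; ring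
  -- the axis point in the `kpt` chart
  set z₀ : ℂ × ℂ := (ax₀.1 - ((σ - k₀ : ℝ) : ℂ) * ax₀.2, ax₀.2) with hz₀
  have hz₀W : z₀ ∈ WO.Wd (s - σ) := by
    refine ⟨by simp [hz₀, ax₀], ?_⟩
    show (ax₀.1 - ((σ - k₀ : ℝ) : ℂ) * ax₀.2).im < (s - σ) * ax₀.2.im
    simp only [ax₀, sub_im, neg_im, I_im, im_ofReal_mul]
    linarith
  set zn : ℕ → ℂ × ℂ := fun n => ts P Ψ (c u₀) σ (u n) (r n) ax₀ with hzn
  have hznt : Tendsto zn (𝒰 : Filter ℕ) (𝓝 z₀) :=
    ts_tendsto (P := P) (Ψ := Ψ) (σ := σ) (exp_of W S) (𝒰 : Filter ℕ) hcu hk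
      (Eventually.of_forall fun n => (hr n).1) hr0' (z := ax₀) (by simp [ax₀])
  have hφz : ∀ n, φ n (zn n) = Sm P Ψ (y n) (u n) (r n) ax₀ := by
    intro n
    rw [hφ, hzn]
    simp only
    rw [kpt_eq_Sm P Ψ (hr n).1.ne', st_ts]
  -- the imaginary part of F at the axis point
  obtain ⟨CF, hCF⟩ := imF_bound (grw_of W) (e := om * e / (243 * X ^ 2)) (by positivity)
  have hF : ∀ᶠ n in (𝒰 : Filter ℕ), |(F (th (Sm P Ψ (y n) (u n) (r n) ax₀))).im| ≤ CF := by
    obtain ⟨ρ₁, hρ₁, sw1⟩ := hsw_of hI W S ((s - k₀) / 4) (by linarith)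
    have f1 : ∀ᶠ n in (𝒰 : Filter ℕ), G n < ρ₁ := hG0.eventually_lt_const hρ₁
    have f2 : ∀ᶠ n in (𝒰 : Filter ℕ), r n / G n < 1 / (10 * X) :=
      hrG.eventually_lt_const (by positivity)
    have f3 : ∀ᶠ n in (𝒰 : Filter ℕ), |k (u n) - k₀| < (s - k₀) / 4 := by
      have := hk.eventually (ball_mem_nhds k₀ (by linarith : 0 < (s - k₀) / 4))
      filter_upwards [this] with n hn
      rwa [Real.dist_eq] at hn
    filter_upwards [f1, f2, f3, h𝒰 sw1, hmd] with n a1 a2 a3 a4 a5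
    have b1 := (abs_lt.mp a3).2
    have hS := a4 (G n) (hGp n) a1.le ((s - k₀) / 4) (by linarith) (by linarith)
    have ht : 0 < r n / G n := div_pos (hr n).1 (hGp n)
    have htX : 10 * X * (r n / G n) ≤ 1 := by
      rw [lt_div_iff₀ (by positivity)] at a2
      linarith
    have b2 := axis_mid hS hX hom0 hom1 ht htX (a5 (r n) le_rfl (hrleG n))
    simp only [Function.comp_apply] at b2
    rw [ax_eq, Sm_smul, mul_div_cancel₀ _ (hGp n).ne'] at b2
    exact hCF _ b2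
  have hal_im : ∀ n, (al (φ n (zn n))).im = -(Vz F P Ψ al th (y n) (u n) (r n)) / 2 +
      (F (th (Sm P Ψ (y n) (u n) (r n) ax₀))).im := by
    intro n
    rw [hφz, Vz_eq]
    simp only [del, sub_im]
    ring
  refine ⟨fun hV => ?_, fun hV => ?_, fun hV => ?_⟩
  · -- honest
    have hz : ∀ sg : ℝ, (sg = 1 ∨ sg = -1) →
        ∀ᶠ n in (𝒰 : Filter ℕ), sg * Vz F P Ψ al th (y n) (u n) (r n) ≤ V₁ := by
      intro sg hsg
      filter_upwards [hbrg, hV] with n a1 a2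
      have b1 := (habs (a1 (r n) le_rfl (hrleG n)).2).1
      have b2 : |Vn F P al th y u n (r n)| ≤ |V₀| := a2.trans (le_abs_self V₀)
      have b3 : sg * Vz F P Ψ al th (y n) (u n) (r n) ≤ |Vz F P Ψ al th (y n) (u n) (r n)| := by
        rcases hsg with rfl | rfl
        · rw [one_mul]; exact le_abs_self _
        · rw [neg_one_mul]; exact neg_le_abs _
      have b4 : K₃ * (1 + 2 * |Vn F P al th y u n (r n)|) ≤ K₃ * (1 + 2 * |V₀|) :=
        mul_le_mul_of_nonneg_left (by linarith) (by linarith)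
      have b5 : K₃ * (1 + 2 * |V₀|) ≤ V₁ := by rw [hV₁]; nlinarith
      linarith
    obtain ⟨c1, c2⟩ := hbound 1 (Or.inl rfl) (hz 1 (Or.inl rfl))
    obtain ⟨c3, c4⟩ := hbound (-1) (Or.inr rfl) (hz (-1) (Or.inr rfl))
    simp only [e1] at c1 c2
    simp only [e2] at c3 c4
    exact hon_both 𝒰 hz₀W hal hp c1 c2 c3
  · -- isotropic, sign `+`
    have hz : ∀ᶠ n in (𝒰 : Filter ℕ), 1 * Vz F P Ψ al th (y n) (u n) (r n) ≤ V₁ := by
      filter_upwards [hbrg, hV.eventually_ge_atTop 0] with n a1 a2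
      have b1 := ((a1 (r n) le_rfl (hrleG n)).2 1 (Or.inl rfl)).1
      have b2 : max (1 * (-2 * Vn F P al th y u n (r n))) 0 = 0 := max_eq_right (by linarith)
      rw [b2] at b1
      have := abs_nonneg V₀
      have b5 : K₃ * (1 + 0) ≤ V₁ := by rw [hV₁]; nlinarith
      linarith
    obtain ⟨c1, c2⟩ := hbound 1 (Or.inl rfl) hz
    simp only [e1] at c1 c2
    refine iso_outm 𝒰 hz₀W hznt hal hp c1 c2 ?_
    refine tendsto_atTop.mpr fun M => ?_
    set M' : ℝ := (|2 * (M + CF)| + 1) * K₃ + K₃ with hM'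
    filter_upwards [hbrg, hV.eventually_ge_atTop M', hF] with n a1 a2 a3
    have b1 := ((a1 (r n) le_rfl (hrleG n)).2 (-1) (Or.inr rfl)).2
    rw [hal_im n]
    have b3 := (abs_le.mp a3).1
    have b4 : M' ≤ -1 * (-2 * Vn F P al th y u n (r n)) := by
      have : 0 ≤ M' := by rw [hM']; positivity
      linarith
    have b5 : M' ≤ K₃ * (1 + max (-1 * Vz F P Ψ al th (y n) (u n) (r n)) 0) := b4.trans b1
    have b6 : |2 * (M + CF)| + 1 ≤ max (-1 * Vz F P Ψ al th (y n) (u n) (r n)) 0 := by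
      rw [hM'] at b5
      have hK : 0 < K₃ := by linarith
      by_contra hcon
      push Not at hcon
      have := mul_lt_mul_of_pos_left hcon hK
      nlinarith
    have b7 : |2 * (M + CF)| + 1 ≤ -1 * Vz F P Ψ al th (y n) (u n) (r n) := by
      rcases le_max_iff.mp b6 with h1 | h1
      · exact h1
      · have := abs_nonneg (2 * (M + CF))
        linarith
    have b8 := le_abs_self (2 * (M + CF))
    linarith
  · -- isotropic, sign `-`
    have hz : ∀ᶠ n in (𝒰 : Filter ℕ), -1 * Vz F P Ψ al th (y n) (u n) (r n) ≤ V₁ := by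
      filter_upwards [hbrg, hV.eventually_le_atBot 0] with n a1 a2
      have b1 := ((a1 (r n) le_rfl (hrleG n)).2 (-1) (Or.inr rfl)).1
      have b2 : max (-1 * (-2 * Vn F P al th y u n (r n))) 0 = 0 := max_eq_right (by linarith)
      rw [b2] at b1
      have := abs_nonneg V₀
      have b5 : K₃ * (1 + 0) ≤ V₁ := by rw [hV₁]; nlinarith
      linarith
    obtain ⟨c1, c2⟩ := hbound (-1) (Or.inr rfl) hz
    simp only [e2] at c1 c2
    refine iso_outm' 𝒰 hz₀W hznt hal hp c1 c2 ?_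
    refine tendsto_atBot.mpr fun M => ?_
    set M' : ℝ := (|2 * (CF - M)| + 1) * K₃ + K₃ with hM'
    filter_upwards [hbrg, hV.eventually_le_atBot (-M'), hF] with n a1 a2 a3
    have b1 := ((a1 (r n) le_rfl (hrleG n)).2 1 (Or.inl rfl)).2
    rw [hal_im n]
    have b3 := (abs_le.mp a3).2
    have b4 : M' ≤ 1 * (-2 * Vn F P al th y u n (r n)) := by
      have : 0 ≤ M' := by rw [hM']; positivity
      linarith
    have b5 : M' ≤ K₃ * (1 + max (1 * Vz F P Ψ al th (y n) (u n) (r n)) 0) := b4.trans b1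
    have b6 : |2 * (CF - M)| + 1 ≤ max (1 * Vz F P Ψ al th (y n) (u n) (r n)) 0 := by
      rw [hM'] at b5
      have hK : 0 < K₃ := by linarith
      by_contra hcon
      push Not at hcon
      have := mul_lt_mul_of_pos_left hcon hK
      nlinarith
    have b7 : |2 * (CF - M)| + 1 ≤ 1 * Vz F P Ψ al th (y n) (u n) (r n) := by
      rcases le_max_iff.mp b6 with h1 | h1
      · exact h1
      · have := abs_nonneg (2 * (CF - M))
        linarith
    have b8 := le_abs_self (2 * (CF - M))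
    linarith

end Vale.Agent.P097.H190.SQ
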