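import Vale.Agent.P097.H877.Bd.Priv
import Vale.Agent.P097.H877.Bd.Fat3

/-!
Row TR, first part: Egorov on cones, a maximum principle on sawtooth domains, and the one variable
lemma of Loewner type for compositions with the Poisson integral of a compact set.
-/

set_option linter.all false

open Complex Metric Filter Topology Set MeasureTheory

namespace Vale.Agent.P097.H190.TR

open Vale.Agent.P097.H877.Bd

/-- **Egorov on cones**, for an arbitrary function and an arbitrary set `E` -/
theorem egorov_cone {D : Set ℂ} {f : ℂ → ℂ} {E : Set ℝ}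
    (hE : ∀ x ∈ E, ∃ k > 0, ∃ h > 0, cone k h x ⊆ D ∧
      Tendsto f (𝓝[cone k h x] (x : ℂ)) (𝓝 0)) :
    ∀ᵐ x : ℝ, x ∈ E → ∃ k > 0, ∃ h > 0, ∃ K : Set ℝ, IsCompact K ∧ x ∈ K ∧ Dens K x ∧
      saw k h K ⊆ D ∧ (∀ z ∈ saw k h K, ‖f z‖ ≤ 1) ∧
      ∀ ε > 0, ∃ δ > 0, ∀ y ∈ K, ∀ z ∈ cone k δ y, ‖f z‖ ≤ ε := by
  set r : ℕ → ℝ := fun n => 1 / ((n : ℝ) + 1) with hr
  have hr0 : ∀ n, 0 < r n := fun n => by simp only [hr]; positivity
  set P : ℝ → Prop := fun x => ∃ k > 0, ∃ h > 0, ∃ K : Set ℝ, IsCompact K ∧ x ∈ K ∧ Dens K x ∧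
      saw k h K ⊆ D ∧ (∀ z ∈ saw k h K, ‖f z‖ ≤ 1) ∧
      ∀ ε > 0, ∃ δ > 0, ∀ y ∈ K, ∀ z ∈ cone k δ y, ‖f z‖ ≤ ε with hP
  -- closed sets
  set Cl : ℝ → ℝ → ℝ → Set ℝ := fun k h M => {x : ℝ | cone k h x ⊆ D ∧ ∀ z ∈ cone k h x, ‖f z‖ ≤ M}
    with hCl
  have hClc : ∀ k h M, IsClosed (Cl k h M) := fun k h M => isClosed_coneBound
  -- one step: uniform aperture and height
  have key : ∀ n : ℕ, ∀ R : ℕ, volume {x : ℝ | ¬ P x ∧ x ∈ Cl (r n) (r n) 1 ∧
      Tendsto f (𝓝[cone (r n) (r n) x] (x : ℂ)) (𝓝 0) ∧ x ∈ closedBall (0 : ℝ) R} = 0 := by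
    intro n R
    by_contra hne
    set B : Set ℝ := {x : ℝ | ¬ P x ∧ x ∈ Cl (r n) (r n) 1 ∧
      Tendsto f (𝓝[cone (r n) (r n) x] (x : ℂ)) (𝓝 0) ∧ x ∈ closedBall (0 : ℝ) R} with hB
    set ν : Measure ℝ := volume.restrict B with hν
    have hBfin : volume B < ⊤ :=
      (measure_mono (fun x hx => hx.2.2.2)).trans_lt (isCompact_closedBall (0 : ℝ) R).measure_lt_top
    have hνf : IsFiniteMeasure ν := ⟨by simpa [hν] using hBfin⟩
    have hν0 : ν univ ≠ 0 := by simpa [hν] using hne
    obtain ⟨ε', hε'0, hε'⟩ := ENNReal.exists_pos_sum_of_countable hν0 ℕ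
    have hstep : ∀ m : ℕ, ∃ j : ℕ, ν (Cl (r n) (r j) (r m))ᶜ < ε' m := by
      intro m
      have hmono : Antitone fun j : ℕ => (Cl (r n) (r j) (r m))ᶜ := by
        intro i j hij
        refine compl_subset_compl.mpr fun x hx => ?_
        have hle : r j ≤ r i := by
          simp only [hr]
          have : (i : ℝ) ≤ j := Nat.cast_le.mpr hij
          gcongr
        have hc := cone_mono (x := x) (hr0 n) le_rfl hle
        exact ⟨hc.trans hx.1, fun z hz => hx.2 z (hc hz)⟩
      have hinter : ν (⋂ j : ℕ, (Cl (r n) (r j) (r m))ᶜ) = 0 := by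
        rw [hν, Measure.restrict_apply (MeasurableSet.iInter fun j => (hClc _ _ _).measurableSet.compl)]
        refine measure_mono_null (t := ∅) (fun x hx => ?_) measure_empty
        obtain ⟨hx1, hxP, hxC, hxt, hxR⟩ := hx
        have h2 := Metric.tendsto_nhds.mp hxt (r m) (hr0 m)
        rw [eventually_nhdsWithin_iff] at h2
        obtain ⟨δ, hδ, h3⟩ := Metric.eventually_nhds_iff.mp h2
        obtain ⟨j, hj⟩ := exists_nat_gt (2 / δ + 1 / r n)
        have hjn : r j ≤ r n := by
          have h5 : 1 / r n ≤ j := by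
            have : 0 < 2 / δ := by positivity
            linarith
          simp only [hr]
          rw [div_le_iff₀ (by positivity)]
          rw [div_le_iff₀ (hr0 n)] at h5
          simp only [hr] at h5
          have := hr0 n
          simp only [hr] at this
          nlinarith
        have hjd : 2 * r j < δ := by
          have h5 : 2 / δ < j := by
            have : 0 < 1 / r n := one_div_pos.mpr (hr0 n)
            linarith
          rw [div_lt_iff₀ hδ] at h5
          simp only [hr]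
          rw [mul_one_div, div_lt_iff₀ (by positivity)]
          nlinarith
        have hrn1 : r n ≤ 1 := by
          simp only [hr]
          rw [div_le_one (by positivity)]
          have : (0 : ℝ) ≤ n := Nat.cast_nonneg n
          linarith
        refine (mem_iInter.mp hx1 j) ⟨?_, ?_⟩
        · exact (cone_mono (hr0 n) le_rfl hjn).trans hxC.1
        · intro z hz
          have hz' : z ∈ cone (r n) (r n) x := cone_mono (hr0 n) le_rfl hjn hz
          have hzi := cone_im_pos (hr0 n) hz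
          have h6 : dist z (x : ℂ) < δ := by
            rw [dist_eq_norm]
            have h7 := Complex.norm_le_abs_re_add_abs_im (z - x)
            simp only [Complex.sub_re, Complex.ofReal_re, Complex.sub_im, Complex.ofReal_im,
              sub_zero] at h7
            rw [abs_of_pos hzi] at h7
            have h8 := hz.1
            have h9 := hz.2
            nlinarith
          have h10 := h3 h6 hz'
          rw [dist_zero_right] at h10
          exact h10.le
      have htend : Tendsto (fun j : ℕ => ν (Cl (r n) (r j) (r m))ᶜ) atTop (𝓝 0) := by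
        rw [← hinter]
        exact tendsto_measure_iInter_atTop
          (fun j => (hClc _ _ _).measurableSet.compl.nullMeasurableSet) hmono
          ⟨0, measure_ne_top _ _⟩
      have h11 : (0 : ENNReal) < ε' m := by exact_mod_cast hε'0 m
      exact (htend.eventually (gt_mem_nhds h11)).exists
    choose j hj using hstep
    set K : Set ℝ := (⋂ m, Cl (r n) (r (j m)) (r m)) ∩ (Cl (r n) (r n) 1 ∩ closedBall (0 : ℝ) R)
      with hK
    have hKc : IsCompact K :=
      (((isCompact_closedBall (0 : ℝ) R).inter_left (hClc _ _ _)).inter_left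
        (isClosed_iInter fun m => hClc _ _ _))
    have hKν : ν Kᶜ < ν univ := by
      have h2 : Kᶜ = (⋃ m, (Cl (r n) (r (j m)) (r m))ᶜ) ∪ (Cl (r n) (r n) 1 ∩ closedBall (0 : ℝ) R)ᶜ := by
        rw [hK, compl_inter, compl_iInter]
      have h3 : ν (Cl (r n) (r n) 1 ∩ closedBall (0 : ℝ) R)ᶜ = 0 := by
        rw [hν, Measure.restrict_apply
          (((hClc _ _ _).inter isClosed_closedBall).measurableSet.compl)]
        refine measure_mono_null (t := ∅) (fun x hx => ?_) measure_empty
        exact hx.1 ⟨hx.2.2.1, hx.2.2.2.2⟩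
      calc ν Kᶜ ≤ ν (⋃ m, (Cl (r n) (r (j m)) (r m))ᶜ) +
            ν (Cl (r n) (r n) 1 ∩ closedBall (0 : ℝ) R)ᶜ := by rw [h2]; exact measure_union_le _ _
        _ ≤ (∑' m, ν (Cl (r n) (r (j m)) (r m))ᶜ) + 0 := by
            rw [h3]; exact add_le_add (measure_iUnion_le _) le_rfl
        _ ≤ ∑' m, (ε' m : ENNReal) := by
            rw [add_zero]; exact ENNReal.tsum_le_tsum fun m => (hj m).le
        _ < ν univ := hε'
    have hKpos : volume (K ∩ B) ≠ 0 := by
      intro h0
      have h2 : ν K = 0 := by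
        rw [hν, Measure.restrict_apply hKc.measurableSet]; exact h0
      have h3 : ν univ ≤ ν K + ν Kᶜ := by
        rw [← union_compl_self K]; exact measure_union_le _ _
      rw [h2, zero_add] at h3
      exact absurd hKν (not_lt.mpr h3)
    obtain ⟨x, hx, hxD⟩ : ∃ x ∈ K ∩ B, Dens K x := by
      by_contra hcon
      push Not at hcon
      refine hKpos (measure_mono_null (t := {x | ¬ (x ∈ K → Dens K x)}) (fun x hx => ?_)
        (ae_iff.mp (ae_dens hKc.measurableSet)))
      exact fun h => hcon x hx (h hx.1)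
    have hsD : saw (r n) (r n) K ⊆ D := by
      intro z hz
      obtain ⟨y, hy, hzy⟩ := mem_saw.mp hz
      exact hy.2.1.1 hzy
    refine hx.2.1 ⟨r n, hr0 n, r n, hr0 n, K, hKc, hx.1, hxD, hsD, ?_, ?_⟩
    · intro z hz
      obtain ⟨y, hy, hzy⟩ := mem_saw.mp hz
      exact hy.2.1.2 z hzy
    · intro ε hε
      obtain ⟨m, hm⟩ := exists_nat_gt (1 / ε)
      have hrm : r m ≤ ε := by
        simp only [hr]
        rw [div_lt_iff₀ hε] at hm
        rw [div_le_iff₀ (by positivity)]
        nlinarith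
      exact ⟨r (j m), hr0 _, fun y hy z hz => ((mem_iInter.mp hy.1 m).2 z hz).trans hrm⟩
  have h2 : volume (⋃ n : ℕ, ⋃ R : ℕ, {x : ℝ | ¬ P x ∧ x ∈ Cl (r n) (r n) 1 ∧
      Tendsto f (𝓝[cone (r n) (r n) x] (x : ℂ)) (𝓝 0) ∧ x ∈ closedBall (0 : ℝ) R}) = 0 :=
    measure_iUnion_null fun n => measure_iUnion_null fun R => key n R
  rw [ae_iff]
  refine measure_mono_null (fun x hx => ?_) h2
  simp only [mem_ofPred_eq, Classical.not_imp] at hx
  obtain ⟨hxE, hxP⟩ := hx
  obtain ⟨k, hk, h, hh, hcD, ht⟩ := hE x hxE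
  -- a height at which `‖f‖ ≤ 1`
  have h3 := Metric.tendsto_nhds.mp ht 1 one_pos
  rw [eventually_nhdsWithin_iff] at h3
  obtain ⟨δ, hδ, h4⟩ := Metric.eventually_nhds_iff.mp h3
  obtain ⟨n, hn⟩ : ∃ n : ℕ, 1 / k ≤ n ∧ 1 / h ≤ n ∧ 2 / δ < n := by
    obtain ⟨n₁, h₁⟩ := exists_nat_ge (1 / k)
    obtain ⟨n₂, h₂⟩ := exists_nat_ge (1 / h)
    obtain ⟨n₃, h₃⟩ := exists_nat_gt (2 / δ)
    refine ⟨max n₁ (max n₂ n₃), h₁.trans ?_, h₂.trans ?_, h₃.trans_le ?_⟩ <;>
      exact_mod_cast (by simp)
  have hrk : r n ≤ k := by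
    simp only [hr]
    rw [div_le_iff₀ (by positivity)]
    have := (div_le_iff₀ hk).mp hn.1
    nlinarith
  have hrh : r n ≤ h := by
    simp only [hr]
    rw [div_le_iff₀ (by positivity)]
    have := (div_le_iff₀ hh).mp hn.2.1
    nlinarith
  have hrd : 2 * r n < δ := by
    have := (div_lt_iff₀ hδ).mp hn.2.2
    simp only [hr]
    rw [mul_one_div, div_lt_iff₀ (by positivity)]
    nlinarith
  have hrn1 : r n ≤ 1 := by
    simp only [hr]
    rw [div_le_one (by positivity)]
    have : (0 : ℝ) ≤ n := Nat.cast_nonneg n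
    linarith
  have hsub : cone (r n) (r n) x ⊆ cone k h x := cone_mono (hr0 n) hrk hrh
  obtain ⟨R, hR⟩ := exists_nat_ge |x|
  refine mem_iUnion.mpr ⟨n, mem_iUnion.mpr ⟨R, hxP, ⟨hsub.trans hcD, ?_⟩,
    ht.mono_left (nhdsWithin_mono _ hsub), ?_⟩⟩
  · intro z hz
    have hzi := cone_im_pos (hr0 n) hz
    have h6 : dist z (x : ℂ) < δ := by
      rw [dist_eq_norm]
      have h7 := Complex.norm_le_abs_re_add_abs_im (z - x)
      simp only [Complex.sub_re, Complex.ofReal_re, Complex.sub_im, Complex.ofReal_im,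
        sub_zero] at h7
      rw [abs_of_pos hzi] at h7
      have h8 := hz.1
      have h9 := hz.2
      nlinarith
    have h10 := h4 h6 (hsub hz)
    rw [dist_zero_right] at h10
    exact h10.le
  · rw [mem_closedBall, dist_zero_right]
    exact hR

/-- **maximum principle on a sawtooth domain** for `π - Im cau U ∘ θ`: it is at most `π`, and tends
to `0` at the vertices -/
theorem saw_max {k h : ℝ} (hk : 0 < k) (hh : 0 < h) {K U : Set ℝ} (hK : IsCompact K)
    (hU : volume U ≠ ⊤) {θ : ℂ → ℂ} (hθ : DifferentiableOn ℂ θ (saw k h K))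
    (hpos : ∀ z ∈ saw k h K, 0 < (θ z).im)
    (hunif : ∀ ε > 0, ∃ δ > 0, ∀ y ∈ K, ∀ z ∈ cone k δ y, z ∈ saw k h K →
      Real.pi - ε ≤ (cau U (θ z)).im)
    (hsmall : (volume K).toReal / (h / 2) ≤ Real.pi - 2 * Real.arctan (k / 2)) :
    ∀ z ∈ saw (k / 2) (h / 2) K, Real.pi - (cau U (θ z)).im ≤
      Real.pi / (2 * Real.arctan (k / 2)) * (Real.pi - (cau K z).im) := by
  have hKf : volume K ≠ ⊤ := hK.measure_lt_top.ne
  have hk2 : 0 < k / 2 := by positivity
  have hat : 0 < Real.arctan (k / 2) := Real.arctan_pos.mpr hk2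
  have hpi := Real.pi_pos
  obtain ⟨c', hc'⟩ : ∃ c', c' = 2 * Real.arctan (k / 2) := ⟨_, rfl⟩
  have hc'0 : 0 < c' := by rw [hc']; positivity
  rw [← hc'] at hsmall ⊢
  obtain ⟨A, hA⟩ : ∃ A, A = Real.pi / c' := ⟨_, rfl⟩
  have hA0 : 0 < A := by rw [hA]; positivity
  have hAc : A * c' = Real.pi := by rw [hA]; field_simp
  rw [← hA]
  have hsub : saw (k / 2) (h / 2) K ⊆ saw k h K :=
    saw_mono hk2 (by linarith) (by linarith) subset_rfl
  set G : ℂ → ℂ := fun z => Complex.exp (I * cau U (θ z) + Real.pi) *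
    Complex.exp (A * bar K Real.pi z) with hG
  have hGn : ∀ z, ‖G z‖ = Real.exp ((Real.pi - (cau U (θ z)).im) +
      A * ((cau K z).im - Real.pi)) := by
    intro z
    simp only [hG, norm_mul, Complex.norm_exp]
    rw [← Real.exp_add]
    congr 1
    simp [bar_re]
    ring
  have hGd : ∀ z ∈ saw k h K, DifferentiableAt ℂ G z := by
    intro z hz
    have h1 : DifferentiableAt ℂ θ z := hθ.differentiableAt ((isOpen_saw k h K).mem_nhds hz)
    have h2 : DifferentiableAt ℂ (fun z => cau U (θ z)) z :=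
      (differentiableAt_cau hU (hpos z hz)).comp z h1
    refine DifferentiableAt.mul ?_ ?_
    · exact ((h2.const_mul I).add_const _).cexp
    · exact ((differentiableAt_bar hKf Real.pi (saw_im_pos hk hz)).const_mul (A : ℂ)).cexp
  have hmain : ∀ z ∈ saw (k / 2) (h / 2) K, ‖G z‖ ≤ 1 := by
    refine norm_le_of_frontier (isBounded_saw hk2 hK.isBounded) (isOpen_saw _ _ _)
      (fun z hz => (hGd z (hsub hz)).differentiableWithinAt) ?_
    intro ζ hζ δ hδ
    rw [(isOpen_saw _ _ _).frontier_eq] at hζ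
    obtain ⟨x, hxK, hx1, hx2⟩ := closure_saw hK hζ.1
    have him : 0 ≤ ζ.im := by
      have := (abs_nonneg _).trans hx1
      by_contra hneg
      push Not at hneg
      nlinarith
    rcases him.eq_or_lt with him | him
    · -- a point of the real axis
      obtain ⟨ε, hε, hε1⟩ : ∃ ε > 0, Real.exp ε ≤ 1 + δ := by
        refine ⟨Real.log (1 + δ), Real.log_pos (by linarith), ?_⟩
        rw [Real.exp_log (by linarith)]
      obtain ⟨d, hd, hdf⟩ := hunif ε hε
      have h2 : ∀ᶠ z : ℂ in 𝓝 ζ, z.im < d :=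
        (isOpen_lt Complex.continuous_im continuous_const).mem_nhds (by
          show ζ.im < d
          rw [← him]; exact hd)
      filter_upwards [mem_nhdsWithin_of_mem_nhds h2, self_mem_nhdsWithin] with z hz1 hz2
      obtain ⟨y, hyK, hy⟩ := mem_saw.mp hz2
      have hzim := cone_im_pos hk2 hy
      have h3 : Real.pi - ε ≤ (cau U (θ z)).im := by
        refine hdf y hyK z ⟨?_, hz1⟩ (hsub hz2)
        have := hy.1
        nlinarith
      rw [hGn]
      have h4 : (cau K z).im ≤ Real.pi := by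
        rw [cau_im hKf hzim]
        exact setIntegral_pk_le (K := K) hzim
      refine (Real.exp_le_exp.mpr ?_).trans hε1
      nlinarith
    · -- a point of the upper half plane
      have hζs : ζ ∈ saw k h K := by
        refine mem_saw.mpr ⟨x, hxK, ?_, by linarith⟩
        nlinarith [mul_pos hk him]
      have hfar : (cau K ζ).im ≤ Real.pi - c' := by
        rcases le_or_gt (h / 2) ζ.im with h6 | h6
        · refine (cau_le_of_high hKf him).trans (le_trans ?_ hsmall)
          gcongr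
        · rw [hc']
          refine cau_le_of_far hKf him hk2 fun t ht => ?_
          by_contra hcon
          push Not at hcon
          exact hζ.2 (mem_saw.mpr ⟨t, ht, hcon, h6⟩)
      have hU0 : 0 ≤ (cau U (θ ζ)).im := by
        rw [cau_im hU (hpos ζ hζs)]
        exact integral_nonneg fun t => (pk_pos (hpos ζ hζs) t).le
      have hle : ‖G ζ‖ ≤ 1 := by
        rw [hGn, Real.exp_le_one_iff]
        nlinarith
      have h8 : ∀ᶠ z in 𝓝 ζ, ‖G z‖ < 1 + δ :=
        (hGd ζ hζs).continuousAt.norm.eventually (gt_mem_nhds (by linarith))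
      exact mem_nhdsWithin_of_mem_nhds (h8.mono fun z hz => hz.le)
  intro z hz
  have h1 := hmain z hz
  rw [hGn, Real.exp_le_one_iff] at h1
  linarith

end Vale.Agent.P097.H190.TR
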