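import Vale.Agent.P097.H190.TRa

/-!
Row TR, second part: the one variable lemma of Loewner type.
-/

set_option linter.all false

open Complex Metric Filter Topology Set MeasureTheory

namespace Vale.Agent.P097.H190.TR

open Vale.Agent.P097.H877.Bd

/-- the real line in the plane -/
def rl (A : Set ℝ) : Set ℂ := (fun t : ℝ => (t : ℂ)) '' A

theorem isCompact_rl {A : Set ℝ} (hA : IsCompact A) : IsCompact (rl A) :=
  hA.image (by fun_prop)

/-- close to `A` the Poisson integral of a neighbourhood of `A` is close to `π` -/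
theorem cau_thick {A U : Set ℝ} (hne : A.Nonempty) {η : ℝ} (hη : 0 < η)
    (hAU : ∀ a ∈ A, ∀ t, |t - a| < η → t ∈ U) (hU : volume U ≠ ⊤) {ε : ℝ} (hε : 0 < ε) :
    ∃ s > 0, ∀ z : ℂ, 0 < z.im → infDist z (rl A) ≤ s → Real.pi - ε ≤ (cau U z).im := by
  have hpi := Real.pi_pos
  obtain ⟨R, hR0, hR⟩ : ∃ R : ℝ, 0 < R ∧ Real.pi - ε < 2 * Real.arctan R := by
    have h1 : Tendsto (fun R => 2 * Real.arctan R) atTop (𝓝 (2 * (Real.pi / 2))) :=
      (tendsto_nhds_of_tendsto_nhdsWithin Real.tendsto_arctan_atTop).const_mul 2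
    have h2 : Real.pi - ε < 2 * (Real.pi / 2) := by linarith
    obtain ⟨R, hR1, hR2⟩ := ((h1.eventually (lt_mem_nhds h2)).and (eventually_gt_atTop 0)).exists
    exact ⟨R, hR2, hR1⟩
  refine ⟨η / (2 * (R + 1)), by positivity, fun z hz hd => ?_⟩
  obtain ⟨w, ⟨a, ha, rfl⟩, hw⟩ := (infDist_lt_iff (hne.image _)).1
    (lt_of_le_of_lt hd (show η / (2 * (R + 1)) < η / (R + 1) by
      apply div_lt_div_of_pos_left hη (by positivity); linarith))
  rw [dist_eq_norm] at hw
  have h1 : |z.re - a| < η / (R + 1) := by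
    have := (Complex.abs_re_le_norm (z - a)).trans_lt hw
    simpa using this
  have h2 : z.im < η / (R + 1) := by
    have := (le_abs_self _).trans_lt ((Complex.abs_im_le_norm (z - a)).trans_lt hw)
    simpa using this
  rw [lt_div_iff₀ (by positivity)] at h1 h2
  have hsub : Ioo (z.re - R * z.im) (z.re + R * z.im) ⊆ U := by
    intro t ht
    refine hAU a ha t ?_
    have h3 : |t - z.re| < R * z.im := by
      rw [abs_lt]; constructor <;> linarith [ht.1, ht.2]
    have h4 := abs_sub_le t z.re a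
    nlinarith
  rw [cau_im hU hz]
  have h5 : ∫ t in Ioo (z.re - R * z.im) (z.re + R * z.im), pk z t ≤ ∫ t in U, pk z t :=
    setIntegral_mono_set (integrable_pk hz).integrableOn
      (Eventually.of_forall fun t => (pk_pos hz t).le)
      (Eventually.of_forall fun t ht => hsub ht)
  rw [integral_Ioo_pk hz hR0] at h5
  linarith

/-- the Poisson integrals of the neighbourhoods of a compact set decrease to that of the set -/
theorem cau_tendsto {A : Set ℝ} (hA : IsCompact A) {z : ℂ} (hz : 0 < z.im) :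
    Tendsto (fun n : ℕ => (cau (thickening (1 / ((n : ℝ) + 1)) A) z).im) atTop
      (𝓝 (cau A z).im) := by
  have hb : ∀ n : ℕ, volume (thickening (1 / ((n : ℝ) + 1)) A) ≠ ⊤ := fun n =>
    (hA.isBounded.thickening).measure_lt_top.ne
  have h1 : ∀ n : ℕ, (cau (thickening (1 / ((n : ℝ) + 1)) A) z).im =
      ∫ t in thickening (1 / ((n : ℝ) + 1)) A, pk z t := fun n => cau_im (hb n) hz
  simp only [h1]
  rw [cau_im hA.measure_lt_top.ne hz]
  have h2 : A = ⋂ n : ℕ, thickening (1 / ((n : ℝ) + 1)) A := by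
    apply Subset.antisymm
    · exact subset_iInter fun n => self_subset_thickening (by positivity) A
    · intro t ht
      rw [mem_iInter] at ht
      have h3 : t ∈ closure A := by
        rw [mem_closure_iff_infEDist_zero]
        refine le_antisymm (le_of_forall_pos_le_add ?_) bot_le
        intro ε hε
        by_cases hε' : ε = ⊤
        · rw [hε']; simp
        obtain ⟨n, hn⟩ := exists_nat_gt (1 / ε.toReal)
        have hε0 : 0 < ε.toReal := ENNReal.toReal_pos hε.ne' hε'
        have h4 := ht n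
        rw [mem_thickening_iff_infEDist_lt] at h4
        rw [zero_add]
        refine h4.le.trans ?_
        refine ENNReal.ofReal_le_of_le_toReal ?_
        rw [div_lt_iff₀ hε0] at hn
        rw [div_le_iff₀ (by positivity)]
        nlinarith
      rwa [hA.isClosed.closure_eq] at h3
  conv_rhs => rw [h2]
  refine tendsto_setIntegral_of_antitone (fun n => isOpen_thickening.measurableSet) ?_
    ⟨0, (integrable_pk hz).integrableOn⟩
  intro i j hij
  refine thickening_mono ?_ A
  have : (i : ℝ) ≤ j := Nat.cast_le.mpr hij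
  gcongr

/-- **Loewner type lemma** : composition with the Poisson integral of a compact set -/
theorem loew {D : Set ℂ} {θ : ℂ → ℂ} (hθ : DifferentiableOn ℂ θ D)
    (hpos : ∀ z ∈ D, 0 < (θ z).im) {A : Set ℝ} (hA : IsCompact A) (hne : A.Nonempty)
    {E : Set ℝ} (hE : ∀ x ∈ E, ∃ k > 0, ∃ h > 0, cone k h x ⊆ D ∧
      Tendsto (fun z => infDist (θ z) (rl A)) (𝓝[cone k h x] (x : ℂ)) (𝓝 0)) :
    ∀ᵐ x : ℝ, x ∈ E → ∀ k' > 0, ∃ h' > 0, cone k' h' x ⊆ D ∧
      Tendsto (fun z => (cau A (θ z)).im) (𝓝[cone k' h' x] (x : ℂ)) (𝓝 Real.pi) := by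
  have hE' : ∀ x ∈ E, ∃ k > 0, ∃ h > 0, cone k h x ⊆ D ∧
      Tendsto (fun z => ((infDist (θ z) (rl A) : ℝ) : ℂ)) (𝓝[cone k h x] (x : ℂ)) (𝓝 0) := by
    intro x hx
    obtain ⟨k, hk, h, hh, hD, ht⟩ := hE x hx
    refine ⟨k, hk, h, hh, hD, ?_⟩
    have := (Complex.continuous_ofReal.tendsto (0 : ℝ)).comp ht
    simpa [Function.comp_def] using this
  filter_upwards [egorov_cone hE'] with x hx hxE k' hk'
  obtain ⟨k, hk, h, hh, K, hK, hxK, hdens, hsD, -, hunif⟩ := hx hxE
  have hk2 : 0 < k / 2 := by positivity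
  have hpi := Real.pi_pos
  have hat0 : 0 < Real.arctan (k / 2) := Real.arctan_pos.mpr hk2
  have hat1 := Real.arctan_lt_pi_div_two (k / 2)
  -- localize
  obtain ⟨c, hc⟩ : ∃ c, c = Real.pi - 2 * Real.arctan (k / 2) := ⟨_, rfl⟩
  have hc0 : 0 < c := by linarith
  set ρ : ℝ := h / 4 * c with hρ
  have hρ0 : 0 < ρ := by positivity
  set K' : Set ℝ := K ∩ closedBall x ρ with hK'
  have hK'c : IsCompact K' := hK.inter_right isClosed_closedBall
  have hK'f : volume K' ≠ ⊤ := hK'c.measure_lt_top.ne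
  have hsub : saw k h K' ⊆ saw k h K := saw_mono hk le_rfl le_rfl inter_subset_left
  have hvol : (volume K').toReal / (h / 2) ≤ Real.pi - 2 * Real.arctan (k / 2) := by
    rw [← hc, div_le_iff₀ (by positivity)]
    have h2 : volume K' ≤ ENNReal.ofReal (2 * ρ) := by
      rw [← Real.volume_closedBall]; exact measure_mono inter_subset_right
    have h3 := ENNReal.toReal_le_of_le_ofReal (by positivity) h2
    refine h3.trans (le_of_eq ?_)
    rw [hρ]; ring
  have hD' : Dens K' x := by
    intro ε hε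
    obtain ⟨r₀, hr₀, h2⟩ := hdens ε hε
    refine ⟨min r₀ ρ, lt_min hr₀ hρ0, fun r hr hr' => ?_⟩
    refine (measure_mono ?_).trans (h2 r hr (hr'.trans_le (min_le_left _ _)))
    intro t ht
    refine ⟨ht.1, fun htK => ht.2 ⟨htK, ?_⟩⟩
    exact closedBall_subset_closedBall (hr'.trans_le (min_le_right _ _)).le ht.1
  have hposK : ∀ z ∈ saw k h K', 0 < (θ z).im := fun z hz => hpos z (hsD (hsub hz))
  -- the inequality for the neighbourhoods of `A`
  have hineq : ∀ n : ℕ, ∀ z ∈ saw (k / 2) (h / 2) K',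
      Real.pi - (cau (thickening (1 / ((n : ℝ) + 1)) A) (θ z)).im ≤
        Real.pi / (2 * Real.arctan (k / 2)) * (Real.pi - (cau K' z).im) := by
    intro n
    have hU : volume (thickening (1 / ((n : ℝ) + 1)) A) ≠ ⊤ :=
      (hA.isBounded.thickening).measure_lt_top.ne
    refine saw_max hk hh hK'c hU (hθ.mono (hsub.trans hsD)) hposK ?_ hvol
    intro ε hε
    obtain ⟨s, hs, hs1⟩ := cau_thick (A := A) (U := thickening (1 / ((n : ℝ) + 1)) A) hne
      (η := 1 / ((n : ℝ) + 1)) (by positivity) (fun a ha t hta => by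
        rw [mem_thickening_iff]
        exact ⟨a, ha, by rw [Real.dist_eq]; exact hta⟩) hU hε
    obtain ⟨δ, hδ, hδ1⟩ := hunif s hs
    refine ⟨δ, hδ, fun y hy z hz hzs => hs1 _ (hposK z hzs) ?_⟩
    have := hδ1 y hy.1 z hz
    rw [Complex.norm_real, Real.norm_eq_abs, abs_of_nonneg infDist_nonneg] at this
    exact this
  have hlim : ∀ z ∈ saw (k / 2) (h / 2) K', Real.pi - (cau A (θ z)).im ≤
        Real.pi / (2 * Real.arctan (k / 2)) * (Real.pi - (cau K' z).im) := by
    intro z hz
    have hz' : z ∈ saw k h K' := saw_mono hk2 (by linarith) (by linarith) subset_rfl hz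
    have h1 := (tendsto_const_nhds (x := Real.pi)).sub (cau_tendsto hA (hposK z hz'))
    exact le_of_tendsto h1 (Eventually.of_forall fun n => hineq n z hz)
  -- cones of any aperture
  obtain ⟨h₁, hh₁, hcone⟩ := hD'.cone_subset hk2 (show (0 : ℝ) < h / 2 by positivity) hk'
  have hzD : ∀ z ∈ cone k' h₁ x, z ∈ saw k h K' := fun z hz =>
    saw_mono hk2 (by linarith) (by linarith) subset_rfl (hcone hz)
  refine ⟨h₁, hh₁, fun z hz => hsD (hsub (hzD z hz)), ?_⟩
  rw [Metric.tendsto_nhdsWithin_nhds]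
  intro ε hε
  set A₀ : ℝ := Real.pi / (2 * Real.arctan (k / 2)) with hA₀
  have hA₀0 : 0 < A₀ := by positivity
  obtain ⟨h₂, hh₂, hge⟩ := hD'.cau_ge hK'c.measurableSet hK'f hk'
    (c := Real.pi - ε / A₀ / 2) (by
      have : 0 < ε / A₀ / 2 := by positivity
      linarith)
  refine ⟨h₂, hh₂, fun {z} hz hzd => ?_⟩
  have hzi := cone_im_pos hk' hz
  have hz2 : z.im < h₂ := by
    rw [dist_eq_norm] at hzd
    have := (le_abs_self _).trans_lt ((Complex.abs_im_le_norm (z - x)).trans_lt hzd)
    simpa using this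
  have h3 := hge z ⟨hz.1, hz2⟩
  have h4 := hlim z (hcone hz)
  have h5 : (cau A (θ z)).im ≤ Real.pi := by
    rw [cau_im hA.measure_lt_top.ne (hposK z (hzD z hz))]
    exact setIntegral_pk_le (hposK z (hzD z hz))
  rw [Real.dist_eq, abs_sub_comm, abs_of_nonneg (by linarith)]
  refine h4.trans_lt ?_
  have h6 : A₀ * (Real.pi - (cau K' z).im) < A₀ * (ε / A₀) := by
    apply mul_lt_mul_of_pos_left _ hA₀0
    have : 0 < ε / A₀ := by positivity
    linarith
  rwa [mul_div_cancel₀ _ hA₀0.ne'] at h6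

/-- a holomorphic function with values in the upper half plane has real boundary values in a
compact null set at almost no point -/
theorem loew_null {D : Set ℂ} {θ : ℂ → ℂ} (hθ : DifferentiableOn ℂ θ D)
    (hpos : ∀ z ∈ D, 0 < (θ z).im) {A : Set ℝ} (hA : IsCompact A) (h0 : volume A = 0)
    {E : Set ℝ} (hE : ∀ x ∈ E, ∃ k > 0, ∃ h > 0, cone k h x ⊆ D ∧ ∃ a ∈ A,
      Tendsto θ (𝓝[cone k h x] (x : ℂ)) (𝓝 (a : ℂ))) : volume E = 0 := by
  rcases A.eq_empty_or_nonempty with hne | hne
  · have : E = ∅ := by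
      ext x
      simp only [mem_empty_iff_false, iff_false]
      intro hx
      obtain ⟨k, hk, h, hh, hD, a, ha, ht⟩ := hE x hx
      rw [hne] at ha
      exact ha
    rw [this, measure_empty]
  · have h1 := loew hθ hpos hA hne (E := E) (fun x hx => by
      obtain ⟨k, hk, h, hh, hD, a, ha, ht⟩ := hE x hx
      refine ⟨k, hk, h, hh, hD, ?_⟩
      have h2 : Tendsto (fun z => infDist (θ z) (rl A)) (𝓝[cone k h x] (x : ℂ))
          (𝓝 (infDist (a : ℂ) (rl A))) :=
        ((continuous_infDist_pt (rl A)).tendsto _).comp ht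
      have h3 : infDist (a : ℂ) (rl A) = 0 := infDist_zero_of_mem ⟨a, ha, rfl⟩
      rwa [h3] at h2)
    rw [ae_iff] at h1
    refine measure_mono_null (fun x hx => ?_) h1
    simp only [mem_ofPred_eq, Classical.not_imp]
    refine ⟨hx, fun hcon => ?_⟩
    obtain ⟨h', hh', hD, ht⟩ := hcon 1 one_pos
    have h4 : ∀ z ∈ cone 1 h' x, (cau A (θ z)).im = 0 := by
      intro z hz
      rw [cau_im hA.measure_lt_top.ne (hpos z (hD hz)), Measure.restrict_eq_zero.2 h0]
      simp
    have h5 : Tendsto (fun z => (cau A (θ z)).im) (𝓝[cone 1 h' x] (x : ℂ)) (𝓝 0) :=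
      tendsto_const_nhds.congr' (eventually_nhdsWithin_of_forall fun z hz => (h4 z hz).symm)
    have hnb : (𝓝[cone 1 h' x] (x : ℂ)).NeBot := by
      rw [← mem_closure_iff_nhdsWithin_neBot, mem_closure_iff_seq_limit]
      refine ⟨fun n : ℕ => (x : ℂ) + ((h' / ((n : ℝ) + 2) : ℝ) : ℂ) * I, fun n => ?_, ?_⟩
      · have hn : (0 : ℝ) < (n : ℝ) + 2 := by positivity
        have hp : 0 < h' / ((n : ℝ) + 2) := by positivity
        refine ⟨?_, ?_⟩
        · simp only [add_re, mul_re, ofReal_re, ofReal_im, I_re, I_im, add_im, mul_im]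
          simp only [mul_zero, mul_one, sub_zero, add_zero, sub_self, abs_zero, zero_add, one_mul]
          exact hp
        · simp only [add_im, mul_im, ofReal_re, ofReal_im, I_re, I_im]
          simp only [mul_zero, mul_one, sub_zero, add_zero, zero_add]
          rw [div_lt_iff₀ hn]
          nlinarith
      · have h6 : Tendsto (fun n : ℕ => ((h' / ((n : ℝ) + 2) : ℝ) : ℂ)) atTop (𝓝 ((0 : ℝ) : ℂ)) := by
          refine (Complex.continuous_ofReal.tendsto _).comp ?_
          refine tendsto_const_nhds.div_atTop ?_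
          exact tendsto_atTop_add_const_right _ _ tendsto_natCast_atTop_atTop
        have h7 := (h6.mul_const I).const_add (x : ℂ)
        simpa using h7
    have h8 := tendsto_nhds_unique ht h5
    exact Real.pi_ne_zero h8

end Vale.Agent.P097.H190.TR
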