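import Vale.Agent.P097.H190.TRb
import Vale.Agent.P097.H899.Nt2

/-!
Row TR, third part: transfer on the wide wedge, two variables.
-/

set_option linter.all false

open Complex Metric Filter Topology Set MeasureTheory

namespace Vale.Agent.P097.H190.TR

open Vale.Agent.P097.H877.Bd Vale.Agent.P097.H899.Nt

/-- Cayley transform -/
noncomputable def cy (z : ℂ) : ℂ := (z - I) / (z + I)

/-- inverse of the Cayley transform -/
noncomputable def yc (z : ℂ) : ℂ := I * (1 + z) / (1 - z)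

theorem add_I_ne {z : ℂ} (hz : 0 ≤ z.im) : z + I ≠ 0 := by
  intro h
  have := congrArg Complex.im h
  simp at this
  linarith

theorem yc_cy {z : ℂ} (hz : 0 ≤ z.im) : yc (cy z) = z := by
  have h := add_I_ne hz
  unfold yc cy
  have h1 : (1 : ℂ) - (z - I) / (z + I) ≠ 0 := by
    rw [sub_ne_zero]
    intro h2
    rw [eq_div_iff h] at h2
    have := congrArg Complex.im h2
    simp at this
    linarith
  field_simp
  ring

theorem norm_cy_le {z : ℂ} (hz : 0 ≤ z.im) : ‖cy z‖ ≤ 1 := by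
  unfold cy
  rw [norm_div]
  apply div_le_one_of_le₀ _ (norm_nonneg _)
  rw [← sq_le_sq₀ (norm_nonneg _) (norm_nonneg _), ← Complex.normSq_eq_norm_sq,
    ← Complex.normSq_eq_norm_sq, Complex.normSq_apply, Complex.normSq_apply]
  simp
  nlinarith

theorem continuousAt_cy {z : ℂ} (hz : 0 ≤ z.im) : ContinuousAt cy z := by
  unfold cy
  exact (by fun_prop : ContinuousAt (fun z : ℂ => z - I) z).div (by fun_prop) (add_I_ne hz)

theorem differentiableAt_cy {z : ℂ} (hz : 0 ≤ z.im) : DifferentiableAt ℂ cy z := by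
  unfold cy
  exact (by fun_prop : DifferentiableAt ℂ (fun z : ℂ => z - I) z).div (by fun_prop) (add_I_ne hz)

theorem continuousAt_yc {z : ℂ} (hz : 0 ≤ z.im) : ContinuousAt yc (cy z) := by
  have h := add_I_ne hz
  unfold yc
  refine (by fun_prop : ContinuousAt (fun z : ℂ => I * (1 + z)) (cy z)).div (by fun_prop) ?_
  unfold cy
  rw [sub_ne_zero]
  intro h2
  rw [eq_div_iff h] at h2
  have := congrArg Complex.im h2
  simp at this
  linarith

/-- convergence of the Cayley transforms to the transform of a point -/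
theorem tendsto_of_cy {α : Type*} {l : Filter α} {f : α → ℂ} (hf : ∀ᶠ x in l, 0 ≤ (f x).im)
    {a : ℂ} (ha : 0 ≤ a.im) (h : Tendsto (fun x => cy (f x)) l (𝓝 (cy a))) :
    Tendsto f l (𝓝 a) := by
  have h1 := (continuousAt_yc ha).tendsto.comp h
  rw [yc_cy ha] at h1
  refine h1.congr' ?_
  filter_upwards [hf] with x hx
  exact yc_cy hx

/-- the vertical sequence -/
theorem vseq_tendsto {k h x : ℝ} (hk : 0 < k) (hh : 0 < h) :
    Tendsto (fun n : ℕ => (x : ℂ) + ((1 / ((n : ℝ) + 1) : ℝ) : ℂ) * I) atTop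
      (𝓝[cone k h x] (x : ℂ)) := by
  refine tendsto_nhdsWithin_iff.2 ⟨?_, ?_⟩
  · have h6 : Tendsto (fun n : ℕ => ((1 / ((n : ℝ) + 1) : ℝ) : ℂ)) atTop (𝓝 ((0 : ℝ) : ℂ)) :=
      (Complex.continuous_ofReal.tendsto _).comp tendsto_one_div_add_atTop_nhds_zero_nat
    have h7 := (h6.mul_const I).const_add (x : ℂ)
    simpa using h7
  · have h1 := (tendsto_one_div_add_atTop_nhds_zero_nat (𝕜 := ℝ)).eventually (gt_mem_nhds hh)
    filter_upwards [h1] with n hn
    have hp : (0 : ℝ) < 1 / ((n : ℝ) + 1) := by positivity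
    refine ⟨?_, ?_⟩
    · simp only [add_re, mul_re, ofReal_re, ofReal_im, I_re, I_im, add_im, mul_im]
      simp only [mul_zero, mul_one, sub_zero, add_zero, sub_self, abs_zero, zero_add, one_mul]
      positivity
    · simp only [add_im, mul_im, ofReal_re, ofReal_im, I_re, I_im]
      simp only [mul_zero, mul_one, sub_zero, add_zero, zero_add]
      exact hn

/-- **one variable, sequences** : if the values along the vertical sequence approach the compact
set `A`, there is a non tangential limit in `A`, and the Poisson integral of `A` tends to `π` -/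
theorem loew_seq {D : Set ℂ} {θ : ℂ → ℂ} (hθ : DifferentiableOn ℂ θ D)
    (hpos : ∀ z ∈ D, 0 < (θ z).im) {A : Set ℝ} (hA : IsCompact A) (hne : A.Nonempty)
    {E : Set ℝ} (hE : ∀ x ∈ E, ∃ k > 0, ∃ h > 0, cone k h x ⊆ D) :
    ∀ᵐ x : ℝ, x ∈ E →
      Tendsto (fun n : ℕ => infDist (θ ((x : ℂ) + ((1 / ((n : ℝ) + 1) : ℝ) : ℂ) * I)) (rl A)) atTop
        (𝓝 0) →
      ∃ a ∈ A, ∀ k' > 0, ∃ h' > 0, cone k' h' x ⊆ D ∧
        Tendsto θ (𝓝[cone k' h' x] (x : ℂ)) (𝓝 (a : ℂ)) ∧
        Tendsto (fun z => (cau A (θ z)).im) (𝓝[cone k' h' x] (x : ℂ)) (𝓝 Real.pi) := by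
  have hcy : DifferentiableOn ℂ (fun z => cy (θ z)) D := fun z hz =>
    (differentiableAt_cy (hpos z hz).le).comp_differentiableWithinAt z (hθ z hz)
  have h1 := fatloc hcy (E := E) (fun x hx => by
    obtain ⟨k, hk, h, hh, hD⟩ := hE x hx
    exact ⟨k, hk, h, hh, 1, hD, fun z hz => norm_cy_le (hpos z (hD hz)).le⟩)
  set S : Set ℝ := {x | ∃ a ∈ A, ∀ k' > 0, ∃ h' > 0, cone k' h' x ⊆ D ∧
      Tendsto θ (𝓝[cone k' h' x] (x : ℂ)) (𝓝 (a : ℂ))} with hS
  have h2 := loew hθ hpos hA hne (E := S) (fun x hx => by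
    obtain ⟨a, ha, h3⟩ := hx
    obtain ⟨h', hh', hD, ht⟩ := h3 1 one_pos
    refine ⟨1, one_pos, h', hh', hD, ?_⟩
    have h4 : Tendsto (fun z => infDist (θ z) (rl A)) (𝓝[cone 1 h' x] (x : ℂ))
        (𝓝 (infDist (a : ℂ) (rl A))) := ((continuous_infDist_pt (rl A)).tendsto _).comp ht
    rwa [infDist_zero_of_mem (show (a : ℂ) ∈ rl A from ⟨a, ha, rfl⟩)] at h4)
  filter_upwards [h1, h2] with x hx1 hx2 hxE hseq
  obtain ⟨L, hL⟩ := hx1 hxE
  -- the limit is in `A`
  have hK := isCompact_rl hA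
  have hKne : (rl A).Nonempty := hne.image _
  have hex : ∀ n : ℕ, ∃ w ∈ rl A, infDist (θ ((x : ℂ) + ((1 / ((n : ℝ) + 1) : ℝ) : ℂ) * I)) (rl A) =
      dist (θ ((x : ℂ) + ((1 / ((n : ℝ) + 1) : ℝ) : ℂ) * I)) w := fun n =>
    hK.exists_infDist_eq_dist hKne _
  choose w hw hwd using hex
  obtain ⟨b, hb, φ, hφ, hφt⟩ := hK.tendsto_subseq hw
  obtain ⟨a, ha, rfl⟩ := hb
  have h5 : Tendsto (fun n => θ ((x : ℂ) + ((1 / ((φ n : ℝ) + 1) : ℝ) : ℂ) * I)) atTop (𝓝 (a : ℂ)) := by
    rw [tendsto_iff_dist_tendsto_zero]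
    have h6 := (hseq.comp hφ.tendsto_atTop).add (tendsto_iff_dist_tendsto_zero.1 hφt)
    rw [add_zero] at h6
    refine squeeze_zero (fun n => dist_nonneg) (fun n => ?_) h6
    refine (dist_triangle _ (w (φ n)) _).trans (le_of_eq ?_)
    simp only [Function.comp]
    rw [hwd (φ n)]
  obtain ⟨h₀, hh₀, hD₀, ht₀⟩ := hL 1 one_pos
  have h6 : Tendsto (fun n => cy (θ ((x : ℂ) + ((1 / ((φ n : ℝ) + 1) : ℝ) : ℂ) * I))) atTop (𝓝 L) :=
    (ht₀.comp (vseq_tendsto one_pos hh₀)).comp hφ.tendsto_atTop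
  have ha0 : (0 : ℝ) ≤ ((a : ℂ)).im := by simp
  have h7 : L = cy (a : ℂ) := tendsto_nhds_unique h6 ((continuousAt_cy ha0).tendsto.comp h5)
  have hxS : x ∈ S := by
    refine ⟨a, ha, fun k' hk' => ?_⟩
    obtain ⟨h', hh', hD', ht'⟩ := hL k' hk'
    refine ⟨h', hh', hD', tendsto_of_cy ?_ ha0 (by rwa [h7] at ht')⟩
    exact eventually_nhdsWithin_of_forall fun z hz => (hpos z (hD' hz)).le
  obtain ⟨a', ha', h8⟩ := hxS
  refine ⟨a', ha', fun k' hk' => ?_⟩
  obtain ⟨h', hh', hD', ht'⟩ := h8 k' hk'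
  obtain ⟨h'', hh'', hD'', ht''⟩ := hx2 ⟨a', ha', h8⟩ k' hk'
  refine ⟨min h' h'', lt_min hh' hh'', (cone_mono hk' le_rfl (min_le_left _ _)).trans hD',
    ht'.mono_left (nhdsWithin_mono _ (cone_mono hk' le_rfl (min_le_left _ _))),
    ht''.mono_left (nhdsWithin_mono _ (cone_mono hk' le_rfl (min_le_right _ _)))⟩

/-- the vertical sequence in two variables, `x = (u, y)` -/
noncomputable def vs (h : ℝ → ℝ) (n : ℕ) (x : ℝ × ℝ) : ℂ × ℂ :=
  sc x.1 x.2 (h x.1) (1 / ((n : ℝ) + 1), (-I, 0))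

theorem vs_eq (h : ℝ → ℝ) (n : ℕ) (u y : ℝ) :
    vs h n (u, y) = (-(((-y : ℝ) : ℂ) + ((1 / ((n : ℝ) + 1) : ℝ) : ℂ) * I) + (h u : ℂ) * I, (u : ℂ)) := by
  unfold vs sc
  ext1
  · simp only
    push_cast
    ring
  · simp

theorem measurable_vs {h : ℝ → ℝ} (hh : Measurable h) (n : ℕ) : Measurable (vs h n) := by
  have h1 : vs h n = fun x : ℝ × ℝ => (((x.2 : ℝ) : ℂ) + ((h x.1 : ℝ) : ℂ) * I +
      ((1 / ((n : ℝ) + 1) : ℝ) : ℂ) * (-I), (x.1 : ℂ) + ((1 / ((n : ℝ) + 1) : ℝ) : ℂ) * 0) := by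
    funext x
    rfl
  rw [h1]
  refine Measurable.prodMk ?_ ?_
  · refine (Measurable.add ?_ ?_).add_const _
    · exact Complex.measurable_ofReal.comp measurable_snd
    · exact (Complex.measurable_ofReal.comp (hh.comp measurable_fst)).mul_const I
  · exact (Complex.measurable_ofReal.comp measurable_fst).add_const _

theorem vs_tendsto (h : ℝ → ℝ) (x : ℝ × ℝ) :
    Tendsto (fun n : ℕ => ((1 / ((n : ℝ) + 1), ((-I, 0) : ℂ × ℂ)) : ℝ × ℂ × ℂ)) atTop
      (𝓝[>] 0 ×ˢ 𝓝 (-I, 0)) := by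
  refine Tendsto.prodMk ?_ tendsto_const_nhds
  refine tendsto_nhdsWithin_iff.2 ⟨tendsto_one_div_add_atTop_nhds_zero_nat, ?_⟩
  exact Eventually.of_forall fun n => by
    show (0 : ℝ) < _
    positivity

/-- measurability of sequences of values -/
theorem measurable_ind {Dom : Set (ℂ × ℂ)} (hDom : IsOpen Dom) {f : ℂ × ℂ → ℂ}
    (hf : ContinuousOn f Dom) {h : ℝ → ℝ} (hh : Measurable h) (n : ℕ) :
    Measurable fun x => Dom.indicator f (vs h n x) := by
  classical
  have h1 : Measurable (Dom.indicator f) := by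
    rw [← Set.piecewise_eq_indicator]
    exact hf.measurable_piecewise continuousOn_const hDom.measurableSet
  exact h1.comp (measurable_vs hh n)

theorem continuousOn_cau {A : Set ℝ} (hA : volume A ≠ ⊤) {Dom : Set (ℂ × ℂ)} {Θ : ℂ × ℂ → ℂ}
    (hΘ : DifferentiableOn ℂ Θ Dom) (hpos : ∀ z ∈ Dom, 0 < (Θ z).im) :
    DifferentiableOn ℂ (fun z => cau A (Θ z)) Dom := fun z hz =>
  (differentiableAt_cau hA (hpos z hz)).comp_differentiableWithinAt z (hΘ z hz)

/-- the exceptional set is a null set -/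
theorem exc_null {Dom : Set (ℂ × ℂ)} (hDom : IsOpen Dom) {Θ : ℂ × ℂ → ℂ}
    (hΘ : DifferentiableOn ℂ Θ Dom) (hpos : ∀ z ∈ Dom, 0 < (Θ z).im) {h : ℝ → ℝ}
    (hhm : Measurable h) {E : Set (ℝ × ℝ)} (hEm : MeasurableSet E)
    (hseg : ∀ x ∈ E, ∃ r > 0, ∀ t : ℂ, |t.re - x.2| < r → h x.1 - r < t.im → t.im < h x.1 →
      (t, (x.1 : ℂ)) ∈ Dom) {A : Set ℝ} (hA : IsCompact A) (hne : A.Nonempty) :
    ∀ᵐ x : ℝ × ℝ, x ∈ E →
      Tendsto (fun n => infDist (Dom.indicator Θ (vs h n x)) (rl A)) atTop (𝓝 0) →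
      Tendsto (fun n => (Dom.indicator (fun z => cau A (Θ z)) (vs h n x)).im) atTop
        (𝓝 Real.pi) := by
  set N : Set (ℝ × ℝ) := {x | x ∈ E ∧
      Tendsto (fun n => infDist (Dom.indicator Θ (vs h n x)) (rl A)) atTop (𝓝 0) ∧
      ¬ Tendsto (fun n => (Dom.indicator (fun z => cau A (Θ z)) (vs h n x)).im) atTop
        (𝓝 Real.pi)} with hN
  have hAf : volume A ≠ ⊤ := hA.measure_lt_top.ne
  have hNm : MeasurableSet N := by
    refine hEm.inter (MeasurableSet.inter ?_ (MeasurableSet.compl ?_))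
    · refine measurableSet_tendsto _ fun n => ?_
      exact (continuous_infDist_pt (rl A)).measurable.comp
        (measurable_ind hDom hΘ.continuousOn hhm n)
    · refine measurableSet_tendsto _ fun n => ?_
      exact Complex.measurable_im.comp
        (measurable_ind hDom (continuousOn_cau hAf hΘ hpos).continuousOn hhm n)
  have hN0 : (volume : Measure (ℝ × ℝ)) N = 0 := by
    rw [Measure.volume_eq_prod, Measure.measure_prod_null hNm]
    refine Eventually.of_forall fun u => ?_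
    show volume (Prod.mk u ⁻¹' N) = 0
    set D : Set ℂ := {z | (-z + (h u : ℂ) * I, (u : ℂ)) ∈ Dom} with hD
    set θ : ℂ → ℂ := fun z => Θ (-z + (h u : ℂ) * I, (u : ℂ)) with hθ
    have hθd : DifferentiableOn ℂ θ D := by
      intro z hz
      have h1 : DifferentiableAt ℂ Θ (-z + (h u : ℂ) * I, (u : ℂ)) :=
        hΘ.differentiableAt (hDom.mem_nhds hz)
      exact (h1.comp z (by fun_prop : DifferentiableAt ℂ
        (fun z : ℂ => ((-z + (h u : ℂ) * I, (u : ℂ)) : ℂ × ℂ)) z)).differentiableWithinAt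
    have hθp : ∀ z ∈ D, 0 < (θ z).im := fun z hz => hpos _ hz
    set E' : Set ℝ := {x | (u, -x) ∈ N} with hE'
    have hcone : ∀ x ∈ E', ∃ k > 0, ∃ h' > 0, cone k h' x ⊆ D := by
      intro x hx
      obtain ⟨r, hr, h1⟩ := hseg (u, -x) hx.1
      refine ⟨1, one_pos, r, hr, fun z hz => ?_⟩
      have hz0 := cone_im_pos one_pos hz
      have h2 := hz.1
      have h3 := hz.2
      refine h1 _ ?_ ?_ ?_
      · simp only [add_re, neg_re, mul_re, ofReal_re, ofReal_im, I_re, I_im]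
        simp only [mul_zero, zero_mul, sub_zero, add_zero]
        rw [show -z.re - -x = -(z.re - x) by ring, abs_neg]
        linarith
      · simp only [add_im, neg_im, mul_im, ofReal_re, ofReal_im, I_re, I_im]
        simp only [mul_zero, mul_one, zero_mul, add_zero]
        linarith
      · simp only [add_im, neg_im, mul_im, ofReal_re, ofReal_im, I_re, I_im]
        simp only [mul_zero, mul_one, zero_mul, add_zero]
        linarith
    have h1 := loew_seq hθd hθp hA hne hcone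
    have h2 : volume E' = 0 := by
      rw [ae_iff] at h1
      refine measure_mono_null (fun x hx => ?_) h1
      simp only [mem_ofPred_eq, Classical.not_imp]
      obtain ⟨k, hk, h', hh', hcD⟩ := hcone x hx
      have hev : ∀ᶠ n : ℕ in atTop, vs h n (u, -x) ∈ Dom := by
        have h3 := (vseq_tendsto (x := x) hk hh').eventually
          (eventually_mem_nhdsWithin.mono fun z hz => hcD hz)
        filter_upwards [h3] with n hn
        rw [vs_eq, neg_neg]
        exact hn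
      have hval : ∀ (f : ℂ × ℂ → ℂ), ∀ᶠ n : ℕ in atTop,
          Dom.indicator f (vs h n (u, -x)) =
            f (-((x : ℂ) + ((1 / ((n : ℝ) + 1) : ℝ) : ℂ) * I) + (h u : ℂ) * I, (u : ℂ)) := by
        intro f
        filter_upwards [hev] with n hn
        rw [indicator_of_mem hn, vs_eq, neg_neg]
      refine ⟨hx, ?_, ?_⟩
      · refine hx.2.1.congr' ?_
        filter_upwards [hval Θ] with n hn
        rw [hn]
      · rintro ⟨a, ha, h4⟩
        obtain ⟨h'', hh'', hD'', ht, ht'⟩ := h4 1 one_pos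
        refine hx.2.2 ?_
        refine (ht'.comp (vseq_tendsto one_pos hh'')).congr' ?_
        filter_upwards [hval (fun z => cau A (Θ z))] with n hn
        rw [hn]
        rfl
    have h5 : Prod.mk u ⁻¹' N = (fun y : ℝ => -y) ⁻¹' E' := by
      ext y
      simp [hE']
    rw [h5]
    exact (Measure.measurePreserving_neg (volume : Measure ℝ)).quasiMeasurePreserving.preimage_null h2
  rw [ae_iff]
  refine measure_mono_null (fun x hx => ?_) hN0
  simp only [mem_ofPred_eq, Classical.not_imp] at hx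
  exact ⟨hx.1, hx.2.1, hx.2.2⟩

end Vale.Agent.P097.H190.TR
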