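import Vale.Agent.P097.H190.TRc

/-!
Row TR, final part: transfer on the wide wedge.
-/

set_option linter.all false

open Complex Metric Filter Topology Set MeasureTheory

namespace Vale.Agent.P097.H190.TR

open Vale.Agent.P097.H877.Bd Vale.Agent.P097.H899.Nt

/-- the hypothesis of `nt2` on the domain gives the vertical segments -/
theorem seg_of_cone {Dom : Set (ℂ × ℂ)} {h c : ℝ → ℝ} {p q : ℝ} {x : ℝ × ℝ}
    (hcone : ∀ ε > 0, ∃ r > 0, ∀ t w : ℂ, |t.re - x.2| < r →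
      ‖w - x.1‖ < r → h x.1 - r < t.im →
      t.im < h x.1 + c x.1 * (w.re - x.1) + kap p q w.im - ε * ‖w - x.1‖ → (t, w) ∈ Dom) :
    ∃ r > 0, ∀ t : ℂ, |t.re - x.2| < r → h x.1 - r < t.im → t.im < h x.1 →
      (t, (x.1 : ℂ)) ∈ Dom := by
  obtain ⟨r, hr, h1⟩ := hcone 1 one_pos
  refine ⟨r, hr, fun t h2 h3 h4 => h1 t x.1 h2 (by simpa using hr) h3 ?_⟩
  simpa using h4

/-- **Transfer on the wide wedge**, upper half plane form.  `Θ` is holomorphic on `Dom` with values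
in the upper half plane, `Dom` as in `nt2`; `A ⊆ ℝ` compact.  At almost every edge point of `E` at
which the vertical limit `a` of `Θ` is in `A`, the blow-ups of `Θ` on the whole tangent cone tend
to `a` inside arbitrarily thin cones with vertices in `A`. -/
theorem transfer_up {Dom : Set (ℂ × ℂ)} (hDom : IsOpen Dom) {Θ : ℂ × ℂ → ℂ}
    (hΘ : DifferentiableOn ℂ Θ Dom) (hpos : ∀ z ∈ Dom, 0 < (Θ z).im) {h c : ℝ → ℝ} {p q : ℝ}
    (hhm : Measurable h) {E : Set (ℝ × ℝ)} (hEm : MeasurableSet E)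
    (hcone : ∀ x ∈ E, ∀ ε > 0, ∃ r > 0, ∀ t w : ℂ, |t.re - x.2| < r →
      ‖w - x.1‖ < r → h x.1 - r < t.im →
      t.im < h x.1 + c x.1 * (w.re - x.1) + kap p q w.im - ε * ‖w - x.1‖ → (t, w) ∈ Dom)
    (hh : ∀ x ∈ E, ∀ ε > 0, ∃ δ > 0, ∀ x' ∈ E, |x'.1 - x.1| < δ →
      h x.1 + c x.1 * (x'.1 - x.1) - ε * |x'.1 - x.1| ≤ h x'.1)
    {A : Set ℝ} (hA : IsCompact A) :
    ∀ᵐ x : ℝ × ℝ, x ∈ E → ∀ a ∈ A,
      Tendsto (fun s : ℝ => Θ (sc x.1 x.2 (h x.1) (s, (-I, 0)))) (𝓝[>] 0) (𝓝 (a : ℂ)) →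
      ∀ z₁ : ℂ × ℂ, z₁.1.im < c x.1 * z₁.2.re + kap p q z₁.2.im → ∀ ε > 0,
        ∀ᶠ w in 𝓝[>] 0 ×ˢ 𝓝 z₁, sc x.1 x.2 (h x.1) w ∈ Dom ∧
          ‖Θ (sc x.1 x.2 (h x.1) w) - a‖ < ε ∧ ∃ b ∈ A, |b - a| < ε ∧
          |(Θ (sc x.1 x.2 (h x.1) w)).re - b| ≤ ε * (Θ (sc x.1 x.2 (h x.1) w)).im := by
  rcases A.eq_empty_or_nonempty with hne | hne
  · refine Eventually.of_forall fun x _ a ha => ?_
    rw [hne] at ha
    exact absurd ha (notMem_empty a)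
  have hAf : volume A ≠ ⊤ := hA.measure_lt_top.ne
  have hcy : DifferentiableOn ℂ (fun z => cy (Θ z)) Dom := fun z hz =>
    (differentiableAt_cy (hpos z hz).le).comp_differentiableWithinAt z (hΘ z hz)
  have hF : DifferentiableOn ℂ (fun z => Complex.exp (I * cau A (Θ z))) Dom :=
    ((continuousOn_cau hAf hΘ hpos).const_mul I).cexp
  have hFn : ∀ z ∈ Dom, ‖Complex.exp (I * cau A (Θ z))‖ = Real.exp (-(cau A (Θ z)).im) := by
    intro z hz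
    rw [Complex.norm_exp]
    congr 1
    simp
  have hF0 : ∀ z ∈ Dom, 0 ≤ (cau A (Θ z)).im := by
    intro z hz
    rw [cau_im hAf (hpos z hz)]
    exact integral_nonneg fun t => (pk_pos (hpos z hz) t).le
  have n1 := nt2 hDom hcy (h := h) (c := c) (p := p) (q := q) (E := E) (fun x hx => ⟨1,
    fun ε hε => by
      obtain ⟨r, hr, h1⟩ := hcone x hx ε hε
      exact ⟨r, hr, fun t w a1 a2 a3 a4 => ⟨h1 t w a1 a2 a3 a4,
        norm_cy_le (hpos _ (h1 t w a1 a2 a3 a4)).le⟩⟩⟩) hh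
  have n2 := nt2 hDom hF (h := h) (c := c) (p := p) (q := q) (E := E) (fun x hx => ⟨1,
    fun ε hε => by
      obtain ⟨r, hr, h1⟩ := hcone x hx ε hε
      refine ⟨r, hr, fun t w a1 a2 a3 a4 => ⟨h1 t w a1 a2 a3 a4, ?_⟩⟩
      have h2 := h1 t w a1 a2 a3 a4
      rw [hFn _ h2, Real.exp_le_one_iff]
      linarith [hF0 _ h2]⟩) hh
  have n3 := exc_null hDom hΘ hpos hhm hEm (fun x hx => seg_of_cone (hcone x hx)) hA hne
  filter_upwards [n1, n2, n3] with x e1 e2 e3 hx a ha hvert z₁ hz₁ ε hε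
  obtain ⟨l₁, hl₁⟩ := e1 hx
  obtain ⟨l₂, hl₂⟩ := e2 hx
  have hI : (-I : ℂ).im < c x.1 * (0 : ℂ).re + kap p q (0 : ℂ).im := by simp
  have v1 := hl₁ (-I, 0) hI
  have v2 := hl₂ (-I, 0) hI
  have ha0 : (0 : ℝ) ≤ ((a : ℂ)).im := by simp
  -- the vertical sequence
  have hsq : Tendsto (fun n : ℕ => (1 / ((n : ℝ) + 1))) atTop (𝓝[>] 0) := by
    refine tendsto_nhdsWithin_iff.2 ⟨tendsto_one_div_add_atTop_nhds_zero_nat, ?_⟩
    exact Eventually.of_forall fun n => by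
      show (0 : ℝ) < _
      positivity
  have hev : ∀ᶠ n : ℕ in atTop, vs h n x ∈ Dom := (vs_tendsto h x).eventually v1.2
  have hval : ∀ f : ℂ × ℂ → ℂ, ∀ᶠ n : ℕ in atTop, Dom.indicator f (vs h n x) = f (vs h n x) := by
    intro f
    filter_upwards [hev] with n hn
    rw [indicator_of_mem hn]
  have w1 : Tendsto (fun n : ℕ => Θ (vs h n x)) atTop (𝓝 (a : ℂ)) := hvert.comp hsq
  have w2 : Tendsto (fun n => infDist (Dom.indicator Θ (vs h n x)) (rl A)) atTop (𝓝 0) := by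
    have h4 : Tendsto (fun n => infDist (Θ (vs h n x)) (rl A)) atTop
        (𝓝 (infDist (a : ℂ) (rl A))) := ((continuous_infDist_pt (rl A)).tendsto _).comp w1
    rw [infDist_zero_of_mem (show (a : ℂ) ∈ rl A from ⟨a, ha, rfl⟩)] at h4
    refine h4.congr' ?_
    filter_upwards [hval Θ] with n hn
    rw [hn]
  have w3 := e3 hx w2
  -- the two limits
  have hl1 : l₁ = cy (a : ℂ) :=
    tendsto_nhds_unique (v1.1.comp (vs_tendsto h x)) ((continuousAt_cy ha0).tendsto.comp w1)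
  have hl2 : ‖l₂‖ = Real.exp (-Real.pi) := by
    have h4 : Tendsto (fun n : ℕ => ‖Complex.exp (I * cau A (Θ (vs h n x)))‖) atTop (𝓝 ‖l₂‖) :=
      (v2.1.comp (vs_tendsto h x)).norm
    have h5 : Tendsto (fun n : ℕ => Real.exp (-(Dom.indicator (fun z => cau A (Θ z))
        (vs h n x)).im)) atTop (𝓝 (Real.exp (-Real.pi))) :=
      (Real.continuous_exp.tendsto _).comp w3.neg
    refine tendsto_nhds_unique h4 (h5.congr' ?_)
    filter_upwards [hev] with n hn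
    rw [hFn _ hn, indicator_of_mem hn]
  -- the tangent cone
  obtain ⟨u1, u2⟩ := hl₁ z₁ hz₁
  obtain ⟨u3, u4⟩ := hl₂ z₁ hz₁
  rw [hl1] at u1
  have u5 : Tendsto (fun w => Θ (sc x.1 x.2 (h x.1) w)) (𝓝[>] 0 ×ˢ 𝓝 z₁) (𝓝 (a : ℂ)) :=
    tendsto_of_cy (u2.mono fun w hw => (hpos _ hw).le) ha0 u1
  obtain ⟨ε₁, hε₁, hε₂, hε₃⟩ : ∃ ε₁ > 0, ε₁ ≤ ε / 2 ∧ ε₁ ≤ 1 :=
    ⟨min (ε / 2) 1, lt_min (by positivity) one_pos, min_le_left _ _, min_le_right _ _⟩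
  have u6 : ∀ᶠ w in 𝓝[>] 0 ×ˢ 𝓝 z₁, Real.exp (-(cau A (Θ (sc x.1 x.2 (h x.1) w))).im) <
      Real.exp (-(Real.pi - 2 * Real.arctan ε₁)) := by
    have h4 : Tendsto (fun w => ‖Complex.exp (I * cau A (Θ (sc x.1 x.2 (h x.1) w)))‖)
        (𝓝[>] 0 ×ˢ 𝓝 z₁) (𝓝 (Real.exp (-Real.pi))) := by
      rw [← hl2]; exact u3.norm
    have h5 : Real.exp (-Real.pi) < Real.exp (-(Real.pi - 2 * Real.arctan ε₁)) := by
      rw [Real.exp_lt_exp]
      have := Real.arctan_pos.mpr hε₁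
      linarith
    filter_upwards [h4.eventually (gt_mem_nhds h5), u2] with w hw hwD
    rw [hFn _ hwD] at hw
    exact hw
  filter_upwards [u2, u6, (tendsto_iff_norm_sub_tendsto_zero.1 u5).eventually
    (gt_mem_nhds (show (0 : ℝ) < ε₁ by exact hε₁))] with w hw1 hw2 hw3
  refine ⟨hw1, by linarith, ?_⟩
  have hp := hpos _ hw1
  rw [Real.exp_lt_exp] at hw2
  by_contra hcon
  have h6 := cau_le_of_far hAf hp hε₁ (fun t ht => by
    by_contra h7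
    push Not at h7
    have h8 : |(Θ (sc x.1 x.2 (h x.1) w)).re - a| < ε₁ := by
      have := (Complex.abs_re_le_norm (Θ (sc x.1 x.2 (h x.1) w) - a)).trans_lt hw3
      simpa using this
    have h9 : (Θ (sc x.1 x.2 (h x.1) w)).im < ε₁ := by
      have := (le_abs_self _).trans_lt
        ((Complex.abs_im_le_norm (Θ (sc x.1 x.2 (h x.1) w) - a)).trans_lt hw3)
      simpa using this
    refine hcon ⟨t, ht, ?_, ?_⟩
    · have h10 := abs_sub_le t (Θ (sc x.1 x.2 (h x.1) w)).re a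
      rw [abs_sub_comm t (Θ (sc x.1 x.2 (h x.1) w)).re] at h10
      have h11 : ε₁ * (Θ (sc x.1 x.2 (h x.1) w)).im ≤ ε₁ * 1 := by
        gcongr
        linarith
      linarith
    · refine h7.le.trans ?_
      gcongr
      linarith)
  linarith

/-- **Transfer on the wide wedge** (`Im θ < H`, walls on the line `Im = H`) -/
theorem transfer_top {Dom : Set (ℂ × ℂ)} (hDom : IsOpen Dom) {θ : ℂ × ℂ → ℂ}
    (hθ : DifferentiableOn ℂ θ Dom) {H : ℝ} (htop : ∀ z ∈ Dom, (θ z).im < H) {h c : ℝ → ℝ}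
    {p q : ℝ} (hhm : Measurable h) {E : Set (ℝ × ℝ)} (hEm : MeasurableSet E)
    (hcone : ∀ x ∈ E, ∀ ε > 0, ∃ r > 0, ∀ t w : ℂ, |t.re - x.2| < r →
      ‖w - x.1‖ < r → h x.1 - r < t.im →
      t.im < h x.1 + c x.1 * (w.re - x.1) + kap p q w.im - ε * ‖w - x.1‖ → (t, w) ∈ Dom)
    (hh : ∀ x ∈ E, ∀ ε > 0, ∃ δ > 0, ∀ x' ∈ E, |x'.1 - x.1| < δ →
      h x.1 + c x.1 * (x'.1 - x.1) - ε * |x'.1 - x.1| ≤ h x'.1)
    {K : Set ℝ} (hK : IsCompact K) :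
    ∀ᵐ x : ℝ × ℝ, x ∈ E → ∀ b ∈ K,
      Tendsto (fun s : ℝ => θ (sc x.1 x.2 (h x.1) (s, (-I, 0)))) (𝓝[>] 0)
        (𝓝 ((b : ℂ) + H * I)) →
      ∀ z₁ : ℂ × ℂ, z₁.1.im < c x.1 * z₁.2.re + kap p q z₁.2.im → ∀ ε > 0,
        ∀ᶠ w in 𝓝[>] 0 ×ˢ 𝓝 z₁, sc x.1 x.2 (h x.1) w ∈ Dom ∧
          ‖θ (sc x.1 x.2 (h x.1) w) - (b + H * I)‖ < ε ∧ ∃ b' ∈ K, |b' - b| < ε ∧
          |(θ (sc x.1 x.2 (h x.1) w)).re - b'| ≤ ε * (H - (θ (sc x.1 x.2 (h x.1) w)).im) := by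
  have hKn : IsCompact (Neg.neg '' K) := hK.image continuous_neg
  have hd : DifferentiableOn ℂ (fun z => (H : ℂ) * I - θ z) Dom := hθ.const_sub _
  have hp : ∀ z ∈ Dom, 0 < ((H : ℂ) * I - θ z).im := by
    intro z hz
    have := htop z hz
    simp only [sub_im, mul_im, ofReal_re, ofReal_im, I_re, I_im]
    linarith
  filter_upwards [transfer_up hDom hd hp hhm hEm hcone hh hKn] with x hx hxE b hb hvert z₁ hz₁ ε hε
  have h1 : Tendsto (fun s : ℝ => (H : ℂ) * I - θ (sc x.1 x.2 (h x.1) (s, (-I, 0)))) (𝓝[>] 0)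
      (𝓝 (((-b : ℝ)) : ℂ)) := by
    have h2 := hvert.const_sub ((H : ℂ) * I)
    convert h2 using 2
    push_cast
    ring
  filter_upwards [hx hxE (-b) ⟨b, hb, rfl⟩ h1 z₁ hz₁ ε hε] with w hw
  obtain ⟨e1, e2, b', ⟨b'', hb'', rfl⟩, e3, e4⟩ := hw
  refine ⟨e1, ?_, b'', hb'', ?_, ?_⟩
  · rw [← norm_neg] at e2
    have e7 : θ (sc x.1 x.2 (h x.1) w) - (b + H * I) =
        -((H : ℂ) * I - θ (sc x.1 x.2 (h x.1) w) - ((-b : ℝ) : ℂ)) := by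
      push_cast
      ring
    rw [e7]
    exact e2
  · rw [← abs_neg] at e3
    convert e3 using 2
    ring
  · rw [← abs_neg] at e4
    have e5 : ((H : ℂ) * I - θ (sc x.1 x.2 (h x.1) w)).re = -(θ (sc x.1 x.2 (h x.1) w)).re := by
      simp
    have e6 : ((H : ℂ) * I - θ (sc x.1 x.2 (h x.1) w)).im =
        H - (θ (sc x.1 x.2 (h x.1) w)).im := by
      simp
    rw [e5, e6] at e4
    convert e4 using 2
    ring

/-- **Transfer of a limit** which is uniform on the compact set `K` of the line `Im = H` in thin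
cones -/
theorem transfer_lim {X : Type*} [PseudoMetricSpace X] {Dom : Set (ℂ × ℂ)} (hDom : IsOpen Dom)
    {θ : ℂ × ℂ → ℂ}
    (hθ : DifferentiableOn ℂ θ Dom) {H : ℝ} (htop : ∀ z ∈ Dom, (θ z).im < H) {h c : ℝ → ℝ}
    {p q : ℝ} (hhm : Measurable h) {E : Set (ℝ × ℝ)} (hEm : MeasurableSet E)
    (hcone : ∀ x ∈ E, ∀ ε > 0, ∃ r > 0, ∀ t w : ℂ, |t.re - x.2| < r →
      ‖w - x.1‖ < r → h x.1 - r < t.im →
      t.im < h x.1 + c x.1 * (w.re - x.1) + kap p q w.im - ε * ‖w - x.1‖ → (t, w) ∈ Dom)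
    (hh : ∀ x ∈ E, ∀ ε > 0, ∃ δ > 0, ∀ x' ∈ E, |x'.1 - x.1| < δ →
      h x.1 + c x.1 * (x'.1 - x.1) - ε * |x'.1 - x.1| ≤ h x'.1)
    {K : Set ℝ} (hK : IsCompact K) {f : ℂ → X} {fs : ℝ → X} (hfs : ContinuousOn fs K)
    (hf : ∀ ε > 0, ∃ δ > 0, ∀ b ∈ K, ∀ z : ℂ, |z.re - b| ≤ δ * (H - z.im) → 0 < H - z.im →
      H - z.im < δ → dist (f z) (fs b) < ε) :
    ∀ᵐ x : ℝ × ℝ, x ∈ E → ∀ b ∈ K,
      Tendsto (fun s : ℝ => θ (sc x.1 x.2 (h x.1) (s, (-I, 0)))) (𝓝[>] 0)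
        (𝓝 ((b : ℂ) + H * I)) →
      ∀ z₁ : ℂ × ℂ, z₁.1.im < c x.1 * z₁.2.re + kap p q z₁.2.im →
        Tendsto (fun w => f (θ (sc x.1 x.2 (h x.1) w))) (𝓝[>] 0 ×ˢ 𝓝 z₁) (𝓝 (fs b)) := by
  filter_upwards [transfer_top hDom hθ htop hhm hEm hcone hh hK] with x hx hxE b hb hvert z₁ hz₁
  rw [Metric.tendsto_nhds]
  intro ε hε
  obtain ⟨δ₁, hδ₁, h1⟩ := hf (ε / 2) (by positivity)
  obtain ⟨δ₂, hδ₂, h2⟩ := Metric.continuousOn_iff.1 hfs b hb (ε / 2) (by positivity)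
  filter_upwards [hx hxE b hb hvert z₁ hz₁ (min δ₁ δ₂) (lt_min hδ₁ hδ₂)] with w hw
  obtain ⟨e1, e2, b', hb', e3, e4⟩ := hw
  have hpos := htop _ e1
  have e5 : H - (θ (sc x.1 x.2 (h x.1) w)).im < δ₁ := by
    have e6 := (Complex.abs_im_le_norm (θ (sc x.1 x.2 (h x.1) w) - (b + H * I))).trans_lt e2
    have e7 := (neg_le_abs _).trans_lt (e6.trans_le (min_le_left _ _))
    simp at e7
    linarith
  have h3 := h1 b' hb' _ (e4.trans (mul_le_mul_of_nonneg_right (min_le_left _ _) (by linarith)))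
    (by linarith) e5
  have h4 := h2 b' hb' (by rw [Real.dist_eq]; exact e3.trans_le (min_le_right _ _))
  have h5 := dist_triangle (f (θ (sc x.1 x.2 (h x.1) w))) (fs b') (fs b)
  linarith

end Vale.Agent.P097.H190.TR
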