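import Vale.Agent.P097.H190.TRd

/-!
Row TR, null sets of wall values.
-/

set_option linter.all false

open Complex Metric Filter Topology Set MeasureTheory

namespace Vale.Agent.P097.H190.TR

open Vale.Agent.P097.H877.Bd Vale.Agent.P097.H899.Nt

/-- measurability of `the limit exists and is a real point of N` -/
theorem measurableSet_lim_mem {β : Type*} [MeasurableSpace β] {f : ℕ → β → ℂ}
    (hf : ∀ n, Measurable (f n)) {N : Set ℝ} (hN : MeasurableSet N) :
    MeasurableSet {x | ∃ a ∈ N, Tendsto (fun n => f n x) atTop (𝓝 ((a : ℝ) : ℂ))} ∧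
    ∃ g : β → ℝ, Measurable g ∧ ∀ x, ∀ a : ℝ, Tendsto (fun n => f n x) atTop (𝓝 (a : ℂ)) →
      g x = a := by
  have h1 : MeasurableSet {x | ∃ c, Tendsto (fun n => f n x) atTop (𝓝 c)} :=
    StronglyMeasurable.measurableSet_exists_tendsto fun n => (hf n).stronglyMeasurable
  have h2 : Measurable (fun x => limUnder atTop (fun n => f n x)) :=
    (StronglyMeasurable.limUnder fun n => (hf n).stronglyMeasurable).measurable
  set g : β → ℂ := fun x => limUnder atTop (fun n => f n x) with hg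
  have h3 : ∀ x c, Tendsto (fun n => f n x) atTop (𝓝 c) → g x = c := fun x c hc => hc.limUnder_eq
  refine ⟨?_, fun x => (g x).re, Complex.measurable_re.comp h2, fun x a ha => ?_⟩
  · have h4 : {x | ∃ a ∈ N, Tendsto (fun n => f n x) atTop (𝓝 ((a : ℝ) : ℂ))} =
        {x | ∃ c, Tendsto (fun n => f n x) atTop (𝓝 c)} ∩
          ({x | (g x).im = 0} ∩ {x | (g x).re ∈ N}) := by
      ext x
      constructor
      · rintro ⟨a, ha, ht⟩
        have h5 := h3 x _ ht
        refine ⟨⟨_, ht⟩, ?_, ?_⟩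
        · show (g x).im = 0
          rw [h5]; simp
        · show (g x).re ∈ N
          rw [h5]; simpa using ha
      · rintro ⟨⟨c, hc⟩, h6, h7⟩
        have h5 := h3 x _ hc
        refine ⟨(g x).re, h7, ?_⟩
        have h8 : (((g x).re : ℝ) : ℂ) = c := by
          rw [← h5]
          apply Complex.ext
          · simp
          · have : (g x).im = 0 := h6
            simp [this]
        rw [h8]
        exact hc
    rw [h4]
    refine h1.inter (MeasurableSet.inter ?_ ?_)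
    · exact (Complex.measurable_im.comp h2) (measurableSet_singleton 0)
    · exact (Complex.measurable_re.comp h2) hN
  · show (g x).re = a
    rw [h3 x _ ha]
    simp

/-- **one variable** : the vertical limit is in a given null set at almost no point -/
theorem null1 {D : Set ℂ} (hDo : IsOpen D) {θ : ℂ → ℂ} (hθ : DifferentiableOn ℂ θ D)
    (hpos : ∀ z ∈ D, 0 < (θ z).im) {N : Set ℝ} (hNm : MeasurableSet N) (hN : volume N = 0) :
    ∀ᵐ x : ℝ, (∃ k > 0, ∃ h > 0, cone k h x ⊆ D) →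
      ¬ ∃ a ∈ N, Tendsto (fun n : ℕ => D.indicator θ ((x : ℂ) + ((1 / ((n : ℝ) + 1) : ℝ) : ℂ) * I))
        atTop (𝓝 ((a : ℝ) : ℂ)) := by
  classical
  set r : ℕ → ℝ := fun n => 1 / ((n : ℝ) + 1) with hr
  have hr0 : ∀ n, 0 < r n := fun n => by simp only [hr]; positivity
  have hmeas : ∀ n : ℕ, Measurable
      fun x : ℝ => D.indicator θ ((x : ℂ) + ((1 / ((n : ℝ) + 1) : ℝ) : ℂ) * I) := by
    intro n
    have h1 : Measurable (D.indicator θ) := by
      rw [← Set.piecewise_eq_indicator]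
      exact hθ.continuousOn.measurable_piecewise continuousOn_const hDo.measurableSet
    exact h1.comp (Complex.measurable_ofReal.add_const _)
  obtain ⟨hm1, g, hgm, hg⟩ := measurableSet_lim_mem hmeas hNm
  have key : ∀ n R : ℕ, volume ({x : ℝ | cone (r n) (r n) x ⊆ D ∧ ∀ z ∈ cone (r n) (r n) x,
      ‖(0 : ℂ → ℂ) z‖ ≤ 0} ∩ closedBall (0 : ℝ) R ∩ {x | ∃ a ∈ N, Tendsto (fun n : ℕ =>
        D.indicator θ ((x : ℂ) + ((1 / ((n : ℝ) + 1) : ℝ) : ℂ) * I)) atTop (𝓝 ((a : ℝ) : ℂ))}) =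
      0 := by
    intro n R
    set B : Set ℝ := {x : ℝ | cone (r n) (r n) x ⊆ D ∧ ∀ z ∈ cone (r n) (r n) x,
      ‖(0 : ℂ → ℂ) z‖ ≤ 0} ∩ closedBall (0 : ℝ) R ∩ {x | ∃ a ∈ N, Tendsto (fun n : ℕ =>
        D.indicator θ ((x : ℂ) + ((1 / ((n : ℝ) + 1) : ℝ) : ℂ) * I)) atTop (𝓝 ((a : ℝ) : ℂ))}
      with hB
    have hBm : MeasurableSet B :=
      (isClosed_coneBound.measurableSet.inter isClosed_closedBall.measurableSet).inter hm1
    by_contra hne
    have hBfin : volume B < ⊤ := (measure_mono (fun x hx => hx.1.2)).trans_lt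
      (isCompact_closedBall (0 : ℝ) R).measure_lt_top
    have : IsFiniteMeasure (volume.restrict B) := ⟨by simpa using hBfin⟩
    set μ : Measure ℝ := (volume.restrict B).map g with hμ
    have hμf : IsFiniteMeasure μ := by rw [hμ]; infer_instance
    have hμN : μ N = volume B := by
      rw [hμ, Measure.map_apply hgm hNm, Measure.restrict_apply (hgm hNm)]
      congr 1
      apply inter_eq_right.2
      rintro x ⟨_, a, ha, ht⟩
      show g x ∈ N
      rw [hg x a ht]
      exact ha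
    obtain ⟨A, hAN, hA, hA0⟩ := hNm.exists_lt_isCompact_of_ne_top (μ := μ) (measure_ne_top _ _)
      (show 0 < μ N by rw [hμN]; exact pos_iff_ne_zero.2 hne)
    have hAne : A.Nonempty := by
      rcases A.eq_empty_or_nonempty with h | h
      · rw [h, measure_empty] at hA0
        exact absurd hA0 (lt_irrefl _)
      · exact h
    have hAv : volume A = 0 := measure_mono_null hAN hN
    set E : Set ℝ := g ⁻¹' A ∩ B with hE
    have hE0 : 0 < volume E := by
      rw [hμ, Measure.map_apply hgm hA.measurableSet,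
        Measure.restrict_apply (hgm hA.measurableSet)] at hA0
      exact hA0
    have h1 := loew_seq hθ hpos hA hAne (E := E) (fun x hx => ⟨r n, hr0 n, r n, hr0 n,
      hx.2.1.1.1⟩)
    have h2 := loew_null hθ hpos hA hAv (E := {x | ∃ k > 0, ∃ h > 0, cone k h x ⊆ D ∧ ∃ a ∈ A,
      Tendsto θ (𝓝[cone k h x] (x : ℂ)) (𝓝 (a : ℂ))}) (fun x hx => hx)
    refine hE0.ne' (measure_mono_null (fun x hx => ?_) (measure_union_null (ae_iff.1 h1) h2))
    by_contra hcon
    rw [mem_union, not_or] at hcon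
    obtain ⟨hc1, hc2⟩ := hcon
    simp only [mem_ofPred_eq, not_not] at hc1
    obtain ⟨a, ha, ht⟩ := hx.2.2
    have hgx : g x = a := hg x a ht
    have haA : a ∈ A := by rw [← hgx]; exact hx.1
    have hev : ∀ᶠ m : ℕ in atTop, (x : ℂ) + ((1 / ((m : ℝ) + 1) : ℝ) : ℂ) * I ∈ D :=
      (vseq_tendsto (x := x) (hr0 n) (hr0 n)).eventually
        (eventually_mem_nhdsWithin.mono fun z hz => hx.2.1.1.1 hz)
    have h3 : Tendsto (fun m : ℕ => infDist (θ ((x : ℂ) + ((1 / ((m : ℝ) + 1) : ℝ) : ℂ) * I))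
        (rl A)) atTop (𝓝 0) := by
      have h4 : Tendsto (fun m : ℕ => infDist (D.indicator θ
          ((x : ℂ) + ((1 / ((m : ℝ) + 1) : ℝ) : ℂ) * I)) (rl A)) atTop
          (𝓝 (infDist (a : ℂ) (rl A))) := ((continuous_infDist_pt (rl A)).tendsto _).comp ht
      rw [infDist_zero_of_mem (show (a : ℂ) ∈ rl A from ⟨a, haA, rfl⟩)] at h4
      refine h4.congr' ?_
      filter_upwards [hev] with m hm
      rw [indicator_of_mem hm]
    obtain ⟨a', ha', h5⟩ := hc1 hx h3
    obtain ⟨h', hh', hD', ht', -⟩ := h5 1 one_pos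
    exact hc2 ⟨1, one_pos, h', hh', hD', a', ha', ht'⟩
  have h2 : volume (⋃ n : ℕ, ⋃ R : ℕ, ({x : ℝ | cone (r n) (r n) x ⊆ D ∧
      ∀ z ∈ cone (r n) (r n) x, ‖(0 : ℂ → ℂ) z‖ ≤ 0} ∩ closedBall (0 : ℝ) R ∩
      {x | ∃ a ∈ N, Tendsto (fun n : ℕ =>
        D.indicator θ ((x : ℂ) + ((1 / ((n : ℝ) + 1) : ℝ) : ℂ) * I)) atTop (𝓝 ((a : ℝ) : ℂ))})) =
      0 := measure_iUnion_null fun n => measure_iUnion_null fun R => key n R
  rw [ae_iff]
  refine measure_mono_null (fun x hx => ?_) h2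
  simp only [mem_ofPred_eq, Classical.not_imp, not_not] at hx
  obtain ⟨⟨k, hk, h, hh, hcD⟩, hx2⟩ := hx
  obtain ⟨n, hn⟩ : ∃ n : ℕ, 1 / k ≤ n ∧ 1 / h ≤ n := by
    obtain ⟨n₁, h₁⟩ := exists_nat_ge (1 / k)
    obtain ⟨n₂, h₂⟩ := exists_nat_ge (1 / h)
    refine ⟨max n₁ n₂, h₁.trans ?_, h₂.trans ?_⟩ <;> exact_mod_cast (by simp)
  have hrk : r n ≤ k := by
    simp only [hr]
    rw [div_le_iff₀ (by positivity)]
    have := (div_le_iff₀ hk).mp hn.1
    nlinarith
  have hrh : r n ≤ h := by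
    simp only [hr]
    rw [div_le_iff₀ (by positivity)]
    have := (div_le_iff₀ hh).mp hn.2
    nlinarith
  obtain ⟨R, hR⟩ := exists_nat_ge |x|
  refine mem_iUnion.mpr ⟨n, mem_iUnion.mpr ⟨R, ⟨⟨?_, ?_⟩, ?_⟩, hx2⟩⟩
  · exact (cone_mono (hr0 n) hrk hrh).trans hcD
  · intro z _
    simp
  · rw [mem_closedBall, dist_zero_right]
    exact hR

/-- **wall values in a null set** do not occur (upper half plane form) -/
theorem null_up {Dom : Set (ℂ × ℂ)} (hDom : IsOpen Dom) {Θ : ℂ × ℂ → ℂ}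
    (hΘ : DifferentiableOn ℂ Θ Dom) (hpos : ∀ z ∈ Dom, 0 < (Θ z).im) {h : ℝ → ℝ}
    (hhm : Measurable h) {E : Set (ℝ × ℝ)} (hEm : MeasurableSet E)
    (hseg : ∀ x ∈ E, ∃ r > 0, ∀ t : ℂ, |t.re - x.2| < r → h x.1 - r < t.im → t.im < h x.1 →
      (t, (x.1 : ℂ)) ∈ Dom) {N : Set ℝ} (hN : volume N = 0) :
    ∀ᵐ x : ℝ × ℝ, x ∈ E → ¬ ∃ a ∈ N,
      Tendsto (fun s : ℝ => Θ (sc x.1 x.2 (h x.1) (s, (-I, 0)))) (𝓝[>] 0) (𝓝 ((a : ℝ) : ℂ)) := by
  set N' : Set ℝ := toMeasurable volume N with hN'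
  have hN'm : MeasurableSet N' := measurableSet_toMeasurable _ _
  have hN'0 : volume N' = 0 := by rw [hN', measure_toMeasurable]; exact hN
  obtain ⟨hm1, -⟩ := measurableSet_lim_mem
    (fun n => measurable_ind hDom hΘ.continuousOn hhm n) hN'm
  set S : Set (ℝ × ℝ) := E ∩ {x | ∃ a ∈ N', Tendsto (fun n => Dom.indicator Θ (vs h n x)) atTop
    (𝓝 ((a : ℝ) : ℂ))} with hS
  have hSm : MeasurableSet S := hEm.inter hm1
  have hS0 : (volume : Measure (ℝ × ℝ)) S = 0 := by
    rw [Measure.volume_eq_prod, Measure.measure_prod_null hSm]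
    refine Eventually.of_forall fun u => ?_
    show volume (Prod.mk u ⁻¹' S) = 0
    set D : Set ℂ := {z | (-z + (h u : ℂ) * I, (u : ℂ)) ∈ Dom} with hD
    set θ : ℂ → ℂ := fun z => Θ (-z + (h u : ℂ) * I, (u : ℂ)) with hθ
    have hcont : Continuous fun z : ℂ => ((-z + (h u : ℂ) * I, (u : ℂ)) : ℂ × ℂ) := by fun_prop
    have hDo : IsOpen D := hDom.preimage hcont
    have hθd : DifferentiableOn ℂ θ D := by
      intro z hz
      have h1 : DifferentiableAt ℂ Θ (-z + (h u : ℂ) * I, (u : ℂ)) :=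
        hΘ.differentiableAt (hDom.mem_nhds hz)
      exact (h1.comp z (by fun_prop : DifferentiableAt ℂ
        (fun z : ℂ => ((-z + (h u : ℂ) * I, (u : ℂ)) : ℂ × ℂ)) z)).differentiableWithinAt
    have hθp : ∀ z ∈ D, 0 < (θ z).im := fun z hz => hpos _ hz
    have h1 := null1 hDo hθd hθp hN'm hN'0
    set E' : Set ℝ := {x | (u, -x) ∈ S} with hE'
    have h2 : volume E' = 0 := by
      rw [ae_iff] at h1
      refine measure_mono_null (fun x hx => ?_) h1
      simp only [mem_ofPred_eq, Classical.not_imp, not_not]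
      refine ⟨?_, ?_⟩
      · obtain ⟨r, hr, h1⟩ := hseg (u, -x) hx.1
        refine ⟨1, one_pos, r, hr, fun z hz => ?_⟩
        have hz0 := cone_im_pos one_pos hz
        have h2 := hz.1
        have h3 := hz.2
        refine h1 _ ?_ ?_ ?_
        · simp only [add_re, neg_re, mul_re, ofReal_re, ofReal_im, I_re, I_im]
          simp only [mul_zero, zero_mul, sub_zero, add_zero]
          rw [show -z.re - -x = -(z.re - x) by ring, abs_neg]
          linarith
        · simp only [add_im, neg_im, mul_im, ofReal_re, ofReal_im, I_re, I_im]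
          simp only [mul_zero, mul_one, zero_mul, add_zero]
          linarith
        · simp only [add_im, neg_im, mul_im, ofReal_re, ofReal_im, I_re, I_im]
          simp only [mul_zero, mul_one, zero_mul, add_zero]
          linarith
      · obtain ⟨a, ha, ht⟩ := hx.2
        refine ⟨a, ha, ht.congr fun n => ?_⟩
        rw [vs_eq, neg_neg]
        rfl
    have h5 : Prod.mk u ⁻¹' S = (fun y : ℝ => -y) ⁻¹' E' := by
      ext y
      simp [hE']
    rw [h5]
    exact (Measure.measurePreserving_neg (volume : Measure ℝ)).quasiMeasurePreserving.preimage_null h2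
  rw [ae_iff]
  refine measure_mono_null (fun x hx => ?_) hS0
  simp only [mem_ofPred_eq, Classical.not_imp, not_not] at hx
  obtain ⟨hxE, a, ha, ht⟩ := hx
  refine ⟨hxE, a, subset_toMeasurable _ _ ha, ?_⟩
  obtain ⟨r, hr, h1⟩ := hseg x hxE
  have hsq : Tendsto (fun n : ℕ => (1 / ((n : ℝ) + 1))) atTop (𝓝[>] 0) := by
    refine tendsto_nhdsWithin_iff.2 ⟨tendsto_one_div_add_atTop_nhds_zero_nat, ?_⟩
    exact Eventually.of_forall fun n => by
      show (0 : ℝ) < _
      positivity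
  refine (ht.comp hsq).congr' ?_
  have h2 := (tendsto_one_div_add_atTop_nhds_zero_nat (𝕜 := ℝ)).eventually (gt_mem_nhds hr)
  filter_upwards [h2] with n hn
  have hp : (0 : ℝ) < 1 / ((n : ℝ) + 1) := by positivity
  have h3 : vs h n x ∈ Dom := by
    obtain ⟨u, y⟩ := x
    rw [vs_eq]
    refine h1 _ ?_ ?_ ?_
    · simp only [add_re, neg_re, mul_re, ofReal_re, ofReal_im, I_re, I_im]
      simp only [mul_zero, zero_mul, sub_zero, add_zero, zero_add, mul_one, neg_neg, sub_self,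
        abs_zero]
      exact hr
    · simp only [add_im, neg_im, mul_im, ofReal_re, ofReal_im, I_re, I_im]
      simp only [mul_zero, mul_one, zero_mul, add_zero, zero_add]
      linarith
    · simp only [add_im, neg_im, mul_im, ofReal_re, ofReal_im, I_re, I_im]
      simp only [mul_zero, mul_one, zero_mul, add_zero, zero_add]
      linarith
  show Θ (sc x.1 x.2 (h x.1) (1 / ((n : ℝ) + 1), (-I, 0))) = Dom.indicator Θ (vs h n x)
  rw [indicator_of_mem h3]
  rfl

/-- **wall values in a null set** do not occur (walls on the line `Im = H`) -/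
theorem null_top {Dom : Set (ℂ × ℂ)} (hDom : IsOpen Dom) {θ : ℂ × ℂ → ℂ}
    (hθ : DifferentiableOn ℂ θ Dom) {H : ℝ} (htop : ∀ z ∈ Dom, (θ z).im < H) {h : ℝ → ℝ}
    (hhm : Measurable h) {E : Set (ℝ × ℝ)} (hEm : MeasurableSet E)
    (hseg : ∀ x ∈ E, ∃ r > 0, ∀ t : ℂ, |t.re - x.2| < r → h x.1 - r < t.im → t.im < h x.1 →
      (t, (x.1 : ℂ)) ∈ Dom) {N : Set ℝ} (hN : volume N = 0) :
    ∀ᵐ x : ℝ × ℝ, x ∈ E → ¬ ∃ b ∈ N,
      Tendsto (fun s : ℝ => θ (sc x.1 x.2 (h x.1) (s, (-I, 0)))) (𝓝[>] 0)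
        (𝓝 (((b : ℝ) : ℂ) + H * I)) := by
  have hd : DifferentiableOn ℂ (fun z => (H : ℂ) * I - θ z) Dom := hθ.const_sub _
  have hp : ∀ z ∈ Dom, 0 < ((H : ℂ) * I - θ z).im := by
    intro z hz
    have := htop z hz
    simp only [sub_im, mul_im, ofReal_re, ofReal_im, I_re, I_im]
    linarith
  have hN' : volume (Neg.neg ⁻¹' N) = 0 :=
    (Measure.measurePreserving_neg (volume : Measure ℝ)).quasiMeasurePreserving.preimage_null hN
  filter_upwards [null_up hDom hd hp hhm hEm hseg hN'] with x hx hxE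
  rintro ⟨b, hb, ht⟩
  refine hx hxE ⟨-b, by simpa using hb, ?_⟩
  have h2 := ht.const_sub ((H : ℂ) * I)
  convert h2 using 2
  push_cast
  ring

end Vale.Agent.P097.H190.TR
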