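import Vale.Agent.P097.H190.WOut
import Vale.Agent.P097.H929.World

/-!
# P097 / case [c] / bridge to the straight blown up coordinates (helper190)

`Wd d` = wide domain `{0 < Im w, Im κ < d Im w}`; bounds on compacts of `Gc c s` at the windows
(226) give `LocBdd` of the rescaled functions on `Wd (s - σ)`.
-/

set_option linter.all false

noncomputable section

open Complex Metric Filter Topology Set

namespace Vale.Agent.P097.H190.WO

open Vale.Agent.P097.H929 Vale.Agent.P097.H190.Ult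

/-- the wide domain in the straight coordinates `(κ, w)` -/
def Wd (d : ℝ) : Set (ℂ × ℂ) := {p | 0 < p.2.im ∧ p.1.im < d * p.2.im}

/-- the base domain in the straight coordinates -/
def Gd : Set (ℂ × ℂ) := {p | p.1.im < 0 ∧ 0 < p.2.im}

theorem isOpen_Wd (d : ℝ) : IsOpen (Wd d) :=
  (isOpen_lt continuous_const (continuous_im.comp continuous_snd)).inter
    (isOpen_lt (continuous_im.comp continuous_fst)
      (continuous_const.mul (continuous_im.comp continuous_snd)))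

theorem isOpen_Gd : IsOpen Gd :=
  (isOpen_lt (continuous_im.comp continuous_fst) continuous_const).inter
    (isOpen_lt continuous_const (continuous_im.comp continuous_snd))

theorem convex_Wd (d : ℝ) : Convex ℝ (Wd d) := by
  intro x hx y hy a c ha hc hac
  obtain ⟨h1, h2⟩ := hx
  obtain ⟨h3, h4⟩ := hy
  simp only [Wd, Set.mem_ofPred_eq, Prod.fst_add, Prod.smul_fst, Prod.snd_add, Prod.smul_snd,
    add_im, real_smul, mul_im, ofReal_re, ofReal_im, zero_mul, add_zero]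
  rcases ha.eq_or_lt with h | h
  · have hc1 : c = 1 := by linarith
    subst hc1
    rw [← h]
    constructor <;> linarith
  · have e1 := mul_pos h h1
    have e2 := mul_nonneg hc h3.le
    have e3 := mul_lt_mul_of_pos_left h2 h
    have e4 := mul_le_mul_of_nonneg_left h4.le hc
    constructor <;> nlinarith

theorem convex_Gd : Convex ℝ Gd := by
  intro x hx y hy a c ha hc hac
  obtain ⟨h1, h2⟩ := hx
  obtain ⟨h3, h4⟩ := hy
  simp only [Gd, Set.mem_ofPred_eq, Prod.fst_add, Prod.smul_fst, Prod.snd_add, Prod.smul_snd,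
    add_im, real_smul, mul_im, ofReal_re, ofReal_im, zero_mul, add_zero]
  rcases ha.eq_or_lt with h | h
  · have hc1 : c = 1 := by linarith
    subst hc1
    rw [← h]
    constructor <;> linarith
  · have e1 := mul_pos h h2
    have e2 := mul_nonneg hc h4.le
    have e3 := mul_neg_of_pos_of_neg h h1
    have e4 := mul_nonpos_of_nonneg_of_nonpos hc h3.le
    constructor <;> nlinarith

theorem Gd_sub_Wd {d : ℝ} (hd : 0 ≤ d) : Gd ⊆ Wd d := fun p hp =>
  ⟨hp.2, hp.1.trans_le (mul_nonneg hd hp.2.le)⟩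

theorem mem_Gd_base : ((-I, I) : ℂ × ℂ) ∈ Gd := by simp [Gd]

theorem lsh_Wd {c σ s : ℝ} {K : Set (ℂ × ℂ)} (hK : K ⊆ Wd (s - σ)) : lsh c σ '' K ⊆ Gc c s := by
  rintro _ ⟨p, hp, rfl⟩
  refine ⟨(hK hp).1, ?_⟩
  rw [lsh_im]
  have := (hK hp).2
  show p.1.im + c * p.2.re + σ * p.2.im < c * p.2.re + s * p.2.im
  linarith

theorem diff_kpt (R c σ y u r : ℝ) : Differentiable ℂ (kpt R c σ y u r) := by
  have : kpt R c σ y u r = fun p : ℂ × ℂ =>
      ((y : ℂ) + (R : ℂ) * I + r * (p.1 + (I * c + σ) * p.2), (u : ℂ) + r * p.2) := by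
    funext p; exact kpt_eq R c σ y u r p
  rw [this]
  fun_prop

section

variable {ι : Type*} {l : Filter ι} {M : Set (ℂ × ℂ)} {R y u r : ι → ℝ} {c σ s : ℝ}

/-- bounds on compacts of the straight domain -/
theorem locBdd_kpt (hM : IsOpen M) {f : ℂ × ℂ → ℂ} (hf : DifferentiableOn ℂ f M) {a : ι → ℂ}
    {D : Set (ℂ × ℂ)} (hD : IsOpen D)
    (h : ∀ K : Set (ℂ × ℂ), K ⊆ D → IsCompact K → ∃ C : ℝ, ∀ᶠ n in l, ∀ p ∈ K,
      kpt (R n) c σ (y n) (u n) (r n) p ∈ M ∧
      ‖f (kpt (R n) c σ (y n) (u n) (r n) p) - a n‖ ≤ C) :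
    LocBdd l (fun n p => f (kpt (R n) c σ (y n) (u n) (r n) p) - a n) D := by
  refine locBdd_of_compact hD fun K hK hKc => ?_
  obtain ⟨C, hC⟩ := h K hK hKc
  refine ⟨C, hC.mono fun n hn p hp => ⟨?_, (hn p hp).2⟩⟩
  have h1 : DifferentiableAt ℂ f (kpt (R n) c σ (y n) (u n) (r n) p) :=
    hf.differentiableAt (hM.mem_nhds (hn p hp).1)
  have h2 : DifferentiableAt ℂ (kpt (R n) c σ (y n) (u n) (r n)) p :=
    (diff_kpt (R n) c σ (y n) (u n) (r n)) p
  exact (DifferentiableAt.comp p h1 h2).sub_const _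

/-- holomorphic near every point, eventually -/
theorem locD_kpt (hM : IsOpen M) {f : ℂ × ℂ → ℂ} (hf : DifferentiableOn ℂ f M)
    {D : Set (ℂ × ℂ)} (hD : IsOpen D)
    (h : ∀ K : Set (ℂ × ℂ), K ⊆ D → IsCompact K → ∀ᶠ n in l, ∀ p ∈ K,
      kpt (R n) c σ (y n) (u n) (r n) p ∈ M) :
    LocD l (fun n p => f (kpt (R n) c σ (y n) (u n) (r n) p)) D := by
  intro x hx
  obtain ⟨δ, hδ, hδD⟩ := Metric.isOpen_iff.mp hD x hx
  have hK : closedBall x (δ / 2) ⊆ D := (closedBall_subset_ball (by linarith)).trans hδD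
  refine ⟨δ / 2, by positivity, ?_⟩
  filter_upwards [h _ hK (isCompact_closedBall _ _)] with n hn p hp
  have h1 : DifferentiableAt ℂ f (kpt (R n) c σ (y n) (u n) (r n) p) :=
    hf.differentiableAt (hM.mem_nhds (hn p (ball_subset_closedBall hp)))
  have h2 : DifferentiableAt ℂ (kpt (R n) c σ (y n) (u n) (r n)) p :=
    (diff_kpt (R n) c σ (y n) (u n) (r n)) p
  exact (DifferentiableAt.comp p h1 h2).differentiableWithinAt

/-- the same from bounds on compacts of `Gc c s` at the unstraightened points -/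
theorem bound_of_Gc {Q : ι → ℂ × ℂ → Prop}
    (h : ∀ W : Set (ℂ × ℂ), IsCompact W → W ⊆ Gc c s → ∃ C : ℝ, ∀ᶠ n in l, ∀ z ∈ W,
      Q n (bpt (R n) (y n) (u n) (r n) z)) {K : Set (ℂ × ℂ)} (hK : K ⊆ Wd (s - σ))
    (hKc : IsCompact K) : ∀ᶠ n in l, ∀ p ∈ K, Q n (kpt (R n) c σ (y n) (u n) (r n) p) := by
  obtain ⟨C, hC⟩ := h _ (hKc.image (continuous_lsh c σ)) (lsh_Wd hK)
  exact hC.mono fun n hn p hp => hn _ ⟨p, hp, rfl⟩

/-- the same with a bound -/
theorem bound_of_Gc' {Q : ℝ → ι → ℂ × ℂ → Prop}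
    (h : ∀ W : Set (ℂ × ℂ), IsCompact W → W ⊆ Gc c s → ∃ C : ℝ, ∀ᶠ n in l, ∀ z ∈ W,
      Q C n (bpt (R n) (y n) (u n) (r n) z)) {K : Set (ℂ × ℂ)} (hK : K ⊆ Wd (s - σ))
    (hKc : IsCompact K) :
    ∃ C : ℝ, ∀ᶠ n in l, ∀ p ∈ K, Q C n (kpt (R n) c σ (y n) (u n) (r n) p) := by
  obtain ⟨C, hC⟩ := h _ (hKc.image (continuous_lsh c σ)) (lsh_Wd hK)
  exact ⟨C, hC.mono fun n hn p hp => hn _ ⟨p, hp, rfl⟩⟩

end

end Vale.Agent.P097.H190.WO
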