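import Vale.Agent.P097.H190.Half
import Vale.Agent.P097.H920.Inst

/-!
# P097 / case [c] / row W-OUT (helper190): from bounds to limits, along an ultrafilter

`line_dich`: if `e^{iα_n}` and `2 p_n e^{iα_n}` are locally bounded on a connected open set `D`, then
either (honest) `α_n - 2πN_n` and `p_n` are locally bounded, or (isotropic) `e^{2iα_n} → 0`.
`line_dich'`: the same with `-i`.
`cn_H`, `cn_I`, `cn_I'`: the limits and the data `CN` of 920 at every point.
`dich_of_dist`: the same from the bound of `Im α_n` of one sign at one point.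
-/

set_option linter.all false

noncomputable section

open Complex Metric Filter Topology Set

namespace Vale.Agent.P097.H190.WO

open Vale.Agent.P097.TC Vale.Agent.P097.H920 Vale.Agent.P097.H190.Ult

variable {ι E : Type*} [NormedAddCommGroup E] [NormedSpace ℂ E]
variable {Λ b : ℝ} {F q : ℂ → ℂ}

/-- near every point eventually holomorphic -/
def LocD (l : Filter ι) (f : ι → E → ℂ) (U : Set E) : Prop :=
  ∀ x ∈ U, ∃ r > 0, ∀ᶠ j in l, DifferentiableOn ℂ (f j) (ball x r)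

theorem norm_exp_I_mul (a : ℂ) : ‖exp (I * a)‖ = Real.exp (-a.im) := by
  rw [norm_exp]; simp

theorem norm_exp_neg_I_mul (a : ℂ) : ‖exp (-I * a)‖ = Real.exp (a.im) := by
  rw [norm_exp]; simp

/-- `e^{iα}` bounded = imaginary part bounded below -/
theorem locRe_of_exp {l : Filter ι} {f : ι → E → ℂ} {D : Set E} (hd : LocD l f D)
    (h : LocBdd l (fun n z => exp (f n z)) D) : LocRe l f D := by
  intro x hx
  obtain ⟨r, hr, hr'⟩ := hd x hx
  obtain ⟨r₂, hr₂, C, hC⟩ := h x hx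
  refine ⟨min r r₂, by positivity, Real.log (max C 1), ?_⟩
  filter_upwards [hr', hC] with n h1 h2
  refine ⟨h1.mono (ball_subset_ball (min_le_left _ _)), fun y hy => ?_⟩
  have h3 := h2.2 y (ball_subset_ball (min_le_right _ _) hy)
  rw [norm_exp] at h3
  rw [Real.le_log_iff_exp_le (by positivity)]
  exact h3.trans (le_max_left _ _)

section

variable (𝒰 : Ultrafilter ι) {al p : ι → E → ℂ} {D : Set E}

/-- shift by a multiple of `2π` : bounded from `Im` bounded at one point -/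
theorem locBdd_shift {f : ι → E → ℂ} {z₀ : E} (hb : LocBdd (𝒰 : Filter ι) (fun n z => f n z - f n z₀) D)
    {C : ℝ} (hC : ∀ᶠ n in (𝒰 : Filter ι), |(f n z₀).im| ≤ C) :
    ∃ N : ι → ℤ, LocBdd (𝒰 : Filter ι) (fun n z => f n z - 2 * Real.pi * N n) D := by
  refine ⟨fun n => ⌊(f n z₀).re / (2 * Real.pi)⌋, fun x hx => ?_⟩
  obtain ⟨r, hr, C₁, hC₁⟩ := hb x hx
  refine ⟨r, hr, C₁ + (2 * Real.pi + C), ?_⟩
  filter_upwards [hC₁, hC] with n h1 h2
  have hd : DifferentiableOn ℂ (f n) (ball x r) := by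
    have h3 := h1.1.add_const (f n z₀)
    exact h3.congr fun y hy => by ring
  refine ⟨hd.sub_const _, fun y hy => ?_⟩
  have h3 := h1.2 y hy
  have hpi := Real.pi_pos
  have h4 : ‖f n z₀ - 2 * Real.pi * (⌊(f n z₀).re / (2 * Real.pi)⌋ : ℤ)‖ ≤ 2 * Real.pi + C := by
    refine (norm_le_abs_re_add_abs_im _).trans (add_le_add ?_ ?_)
    · have e1 : (f n z₀ - 2 * Real.pi * (⌊(f n z₀).re / (2 * Real.pi)⌋ : ℤ)).re =
          (f n z₀).re - 2 * Real.pi * (⌊(f n z₀).re / (2 * Real.pi)⌋ : ℤ) := by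
        simp [mul_re]
      rw [e1]
      have e2 := Int.floor_le ((f n z₀).re / (2 * Real.pi))
      have e3 := Int.lt_floor_add_one ((f n z₀).re / (2 * Real.pi))
      rw [le_div_iff₀ (by positivity)] at e2
      rw [div_lt_iff₀ (by positivity)] at e3
      rw [abs_le]
      constructor <;> nlinarith
    · have e1 : (f n z₀ - 2 * Real.pi * (⌊(f n z₀).re / (2 * Real.pi)⌋ : ℤ)).im =
          (f n z₀).im := by simp [mul_im]
      rw [e1]; exact h2
  calc ‖f n y - 2 * Real.pi * (⌊(f n z₀).re / (2 * Real.pi)⌋ : ℤ)‖ =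
      ‖(f n y - f n z₀) + (f n z₀ - 2 * Real.pi * (⌊(f n z₀).re / (2 * Real.pi)⌋ : ℤ))‖ := by
        congr 1; ring
    _ ≤ _ := (norm_add_le _ _).trans (add_le_add h3 h4)

/-- **W-OUT, sign `+`** -/
theorem line_dich (hD : IsOpen D) (hc : IsPreconnected D) {z₀ : E} (hz₀ : z₀ ∈ D)
    (hal : LocD (𝒰 : Filter ι) al D) (hp : LocD (𝒰 : Filter ι) p D)
    (h1 : LocBdd (𝒰 : Filter ι) (fun n z => exp (I * al n z)) D)
    (h2 : LocBdd (𝒰 : Filter ι) (fun n z => 2 * p n z * exp (I * al n z)) D) :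
    (∃ N : ι → ℤ, LocBdd (𝒰 : Filter ι) (fun n z => al n z - 2 * Real.pi * N n) D ∧
      LocBdd (𝒰 : Filter ι) p D) ∨
    (LocBdd (𝒰 : Filter ι) (fun n z => exp (2 * I * al n z)) D ∧
      ∀ z ∈ D, ∃ r > 0, ∀ ε > 0, ∀ᶠ n in (𝒰 : Filter ι), ∀ y ∈ ball z r,
        ‖exp (2 * I * al n y)‖ ≤ ε) := by
  have hIal : LocD (𝒰 : Filter ι) (fun n z => I * al n z) D := by
    intro x hx
    obtain ⟨r, hr, h⟩ := hal x hx
    exact ⟨r, hr, h.mono fun n hn => hn.const_mul _⟩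
  have hre := locRe_of_exp hIal h1
  rcases re_dich 𝒰 hD hc hre hz₀ with h | ⟨hb, C₀, hC₀⟩
  · right
    have key : ∀ z ∈ D, ∃ r > 0, ∀ ε > 0, ∀ᶠ n in (𝒰 : Filter ι), ∀ y ∈ ball z r,
        ‖exp (2 * I * al n y)‖ ≤ ε := by
      intro z hz
      obtain ⟨r, hr, hM⟩ := h z hz
      refine ⟨r, hr, fun ε hε => ?_⟩
      filter_upwards [hM (Real.log ε / 2)] with n hn y hy
      have h3 := hn y hy
      have e1 : ‖exp (2 * I * al n y)‖ = Real.exp (2 * (I * al n y).re) := by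
        rw [norm_exp]
        congr 1
        have : (2 * I * al n y : ℂ) = ((2 : ℝ) : ℂ) * (I * al n y) := by push_cast; ring
        rw [this, re_ofReal_mul]
      rw [e1, ← Real.le_log_iff_exp_le hε]
      linarith
    refine ⟨fun x hx => ?_, key⟩
    obtain ⟨r, hr, h3⟩ := key x hx
    obtain ⟨r₂, hr₂, h4⟩ := hal x hx
    refine ⟨min r r₂, by positivity, 1, ?_⟩
    filter_upwards [h3 1 one_pos, h4] with n h5 h6
    exact ⟨((h6.mono (ball_subset_ball (min_le_right _ _))).const_mul _).cexp,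
      fun y hy => h5 y (ball_subset_ball (min_le_left _ _) hy)⟩
  · left
    have hb' : LocBdd (𝒰 : Filter ι) (fun n z => al n z - al n z₀) D := by
      intro x hx
      obtain ⟨r, hr, C, hC⟩ := hb x hx
      refine ⟨r, hr, C, ?_⟩
      filter_upwards [hC] with n hn
      constructor
      · have h3 := hn.1.const_mul (-I)
        refine h3.congr fun y hy => ?_
        have : I * I = -1 := I_mul_I
        linear_combination (al n y - al n z₀) * this
      · intro y hy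
        have h3 := hn.2 y hy
        have e1 : I * al n y - I * al n z₀ = I * (al n y - al n z₀) := by ring
        rwa [e1, norm_mul, norm_I, one_mul] at h3
    obtain ⟨r₀, hr₀, C₁, hC₁⟩ := hre z₀ hz₀
    have him : ∀ᶠ n in (𝒰 : Filter ι), |(al n z₀).im| ≤ max |C₀| |C₁| := by
      filter_upwards [hC₀, hC₁] with n h3 h4
      have h5 := h4.2 z₀ (mem_ball_self hr₀)
      have e1 : (I * al n z₀).re = -(al n z₀).im := by simp
      rw [e1] at h3 h5
      have e2 := le_abs_self C₁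
      have e3 := neg_abs_le C₀
      have e4 := le_max_left |C₀| |C₁|
      have e5 := le_max_right |C₀| |C₁|
      rw [abs_le]
      constructor <;> linarith
    obtain ⟨N, hN⟩ := locBdd_shift 𝒰 hb' him
    refine ⟨N, hN, fun x hx => ?_⟩
    obtain ⟨r₁, hr₁, C₂, hC₂⟩ := h2 x hx
    obtain ⟨r₂, hr₂, C₃, hC₃⟩ := hN x hx
    obtain ⟨r₃, hr₃, h6⟩ := hp x hx
    refine ⟨min r₁ (min r₂ r₃), by positivity, C₂ * Real.exp C₃, ?_⟩
    filter_upwards [hC₂, hC₃, h6] with n h7 h8 h9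
    have s1 : ball x (min r₁ (min r₂ r₃)) ⊆ ball x r₁ := ball_subset_ball (min_le_left _ _)
    have s2 : ball x (min r₁ (min r₂ r₃)) ⊆ ball x r₂ :=
      ball_subset_ball ((min_le_right _ _).trans (min_le_left _ _))
    have s3 : ball x (min r₁ (min r₂ r₃)) ⊆ ball x r₃ :=
      ball_subset_ball ((min_le_right _ _).trans (min_le_right _ _))
    refine ⟨h9.mono s3, fun y hy => ?_⟩
    have e1 := h7.2 y (s1 hy)
    have e2 := h8.2 y (s2 hy)
    rw [norm_mul, norm_mul, norm_exp_I_mul] at e1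
    have e3 : |(al n y).im| ≤ C₃ := by
      have := (abs_im_le_norm (al n y - 2 * Real.pi * N n)).trans e2
      have e4 : (al n y - 2 * Real.pi * N n).im = (al n y).im := by simp [mul_im]
      rwa [e4] at this
    have e4 : Real.exp (-C₃) ≤ Real.exp (-(al n y).im) :=
      Real.exp_le_exp.mpr (by linarith [(abs_le.mp e3).2])
    have e5 : ‖(2 : ℂ)‖ = 2 := by simp
    rw [e5] at e1
    have e6 := norm_nonneg (p n y)
    have e7 : ‖p n y‖ * Real.exp (-C₃) ≤ C₂ := by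
      have := mul_le_mul_of_nonneg_left e4 e6
      have e8 : 0 ≤ ‖p n y‖ * Real.exp (-(al n y).im) := by positivity
      nlinarith
    have e8 : ‖p n y‖ = ‖p n y‖ * Real.exp (-C₃) * Real.exp C₃ := by
      rw [mul_assoc, ← Real.exp_add]; simp
    rw [e8]
    exact mul_le_mul_of_nonneg_right e7 (Real.exp_nonneg _)

/-- **W-OUT, sign `-`** -/
theorem line_dich' (hD : IsOpen D) (hc : IsPreconnected D) {z₀ : E} (hz₀ : z₀ ∈ D)
    (hal : LocD (𝒰 : Filter ι) al D) (hp : LocD (𝒰 : Filter ι) p D)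
    (h1 : LocBdd (𝒰 : Filter ι) (fun n z => exp (-I * al n z)) D)
    (h2 : LocBdd (𝒰 : Filter ι) (fun n z => 2 * p n z * exp (-I * al n z)) D) :
    (∃ N : ι → ℤ, LocBdd (𝒰 : Filter ι) (fun n z => al n z - 2 * Real.pi * N n) D ∧
      LocBdd (𝒰 : Filter ι) p D) ∨
    (LocBdd (𝒰 : Filter ι) (fun n z => exp (-(2 * I * al n z))) D ∧
      ∀ z ∈ D, ∃ r > 0, ∀ ε > 0, ∀ᶠ n in (𝒰 : Filter ι), ∀ y ∈ ball z r,
        ‖exp (-(2 * I * al n y))‖ ≤ ε) := by
  have hal' : LocD (𝒰 : Filter ι) (fun n z => -al n z) D := by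
    intro x hx
    obtain ⟨r, hr, h⟩ := hal x hx
    exact ⟨r, hr, h.mono fun n hn => hn.neg⟩
  have e1 : ∀ n z, I * (-al n z) = -I * al n z := fun n z => by ring
  have e2 : ∀ n z, 2 * I * (-al n z) = -(2 * I * al n z) := fun n z => by ring
  have := line_dich 𝒰 (al := fun n z => -al n z) (p := p) hD hc hz₀ hal' hp
    (by simpa only [e1] using h1) (by simpa only [e1] using h2)
  rcases this with ⟨N, h3, h4⟩ | h3
  · left
    refine ⟨fun n => -N n, fun x hx => ?_, h4⟩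
    obtain ⟨r, hr, C, hC⟩ := h3 x hx
    refine ⟨r, hr, C, ?_⟩
    filter_upwards [hC] with n hn
    have e3 : ∀ y, al n y - 2 * Real.pi * ((-N n : ℤ) : ℂ) = -(-al n y - 2 * Real.pi * N n) := by
      intro y; push_cast; ring
    refine ⟨hn.1.neg.congr fun y hy => e3 y, fun y hy => ?_⟩
    rw [e3, norm_neg]
    exact hn.2 y hy
  · right
    simpa only [e2] using h3

end

/-! ### limits and 920's data -/

section

variable [ProperSpace E] (𝒰 : Ultrafilter ι) {al p : ι → E → ℂ} {D : Set E}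

theorem Mi_shift (F q : ℂ → ℂ) (a p x : ℂ) (N : ℤ) :
    Mi F q (a - 2 * Real.pi * N) p x = Mi F q a p x := by
  have e1 : a - 2 * Real.pi * N - F x = (a - F x) - N * (2 * Real.pi) := by ring
  rw [Mi, Mi, e1, Complex.cos_sub_int_mul_two_pi, Complex.sin_sub_int_mul_two_pi]

/-- **honest** -/
theorem cn_H (h : Cv Λ b F q) (hD : IsOpen D) {N : ι → ℤ}
    (h1 : LocBdd (𝒰 : Filter ι) (fun n z => al n z - 2 * Real.pi * N n) D)
    (h2 : LocBdd (𝒰 : Filter ι) p D) :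
    ∃ al' p' : E → ℂ, DifferentiableOn ℂ al' D ∧ DifferentiableOn ℂ p' D ∧
      TendstoLocallyUniformlyOn (fun n z => al n z - 2 * Real.pi * N n) al' (𝒰 : Filter ι) D ∧
      TendstoLocallyUniformlyOn p p' (𝒰 : Filter ι) D ∧
      ∀ z ∈ D, ∀ x ∈ Sb b, CN (𝒰 : Filter ι) (fun n w => Mi F q (al n w.1) (p n w.1) w.2)
        (fun w => Mi F q (al' w.1) (p' w.1) w.2) z x := by
  obtain ⟨al', d1, c1, -⟩ := montel_full 𝒰 hD h1
  obtain ⟨p', d2, c2, -⟩ := montel_full 𝒰 hD h2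
  refine ⟨al', p', d1, d2, c1, c2, fun z hz x hx => ?_⟩
  obtain ⟨r₁, hr₁, s₁, u₁⟩ := unif_near hD c1 hz
  obtain ⟨r₂, hr₂, s₂, u₂⟩ := unif_near hD c2 hz
  obtain ⟨r₃, hr₃, C₃, hC₃⟩ := h1 z hz
  obtain ⟨r₄, hr₄, C₄, hC₄⟩ := h2 z hz
  set ρ := min (min r₁ r₂) (min r₃ r₄) with hρ
  have hρ0 : 0 < ρ := by positivity
  have i1 : ball z ρ ⊆ ball z r₁ :=
    ball_subset_ball ((min_le_left _ _).trans (min_le_left _ _))
  have i2 : ball z ρ ⊆ ball z r₂ :=
    ball_subset_ball ((min_le_left _ _).trans (min_le_right _ _))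
  have i3 : ball z ρ ⊆ ball z r₃ :=
    ball_subset_ball ((min_le_right _ _).trans (min_le_left _ _))
  have i4 : ball z ρ ⊆ ball z r₄ :=
    ball_subset_ball ((min_le_right _ _).trans (min_le_right _ _))
  have hcn := cn_line (E := E) (l := (𝒰 : Filter ι)) h (V := ball z ρ) (z₀ := z)
    (al := fun n z => al n z - 2 * Real.pi * N n) (p := p) (al' := al') (p' := p')
    (ball_mem_nhds z hρ0) (hC₃.mono fun n hn => hn.1.mono i3) (hC₄.mono fun n hn => hn.1.mono i4)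
    (u₁.mono i1) (u₂.mono i2) ((d1.differentiableAt (hD.mem_nhds hz)).continuousAt)
    ((d2.differentiableAt (hD.mem_nhds hz)).continuousAt) hx
  simpa only [Mi_shift] using hcn

/-- **isotropic, sign `+`** -/
theorem cn_I (h : Cv Λ b F q) (hD : IsOpen D) (hal : LocD (𝒰 : Filter ι) al D)
    (hp : LocD (𝒰 : Filter ι) p D)
    (h1 : ∀ z ∈ D, ∃ r > 0, ∀ ε > 0, ∀ᶠ n in (𝒰 : Filter ι), ∀ y ∈ ball z r,
        ‖exp (2 * I * al n y)‖ ≤ ε)
    (h2 : LocBdd (𝒰 : Filter ι) (fun n z => 2 * p n z * exp (I * al n z)) D) :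
    ∃ B' : E → ℂ, DifferentiableOn ℂ B' D ∧
      TendstoLocallyUniformlyOn (fun n z => 2 * p n z * exp (I * al n z)) B' (𝒰 : Filter ι) D ∧
      ∀ z ∈ D, ∀ x ∈ Sb b, CN (𝒰 : Filter ι)
        (fun n w => 2 * exp (I * al n w.1) * Mi F q (al n w.1) (p n w.1) w.2)
        (fun w => Ip F q (B' w.1) w.2) z x := by
  obtain ⟨B', d1, c1, -⟩ := montel_full 𝒰 hD h2
  refine ⟨B', d1, c1, fun z hz x hx => ?_⟩
  obtain ⟨r₁, hr₁, s₁, u₁⟩ := unif_near hD c1 hz
  obtain ⟨r₂, hr₂, u₂⟩ := h1 z hz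
  obtain ⟨r₃, hr₃, hC₃⟩ := hal z hz
  obtain ⟨r₄, hr₄, hC₄⟩ := hp z hz
  set ρ := min (min r₁ r₂) (min r₃ r₄) with hρ
  have hρ0 : 0 < ρ := by positivity
  have i1 : ball z ρ ⊆ ball z r₁ :=
    ball_subset_ball ((min_le_left _ _).trans (min_le_left _ _))
  have i2 : ball z ρ ⊆ ball z r₂ :=
    ball_subset_ball ((min_le_left _ _).trans (min_le_right _ _))
  have i3 : ball z ρ ⊆ ball z r₃ :=
    ball_subset_ball ((min_le_right _ _).trans (min_le_left _ _))
  have i4 : ball z ρ ⊆ ball z r₄ :=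
    ball_subset_ball ((min_le_right _ _).trans (min_le_right _ _))
  refine cn_iso h (V := ball z ρ) (ball_mem_nhds z hρ0) (hC₃.mono fun n hn => hn.mono i3)
    (hC₄.mono fun n hn => hn.mono i4) ?_ (u₁.mono i1)
    ((d1.differentiableAt (hD.mem_nhds hz)).continuousAt) hx
  rw [Metric.tendstoUniformlyOn_iff]
  intro ε hε
  filter_upwards [u₂ (ε / 2) (by positivity)] with n hn y hy
  rw [dist_zero_left]
  linarith [hn y (i2 hy)]

/-- **isotropic, sign `-`** -/
theorem cn_I' (h : Cv Λ b F q) (hD : IsOpen D) (hal : LocD (𝒰 : Filter ι) al D)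
    (hp : LocD (𝒰 : Filter ι) p D)
    (h1 : ∀ z ∈ D, ∃ r > 0, ∀ ε > 0, ∀ᶠ n in (𝒰 : Filter ι), ∀ y ∈ ball z r,
        ‖exp (-(2 * I * al n y))‖ ≤ ε)
    (h2 : LocBdd (𝒰 : Filter ι) (fun n z => 2 * p n z * exp (-I * al n z)) D) :
    ∃ B' : E → ℂ, DifferentiableOn ℂ B' D ∧
      TendstoLocallyUniformlyOn (fun n z => 2 * p n z * exp (-I * al n z)) B' (𝒰 : Filter ι) D ∧
      ∀ z ∈ D, ∀ x ∈ Sb b, CN (𝒰 : Filter ι)
        (fun n w => 2 * exp (-I * al n w.1) * Mi F q (al n w.1) (p n w.1) w.2)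
        (fun w => Im' F q (B' w.1) w.2) z x := by
  obtain ⟨B', d1, c1, -⟩ := montel_full 𝒰 hD h2
  refine ⟨B', d1, c1, fun z hz x hx => ?_⟩
  obtain ⟨r₁, hr₁, s₁, u₁⟩ := unif_near hD c1 hz
  obtain ⟨r₂, hr₂, u₂⟩ := h1 z hz
  obtain ⟨r₃, hr₃, hC₃⟩ := hal z hz
  obtain ⟨r₄, hr₄, hC₄⟩ := hp z hz
  set ρ := min (min r₁ r₂) (min r₃ r₄) with hρ
  have hρ0 : 0 < ρ := by positivity
  have i1 : ball z ρ ⊆ ball z r₁ :=
    ball_subset_ball ((min_le_left _ _).trans (min_le_left _ _))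
  have i2 : ball z ρ ⊆ ball z r₂ :=
    ball_subset_ball ((min_le_left _ _).trans (min_le_right _ _))
  have i3 : ball z ρ ⊆ ball z r₃ :=
    ball_subset_ball ((min_le_right _ _).trans (min_le_left _ _))
  have i4 : ball z ρ ⊆ ball z r₄ :=
    ball_subset_ball ((min_le_right _ _).trans (min_le_right _ _))
  refine cn_iso' h (V := ball z ρ) (ball_mem_nhds z hρ0) (hC₃.mono fun n hn => hn.mono i3)
    (hC₄.mono fun n hn => hn.mono i4) ?_ (u₁.mono i1)
    ((d1.differentiableAt (hD.mem_nhds hz)).continuousAt) hx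
  rw [Metric.tendstoUniformlyOn_iff]
  intro ε hε
  filter_upwards [u₂ (ε / 2) (by positivity)] with n hn y hy
  rw [dist_zero_left]
  linarith [hn y (i2 hy)]

end

end Vale.Agent.P097.H190.WO
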